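import Vale.Agent.P371k.Defs

/-! Diagonal formulas for `Tn`, `DTn`, `An`, `DAn`: rotate to an eigenbasis of `G`. -/

namespace Vale.Agent.P371k
open Matrix BigOperators
open Vale.Agent.P371h8 (dd pev pdd)

variable {ι : Type*} [Fintype ι] [DecidableEq ι]

/-- powers of `G` in the eigenbasis. -/
lemma pow_eq (Q : Matrix ι ι ℝ) (g : ι → ℝ) (hQ : Qᵀ * Q = 1) (G : Matrix ι ι ℝ)
    (hG : G = Q * diagonal g * Qᵀ) (n : ℕ) :
    G ^ n = Q * diagonal (fun i => g i ^ n) * Qᵀ := by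
  have hQ' : Q * Qᵀ = 1 := mul_eq_one_comm.mp hQ
  induction n with
  | zero =>
    simp [hQ', Matrix.diagonal_one]
  | succ n ih =>
    rw [pow_succ, ih, hG]
    calc Q * diagonal (fun i => g i ^ n) * Qᵀ * (Q * diagonal g * Qᵀ)
        = Q * diagonal (fun i => g i ^ n) * (Qᵀ * Q) * diagonal g * Qᵀ := by
          simp only [Matrix.mul_assoc]
      _ = Q * (diagonal (fun i => g i ^ n) * diagonal g) * Qᵀ := by
          rw [hQ]
          simp only [Matrix.mul_assoc, Matrix.one_mul]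
      _ = Q * diagonal (fun i => g i ^ (n + 1)) * Qᵀ := by
          rw [Matrix.diagonal_mul_diagonal]
          simp only [pow_succ]

/-- `tr (f(G) M)` in the eigenbasis, for a diagonal `f`. -/
lemma trace_diag_conj (Q : Matrix ι ι ℝ) (f : ι → ℝ) (M : Matrix ι ι ℝ) :
    trace (Q * diagonal f * Qᵀ * M) = ∑ i, f i * (Qᵀ * M * Q) i i := by
  have h : trace (Q * diagonal f * Qᵀ * M) = trace (diagonal f * (Qᵀ * M * Q)) := by
    calc trace (Q * diagonal f * Qᵀ * M) = trace (Q * (diagonal f * (Qᵀ * M))) := by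
          simp only [Matrix.mul_assoc]
      _ = trace ((diagonal f * (Qᵀ * M)) * Q) := Matrix.trace_mul_comm _ _
      _ = trace (diagonal f * (Qᵀ * M * Q)) := by
          simp only [Matrix.mul_assoc]
  rw [h]
  simp [Matrix.trace, Matrix.diag, Matrix.diagonal_mul]

theorem Tn_spectral (Q : Matrix ι ι ℝ) (g : ι → ℝ) (hQ : Qᵀ * Q = 1) (G : Matrix ι ι ℝ)
    (hG : G = Q * diagonal g * Qᵀ) (R : Matrix ι ι ℝ) (n : ℕ) :
    Tn G R n = ∑ i, g i ^ n * (Qᵀ * R * Q) i i := by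
  unfold Tn
  rw [pow_eq Q g hQ G hG n, trace_diag_conj]

theorem An_spectral (Q : Matrix ι ι ℝ) (g : ι → ℝ) (hQ : Qᵀ * Q = 1) (G : Matrix ι ι ℝ)
    (hG : G = Q * diagonal g * Qᵀ) (n : ℕ) :
    An G n = ∑ i, g i ^ n := by
  unfold An
  rw [pow_eq Q g hQ G hG n]
  have h := trace_diag_conj Q (fun i => g i ^ n) (1 : Matrix ι ι ℝ)
  rw [Matrix.mul_one, Matrix.mul_one, hQ] at h
  rw [h]
  refine Finset.sum_congr rfl fun i _ => ?_
  simp

theorem DAn_spectral (Q : Matrix ι ι ℝ) (g : ι → ℝ) (hQ : Qᵀ * Q = 1) (G : Matrix ι ι ℝ)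
    (hG : G = Q * diagonal g * Qᵀ) (R : Matrix ι ι ℝ) (n : ℕ) :
    DAn G R n = ∑ i, ((n : ℝ) * g i ^ (n - 1)) * (Qᵀ * R * Q) i i := by
  unfold DAn
  rw [pow_eq Q g hQ G hG (n - 1), trace_diag_conj, Finset.mul_sum]
  refine Finset.sum_congr rfl fun i _ => ?_
  ring

/-- one term of the double sum. -/
lemma trace_term (Q : Matrix ι ι ℝ) (g : ι → ℝ) (hQ : Qᵀ * Q = 1) (G : Matrix ι ι ℝ)
    (hG : G = Q * diagonal g * Qᵀ) (R : Matrix ι ι ℝ) (hR : R.IsSymm) (r s : ℕ) :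
    trace (G ^ r * R * G ^ s * R) = ∑ i, ∑ j, g i ^ r * g j ^ s * (Qᵀ * R * Q) i j ^ 2 := by
  have hsym : ∀ i j, (Qᵀ * R * Q) j i = (Qᵀ * R * Q) i j := by
    intro i j
    have h : (Qᵀ * R * Q)ᵀ = Qᵀ * R * Q := by
      rw [Matrix.transpose_mul, Matrix.transpose_mul, Matrix.transpose_transpose, hR.eq,
        Matrix.mul_assoc]
    have := congrFun (congrFun h i) j
    simpa [Matrix.transpose_apply] using this
  set R' := Qᵀ * R * Q with hR'
  have hQ' : Q * Qᵀ = 1 := mul_eq_one_comm.mp hQ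
  have hRe : R = Q * R' * Qᵀ := by
    calc R = (Q * Qᵀ) * R * (Q * Qᵀ) := by rw [hQ']; simp
      _ = Q * R' * Qᵀ := by simp only [hR', Matrix.mul_assoc]
  have e : trace (G ^ r * R * G ^ s * R)
      = trace (diagonal (fun i => g i ^ r) * R' * diagonal (fun i => g i ^ s) * R') := by
    rw [pow_eq Q g hQ G hG r, pow_eq Q g hQ G hG s]
    conv_lhs => rw [hRe]
    have step : Q * diagonal (fun i => g i ^ r) * Qᵀ * (Q * R' * Qᵀ) *
          (Q * diagonal (fun i => g i ^ s) * Qᵀ) * (Q * R' * Qᵀ)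
        = Q * (diagonal (fun i => g i ^ r) * R' * diagonal (fun i => g i ^ s) * R') * Qᵀ := by
      calc Q * diagonal (fun i => g i ^ r) * Qᵀ * (Q * R' * Qᵀ) *
            (Q * diagonal (fun i => g i ^ s) * Qᵀ) * (Q * R' * Qᵀ)
          = Q * diagonal (fun i => g i ^ r) * (Qᵀ * Q) * R' * (Qᵀ * Q) *
              diagonal (fun i => g i ^ s) * (Qᵀ * Q) * R' * Qᵀ := by
            simp only [Matrix.mul_assoc]
        _ = _ := by
            rw [hQ]
            simp only [Matrix.mul_assoc, Matrix.mul_one]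
    rw [step, Matrix.trace_mul_comm, ← Matrix.mul_assoc, hQ, Matrix.one_mul] 
  rw [e]
  have h3 : ∀ i j, (diagonal (fun i => g i ^ r) * R' * diagonal (fun i => g i ^ s)) i j
      = g i ^ r * R' i j * g j ^ s := by
    intro i j
    rw [Matrix.mul_diagonal, Matrix.diagonal_mul]
  simp only [Matrix.trace, Matrix.diag]
  refine Finset.sum_congr rfl fun i _ => ?_
  rw [Matrix.mul_apply]
  refine Finset.sum_congr rfl fun j _ => ?_
  rw [h3, hsym j i]
  ring

theorem DTn_spectral (Q : Matrix ι ι ℝ) (g : ι → ℝ) (hQ : Qᵀ * Q = 1) (G : Matrix ι ι ℝ)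
    (hG : G = Q * diagonal g * Qᵀ) (R D : Matrix ι ι ℝ) (hR : R.IsSymm) (n : ℕ) :
    DTn G R D n = ∑ i, g i ^ n * (Qᵀ * D * Q) i i
      + ∑ i, ∑ j, (Qᵀ * R * Q) i j ^ 2 * dd n (g i) (g j) := by
  unfold DTn
  congr 1
  · rw [pow_eq Q g hQ G hG n, trace_diag_conj]
  · simp_rw [trace_term Q g hQ G hG R hR]
    rw [Finset.sum_comm]
    refine Finset.sum_congr rfl fun i _ => ?_
    rw [Finset.sum_comm]
    refine Finset.sum_congr rfl fun j _ => ?_
    unfold dd
    rw [Finset.mul_sum]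
    refine Finset.sum_congr rfl fun r _ => ?_
    ring

end Vale.Agent.P371k
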