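import Mathlib

/-! Real Beta integrals on `(0,1)`, and the variant in `s = √x`. -/

namespace Vale.Agent.P371k
open Real MeasureTheory Set

/-- integrability of the Beta integrand. -/
lemma beta_integrableOn {a b : ℝ} (ha : 0 < a) (hb : 0 < b) :
    IntegrableOn (fun x : ℝ => x ^ (a - 1) * (1 - x) ^ (b - 1)) (Ioo 0 1) := by
  have hconv := Complex.betaIntegral_convergent (u := (a : ℂ)) (v := (b : ℂ)) (by simpa) (by simpa)
  rw [intervalIntegrable_iff_integrableOn_Ioo_of_le (by norm_num)] at hconv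
  have h2 : IntegrableOn (fun x : ℝ => RCLike.re ((x : ℂ) ^ ((a : ℂ) - 1) * (1 - (x : ℂ)) ^ ((b : ℂ) - 1))) (Ioo 0 1) :=
    hconv.re
  refine h2.congr_fun (fun x hx => ?_) measurableSet_Ioo
  have hx0 : (0:ℝ) ≤ x := hx.1.le
  have hx1 : (0:ℝ) ≤ 1 - x := by linarith [hx.2]
  simp only []
  have e1 : ((x : ℂ) ^ ((a : ℂ) - 1)) = ((x ^ (a - 1) : ℝ) : ℂ) := by
    rw [Complex.ofReal_cpow hx0]; push_cast; rfl
  have e2 : ((1 - (x : ℂ)) ^ ((b : ℂ) - 1)) = (((1 - x) ^ (b - 1) : ℝ) : ℂ) := by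
    rw [Complex.ofReal_cpow hx1]; push_cast; rfl
  rw [e1, e2, ← Complex.ofReal_mul]
  simp

/-- value of the Beta integral. -/
lemma beta_integral {a b : ℝ} (ha : 0 < a) (hb : 0 < b) :
    ∫ x in Ioo (0:ℝ) 1, x ^ (a - 1) * (1 - x) ^ (b - 1) = Gamma a * Gamma b / Gamma (a + b) := by
  have h := Complex.betaIntegral_eq_Gamma_mul_div (a : ℂ) (b : ℂ) (by simpa) (by simpa)
  have h2 : ((∫ x in Ioo (0:ℝ) 1, x ^ (a - 1) * (1 - x) ^ (b - 1) : ℝ) : ℂ) =
      Complex.betaIntegral a b := by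
    unfold Complex.betaIntegral
    rw [intervalIntegral.integral_of_le (by norm_num), integral_Ioc_eq_integral_Ioo]
    rw [← integral_complex_ofReal]
    refine setIntegral_congr_fun measurableSet_Ioo (fun x hx => ?_)
    have hx0 : (0:ℝ) ≤ x := hx.1.le
    have hx1 : (0:ℝ) ≤ 1 - x := by linarith [hx.2]
    have e1 : ((x : ℂ) ^ ((a : ℂ) - 1)) = ((x ^ (a - 1) : ℝ) : ℂ) := by
      rw [Complex.ofReal_cpow hx0]; push_cast; rfl
    have e2 : ((1 - (x : ℂ)) ^ ((b : ℂ) - 1)) = (((1 - x) ^ (b - 1) : ℝ) : ℂ) := by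
      rw [Complex.ofReal_cpow hx1]; push_cast; rfl
    rw [e1, e2, Complex.ofReal_mul]
  rw [h] at h2
  have h3 : ((Gamma a * Gamma b / Gamma (a + b) : ℝ) : ℂ) =
      Complex.Gamma a * Complex.Gamma b / Complex.Gamma (a + b) := by
    push_cast
    rw [Complex.Gamma_ofReal, Complex.Gamma_ofReal, ← Complex.ofReal_add, Complex.Gamma_ofReal]
  rw [← h3] at h2
  exact_mod_cast h2

/-- substitution `x = s²` maps `(0,1)` onto `(0,1)`. -/
lemma image_sq_Ioo : (fun s : ℝ => s ^ 2) '' Ioo (0:ℝ) 1 = Ioo (0:ℝ) 1 := by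
  ext x
  constructor
  · rintro ⟨s, ⟨h0, h1⟩, rfl⟩
    constructor
    · positivity
    · nlinarith
  · rintro ⟨h0, h1⟩
    refine ⟨√x, ⟨sqrt_pos.mpr h0, ?_⟩, sq_sqrt h0.le⟩
    rw [sqrt_lt' one_pos]; simpa using h1

lemma sq_injOn_Ioo : InjOn (fun s : ℝ => s ^ 2) (Ioo (0:ℝ) 1) := by
  intro s hs t ht h
  have := (sq_eq_sq₀ hs.1.le ht.1.le).mp h
  exact this

lemma beta_s_formula {a b s : ℝ} (hs : s ∈ Ioo (0:ℝ) 1) :
    |2 * s| • ((s ^ 2) ^ (a - 1) * (1 - s ^ 2) ^ (b - 1)) =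
      2 * (s ^ (2 * a - 1) * (1 - s ^ 2) ^ (b - 1)) := by
  have h0 : 0 < s := hs.1
  rw [abs_of_pos (by positivity), smul_eq_mul]
  have : s * (s ^ 2) ^ (a - 1) = s ^ (2 * a - 1) := by
    rw [← rpow_natCast s 2, ← rpow_mul h0.le]
    nth_rewrite 1 [← rpow_one s]
    rw [← rpow_add h0]
    congr 1; push_cast; ring
  rw [← this]; ring

lemma beta_s_integrableOn {a b : ℝ} (ha : 0 < a) (hb : 0 < b) :
    IntegrableOn (fun s : ℝ => s ^ (2 * a - 1) * (1 - s ^ 2) ^ (b - 1)) (Ioo 0 1) := by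
  have h := beta_integrableOn ha hb
  rw [← image_sq_Ioo,
    integrableOn_image_iff_integrableOn_abs_deriv_smul measurableSet_Ioo
      (fun s _ => ((hasDerivAt_pow 2 s).hasDerivWithinAt)) sq_injOn_Ioo] at h
  have h2 := h.const_mul (1 / 2)
  refine IntegrableOn.congr_fun h2 (fun s hs => ?_) measurableSet_Ioo
  have := beta_s_formula (a := a) (b := b) hs
  simp only [Nat.cast_ofNat, Nat.add_one_sub_one, pow_one] at *
  rw [this]; ring

lemma beta_s_integral {a b : ℝ} (ha : 0 < a) (hb : 0 < b) :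
    ∫ s in Ioo (0:ℝ) 1, s ^ (2 * a - 1) * (1 - s ^ 2) ^ (b - 1) =
      Gamma a * Gamma b / Gamma (a + b) / 2 := by
  have h := beta_integral ha hb
  rw [← image_sq_Ioo,
    integral_image_eq_integral_abs_deriv_smul measurableSet_Ioo
      (fun s _ => ((hasDerivAt_pow 2 s).hasDerivWithinAt)) sq_injOn_Ioo] at h
  rw [← h, ← integral_div]
  refine setIntegral_congr_fun measurableSet_Ioo (fun s hs => ?_)
  have := beta_s_formula (a := a) (b := b) hs
  simp only [Nat.cast_ofNat, Nat.add_one_sub_one, pow_one] at *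
  rw [this]; ring

end Vale.Agent.P371k
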