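import Vale.Agent.P371k.Scalar
import Vale.Agent.P371k.BetaReal

/-! E9, part U: the Mellin transform of `UB`, by the substitution `B = A (1/s - s)`. -/

namespace Vale.Agent.P371k
open Real MeasureTheory Set

/-- parametrization of `B`. -/
noncomputable def bs (A s : ℝ) : ℝ := A * (1 / s - s)

noncomputable def bsd (A s : ℝ) : ℝ := -(A * (1 / s ^ 2 + 1))

lemma hasDerivAt_bs (A : ℝ) {s : ℝ} (hs : s ≠ 0) : HasDerivAt (bs A) (bsd A s) s := by
  have h1 : HasDerivAt (fun s : ℝ => 1 / s) (-1 / s ^ 2) s := by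
    simp only [one_div]
    exact (hasDerivAt_inv hs).congr_deriv (by ring)
  have h2 := (h1.sub (hasDerivAt_id s)).const_mul A
  have h3 : HasDerivAt (fun s : ℝ => A * (1 / s - s)) _ s := h2
  refine h3.congr_deriv ?_
  unfold bsd
  field_simp
  ring

lemma bs_pos {A s : ℝ} (hA : 0 < A) (hs : s ∈ Ioo (0:ℝ) 1) : 0 < bs A s := by
  unfold bs
  have h0 := hs.1
  have h1 : s < 1 / s := by
    rw [lt_div_iff₀ h0]; nlinarith [hs.2]
  exact mul_pos hA (by linarith)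

lemma bs_image {A : ℝ} (hA : 0 < A) : bs A '' Ioo (0:ℝ) 1 = Ioi (0:ℝ) := by
  ext B
  constructor
  · rintro ⟨s, hs, rfl⟩
    exact bs_pos hA hs
  · intro hB
    have hB : 0 < B := hB
    set S := √(B ^ 2 + 4 * A ^ 2) with hS
    have hS2 : S ^ 2 = B ^ 2 + 4 * A ^ 2 := sq_sqrt (by positivity)
    have hS0 : 0 ≤ S := sqrt_nonneg _
    have hSB : B < S := by
      nlinarith [sq_nonneg A, mul_pos hA hA]
    have hS3 : S < B + 2 * A := by
      nlinarith [mul_pos hA hA, mul_pos hB hA]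
    refine ⟨(S - B) / (2 * A), ⟨by apply div_pos <;> linarith, ?_⟩, ?_⟩
    · rw [div_lt_one (by positivity)]; linarith
    · unfold bs
      have h4 : S - B ≠ 0 := by linarith
      have h5 : A ≠ 0 := hA.ne'
      field_simp
      nlinarith [hS2]

lemma bs_injOn {A : ℝ} (hA : 0 < A) : InjOn (bs A) (Ioo (0:ℝ) 1) := by
  intro s hs t ht h
  unfold bs at h
  have h1 := mul_left_cancel₀ hA.ne' h
  have h0s := hs.1
  have h0t := ht.1
  field_simp at h1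
  have h2 : (s - t) * (1 + s * t) = 0 := by nlinarith [h1]
  have h3 : 1 + s * t ≠ 0 := by positivity
  have h4 := (mul_eq_zero.mp h2).resolve_right h3
  linarith

lemma rB_bs {A w s : ℝ} (hA : 0 < A) (hw : 3 * π ^ 2 * w = 16 * A ^ 2) (hs : s ∈ Ioo (0:ℝ) 1) :
    rB (bs A s) w = w * s / (2 * A) := by
  have h0 := hs.1
  unfold rB
  have h1 : 4 * bs A s ^ 2 + 3 * π ^ 2 * w = (2 * A * (1 / s + s)) ^ 2 := by
    rw [hw]; unfold bs; field_simp; ring
  rw [h1, sqrt_sq (by positivity)]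
  unfold bs
  field_simp
  ring

lemma UB_bs {A w s : ℝ} (hA : 0 < A) (hw0 : 0 ≤ w) (hw : 3 * π ^ 2 * w = 16 * A ^ 2)
    (hs : s ∈ Ioo (0:ℝ) 1) :
    UB (bs A s) w = w ^ 2 / (4 * A) * (s * (1 + s ^ 2 / 3)) := by
  have hpi := pi_pos
  have hB := bs_pos hA hs
  rw [UB_eq hB hw0, rB_bs hA hw hs]
  have hw1 : π ^ 2 = 16 * A ^ 2 / (3 * w) := by
    have : w ≠ 0 := by
      rintro rfl
      have : A ^ 2 = 0 := by linarith
      exact (pow_pos hA 2).ne' this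
    field_simp
    linarith
  rw [hw1]
  have hne : w ≠ 0 := by
    rintro rfl
    have : A ^ 2 = 0 := by linarith
    exact (pow_pos hA 2).ne' this
  field_simp
  ring

/-- the pointwise formula for the substituted integrand. -/
lemma integrand_bs {A w s c : ℝ} (hA : 0 < A) (hw0 : 0 ≤ w) (hw : 3 * π ^ 2 * w = 16 * A ^ 2)
    (hs : s ∈ Ioo (0:ℝ) 1) :
    |bsd A s| • ((bs A s) ^ c * UB (bs A s) w) =
      A ^ c * (w ^ 2 / 4) *
        (s ^ (-c - 1) * (1 - s ^ 2) ^ c + 4 / 3 * (s ^ (-c - 1 + 2) * (1 - s ^ 2) ^ c) +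
          1 / 3 * (s ^ (-c - 1 + 4) * (1 - s ^ 2) ^ c)) := by
  have h0 := hs.1
  have h1 : 0 < 1 - s ^ 2 := by nlinarith [hs.2]
  have hd : |bsd A s| = A * (1 / s ^ 2 + 1) := by
    unfold bsd
    rw [abs_neg, abs_of_pos (by positivity)]
  have hb : bs A s = A * ((1 - s ^ 2) / s) := by
    unfold bs; field_simp
  have hc : (bs A s) ^ c = A ^ c * ((1 - s ^ 2) ^ c * (s ^ c)⁻¹) := by
    rw [hb, mul_rpow hA.le (by positivity), div_rpow h1.le h0.le, div_eq_mul_inv]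
  rw [smul_eq_mul, hd, hc, UB_bs hA hw0 hw hs]
  have e1 : s ^ (-c - 1) = (s ^ c)⁻¹ * s⁻¹ := by
    rw [rpow_sub h0, rpow_neg h0.le, rpow_one, div_eq_mul_inv]
  have e2 : s ^ (-c - 1 + 2) = (s ^ c)⁻¹ * s⁻¹ * s ^ 2 := by
    rw [rpow_add h0, e1]; norm_num
  have e3 : s ^ (-c - 1 + 4) = (s ^ c)⁻¹ * s⁻¹ * s ^ 4 := by
    rw [rpow_add h0, e1]; norm_num
  rw [e1, e2, e3]
  have hsc : 0 < s ^ c := rpow_pos_of_pos h0 c
  have hAc : 0 < A ^ c := rpow_pos_of_pos hA c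
  set E := (1 - s ^ 2) ^ c
  set σ := s ^ c
  set α := A ^ c
  field_simp
  ring

/-- the Mellin integrand on `(0,1)`. -/
noncomputable def Sint (μ s : ℝ) : ℝ :=
  s ^ (-(μ - 1) - 1) * (1 - s ^ 2) ^ (μ - 1) + 4 / 3 * (s ^ (-(μ - 1) - 1 + 2) * (1 - s ^ 2) ^ (μ - 1)) +
    1 / 3 * (s ^ (-(μ - 1) - 1 + 4) * (1 - s ^ 2) ^ (μ - 1))

lemma Sint_integrableOn {μ : ℝ} (h0 : 0 < μ) (h1 : μ < 1) : IntegrableOn (Sint μ) (Ioo 0 1) := by
  have ha : 0 < (1 - μ) / 2 := by linarith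
  have b0 := beta_s_integrableOn ha h0
  have b1 := beta_s_integrableOn (a := (1 - μ) / 2 + 1) (by linarith) h0
  have b2 := beta_s_integrableOn (a := (1 - μ) / 2 + 2) (by linarith) h0
  have e0 : 2 * ((1 - μ) / 2) - 1 = -(μ - 1) - 1 := by ring
  have e1 : 2 * ((1 - μ) / 2 + 1) - 1 = -(μ - 1) - 1 + 2 := by ring
  have e2 : 2 * ((1 - μ) / 2 + 2) - 1 = -(μ - 1) - 1 + 4 := by ring
  rw [e0] at b0
  rw [e1] at b1
  rw [e2] at b2
  exact (b0.add (b1.const_mul (4 / 3))).add (b2.const_mul (1 / 3))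

/-- value of the integral: `P T / (Q (1+μ)(3+μ)) * 4`. -/
lemma Sint_integral {μ : ℝ} (h0 : 0 < μ) (h1 : μ < 1) :
    ∫ s in Ioo (0:ℝ) 1, Sint μ s =
      4 * (Gamma ((1 - μ) / 2) * Gamma μ / Gamma ((1 + μ) / 2)) / ((1 + μ) * (3 + μ)) := by
  have ha : 0 < (1 - μ) / 2 := by linarith
  have b0 := beta_s_integrableOn ha h0
  have b1 := beta_s_integrableOn (a := (1 - μ) / 2 + 1) (by linarith) h0
  have b2 := beta_s_integrableOn (a := (1 - μ) / 2 + 2) (by linarith) h0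
  have i0 := beta_s_integral ha h0
  have i1 := beta_s_integral (a := (1 - μ) / 2 + 1) (by linarith) h0
  have i2 := beta_s_integral (a := (1 - μ) / 2 + 2) (by linarith) h0
  have e0 : 2 * ((1 - μ) / 2) - 1 = -(μ - 1) - 1 := by ring
  have e1 : 2 * ((1 - μ) / 2 + 1) - 1 = -(μ - 1) - 1 + 2 := by ring
  have e2 : 2 * ((1 - μ) / 2 + 2) - 1 = -(μ - 1) - 1 + 4 := by ring
  rw [e0] at b0 i0
  rw [e1] at b1 i1
  rw [e2] at b2 i2
  unfold Sint
  have b01 : IntegrableOn (fun s : ℝ => s ^ (-(μ - 1) - 1) * (1 - s ^ 2) ^ (μ - 1) +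
      4 / 3 * (s ^ (-(μ - 1) - 1 + 2) * (1 - s ^ 2) ^ (μ - 1))) (Ioo 0 1) := b0.add (b1.const_mul (4 / 3))
  rw [integral_add b01 (b2.const_mul (1 / 3)),
    integral_add b0 (b1.const_mul (4 / 3)), integral_const_mul, integral_const_mul, i0, i1, i2]
  -- Gamma recursion
  have g1 : Gamma ((1 - μ) / 2 + 1) = (1 - μ) / 2 * Gamma ((1 - μ) / 2) := Gamma_add_one (by linarith)
  have g2 : Gamma ((1 - μ) / 2 + 2) = ((1 - μ) / 2 + 1) * ((1 - μ) / 2 * Gamma ((1 - μ) / 2)) := by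
    have : (1 - μ) / 2 + 2 = ((1 - μ) / 2 + 1) + 1 := by ring
    rw [this, Gamma_add_one (by linarith), g1]
  have e3 : (1 - μ) / 2 + μ = (1 + μ) / 2 := by ring
  have e4 : (1 - μ) / 2 + 1 + μ = (1 + μ) / 2 + 1 := by ring
  have e5 : (1 - μ) / 2 + 2 + μ = (1 + μ) / 2 + 1 + 1 := by ring
  have g3 : Gamma ((1 + μ) / 2 + 1) = (1 + μ) / 2 * Gamma ((1 + μ) / 2) := Gamma_add_one (by linarith)
  have g4 : Gamma ((1 + μ) / 2 + 1 + 1) = ((1 + μ) / 2 + 1) * ((1 + μ) / 2 * Gamma ((1 + μ) / 2)) := by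
    rw [Gamma_add_one (by linarith), g3]
  rw [e3, e4, e5, g1, g2, g3, g4]
  have hQ : Gamma ((1 + μ) / 2) ≠ 0 := (Gamma_pos_of_pos (by linarith)).ne'
  have h3 : (1 + μ) ≠ 0 := by linarith
  have h4 : (3 + μ) ≠ 0 := by linarith
  have h5 : (1 + μ) / 2 + 1 ≠ 0 := by linarith
  field_simp
  ring

/-- the Mellin transform of `UB` for `w > 0`. -/
lemma mellin_UB_aux {μ w : ℝ} (h0 : 0 < μ) (h1 : μ < 1) (hw : 0 < w) :
    IntegrableOn (fun B => B ^ (μ - 1) * UB B w) (Ioi 0) ∧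
    ∫ B in Ioi (0:ℝ), B ^ (μ - 1) * UB B w =
      (√3 * π / 4 * √w) ^ (μ - 1) * (w ^ 2 / 4) *
        (4 * (Gamma ((1 - μ) / 2) * Gamma μ / Gamma ((1 + μ) / 2)) / ((1 + μ) * (3 + μ))) := by
  have hpi := pi_pos
  set A := √3 * π / 4 * √w with hAdef
  have hA : 0 < A := by positivity
  have hAw : 3 * π ^ 2 * w = 16 * A ^ 2 := by
    rw [hAdef, mul_pow, div_pow, mul_pow, sq_sqrt (by norm_num : (0:ℝ) ≤ 3), sq_sqrt hw.le]
    ring
  have hder : ∀ s ∈ Ioo (0:ℝ) 1, HasDerivWithinAt (bs A) (bsd A s) (Ioo (0:ℝ) 1) s :=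
    fun s hs => (hasDerivAt_bs A hs.1.ne').hasDerivWithinAt
  have hint := Sint_integrableOn h0 h1
  have hcongr : ∀ s ∈ Ioo (0:ℝ) 1, |bsd A s| • ((bs A s) ^ (μ - 1) * UB (bs A s) w) =
      A ^ (μ - 1) * (w ^ 2 / 4) * Sint μ s := fun s hs =>
    integrand_bs hA hw.le hAw hs
  constructor
  · rw [← bs_image hA, integrableOn_image_iff_integrableOn_abs_deriv_smul measurableSet_Ioo hder (bs_injOn hA)]
    exact IntegrableOn.congr_fun (hint.const_mul _) (fun s hs => (hcongr s hs).symm) measurableSet_Ioo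
  · rw [← bs_image hA, integral_image_eq_integral_abs_deriv_smul measurableSet_Ioo hder (bs_injOn hA),
      setIntegral_congr_fun measurableSet_Ioo hcongr, integral_const_mul, Sint_integral h0 h1]

end Vale.Agent.P371k
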