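import Vale.Agent.P371k.ClosedF
import Vale.Agent.P371k.ClosedU

/-! E9: Mellin transforms, `1 < γ < 3/2`, `μ = 2γ - 2`. -/

namespace Vale.Agent.P371k
open Real MeasureTheory Set

lemma fB_zero (B : ℝ) : fB B 0 = 0 := by
  simp [fB, nB]

lemma UB_zero {B : ℝ} : UB B 0 = 0 := by
  simp [UB, rB]

theorem integrableOn_fB {γ l : ℝ} (h1 : 1 < γ) (h2 : γ < 3 / 2) (hl : 0 ≤ l) :
    IntegrableOn (fun B => B ^ (2 * γ - 3) * fB B l) (Ioi 0) := by
  rcases hl.eq_or_lt with rfl | hl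
  · simp [fB_zero]
  · have := (mellin_fB_aux (μ := 2 * γ - 2) (by linarith) (by linarith) hl).1
    rwa [show 2 * γ - 2 - 1 = 2 * γ - 3 by ring] at this

theorem mellin_fB {γ l : ℝ} (h1 : 1 < γ) (h2 : γ < 3 / 2) (hl : 0 ≤ l) :
    ∫ B in Ioi (0:ℝ), B ^ (2 * γ - 3) * fB B l =
      π ^ (2 * γ - 2) / (γ * (2 * γ - 2) * cos (π * (γ - 1))) * l ^ γ := by
  have hγ : γ ≠ 0 := by linarith
  rcases hl.eq_or_lt with rfl | hl
  · simp [fB_zero, zero_rpow hγ]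
  · have h := (mellin_fB_aux (μ := 2 * γ - 2) (by linarith) (by linarith) hl).2
    rw [show 2 * γ - 2 - 1 = 2 * γ - 3 by ring] at h
    rw [h]
    have hpi := pi_pos
    have hsq : 0 < √l := sqrt_pos.mpr hl
    -- reflection
    have hrefl : Gamma ((1 - (2 * γ - 2)) / 2) * Gamma ((1 + (2 * γ - 2)) / 2) = π / cos (π * (γ - 1)) := by
      have := Real.Gamma_mul_Gamma_one_sub ((1 - (2 * γ - 2)) / 2)
      rw [show 1 - (1 - (2 * γ - 2)) / 2 = (1 + (2 * γ - 2)) / 2 by ring] at this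
      rw [this, show π * ((1 - (2 * γ - 2)) / 2) = π / 2 - π * (γ - 1) by ring, sin_pi_div_two_sub]
    rw [hrefl]
    have hcos : 0 < cos (π * (γ - 1)) := by
      apply cos_pos_of_mem_Ioo
      constructor <;> nlinarith
    have e1 : (π * √l) ^ (2 * γ - 2) = π ^ (2 * γ - 2) * l ^ (γ - 1) := by
      rw [mul_rpow hpi.le hsq.le, sqrt_eq_rpow, ← rpow_mul hl.le]
      congr 2; ring
    have e2 : l ^ γ = l ^ (γ - 1) * l := by
      rw [rpow_sub_one hl.ne']; field_simp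
    rw [e1, e2]
    have hγ2 : 2 * γ - 2 ≠ 0 := by linarith
    have hγ3 : 2 * γ - 2 + 2 ≠ 0 := by linarith
    have e3 : 2 * γ - 2 + 2 = 2 * γ := by ring
    rw [e3]
    field_simp

theorem integrableOn_UB {γ w : ℝ} (h1 : 1 < γ) (h2 : γ < 3 / 2) (hw : 0 ≤ w) :
    IntegrableOn (fun B => B ^ (2 * γ - 3) * UB B w) (Ioi 0) := by
  rcases hw.eq_or_lt with rfl | hw
  · simp [UB_zero]
  · have := (mellin_UB_aux (μ := 2 * γ - 2) (by linarith) (by linarith) hw).1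
    rwa [show 2 * γ - 2 - 1 = 2 * γ - 3 by ring] at this

/-- the identity of constants. -/
lemma KK_const {γ : ℝ} (h1 : 1 < γ) (h2 : γ < 3 / 2) :
    KK γ * (π ^ (2 * γ - 2) / (γ * (2 * γ - 2) * cos (π * (γ - 1)))) =
      (√3 * π / 4) ^ (2 * γ - 3) *
        (Gamma ((1 - (2 * γ - 2)) / 2) * Gamma (2 * γ - 2) / Gamma ((1 + (2 * γ - 2)) / 2) /
          ((1 + (2 * γ - 2)) * (3 + (2 * γ - 2)))) := by
  have hpi := pi_pos
  have hrefl : Gamma ((1 - (2 * γ - 2)) / 2) * Gamma ((1 + (2 * γ - 2)) / 2) = π / cos (π * (γ - 1)) := by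
    have := Real.Gamma_mul_Gamma_one_sub ((1 - (2 * γ - 2)) / 2)
    rw [show 1 - (1 - (2 * γ - 2)) / 2 = (1 + (2 * γ - 2)) / 2 by ring] at this
    rw [this, show π * ((1 - (2 * γ - 2)) / 2) = π / 2 - π * (γ - 1) by ring, sin_pi_div_two_sub]
  have hcos : 0 < cos (π * (γ - 1)) := by
    apply cos_pos_of_mem_Ioo
    constructor <;> nlinarith
  have hμ : 0 < 2 * γ - 2 := by linarith
  have hP : 0 < Gamma ((1 - (2 * γ - 2)) / 2) := Gamma_pos_of_pos (by linarith)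
  have hQ : 0 < Gamma ((1 + (2 * γ - 2)) / 2) := Gamma_pos_of_pos (by linarith)
  have hT : 0 < Gamma (2 * γ - 2) := Gamma_pos_of_pos hμ
  have g1 : Gamma (2 * γ - 1) = (2 * γ - 2) * Gamma (2 * γ - 2) := by
    rw [show 2 * γ - 1 = (2 * γ - 2) + 1 by ring, Gamma_add_one hμ.ne']
  have g2 : Gamma (γ - 1 / 2) = Gamma ((1 + (2 * γ - 2)) / 2) := by
    congr 1; ring
  have g3 : Gamma (γ + 1 / 2) = (1 + (2 * γ - 2)) / 2 * Gamma ((1 + (2 * γ - 2)) / 2) := by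
    rw [show γ + 1 / 2 = (1 + (2 * γ - 2)) / 2 + 1 by ring, Gamma_add_one (by linarith)]
  have hcosv : cos (π * (γ - 1)) = π / (Gamma ((1 - (2 * γ - 2)) / 2) * Gamma ((1 + (2 * γ - 2)) / 2)) := by
    rw [hrefl]; field_simp
  have hs3 : 0 < √3 := sqrt_pos.mpr (by norm_num)
  have hs32 : √3 ^ 2 = 3 := sq_sqrt (by norm_num)
  -- the power
  have e1 : (√3 * π / 4) ^ (2 * γ - 3) = (3 / 16) ^ (γ - 1) * π ^ (2 * γ - 2) * (4 / (√3 * π)) := by
    have hb : 0 < √3 * π / 4 := by positivity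
    rw [show 2 * γ - 3 = (2 * γ - 2) - 1 by ring, rpow_sub_one hb.ne']
    have e2 : (√3 * π / 4) ^ (2 * γ - 2) = (3 / 16) ^ (γ - 1) * π ^ (2 * γ - 2) := by
      have e3 : √3 * π / 4 = (√3 / 4) * π := by ring
      rw [e3, mul_rpow (by positivity) hpi.le]
      congr 1
      have e4 : (3 / 16 : ℝ) = (√3 / 4) ^ 2 := by rw [div_pow, hs32]; norm_num
      rw [e4, ← rpow_natCast (√3 / 4) 2, ← rpow_mul (by positivity)]
      congr 1; push_cast; ring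
    rw [e2]
    field_simp
  unfold KK
  rw [g1, g2, g3, e1, hcosv]
  have e5 : 3 + (2 * γ - 2) = 2 * γ + 1 := by ring
  have e6 : 1 + (2 * γ - 2) = 2 * γ - 1 := by ring
  rw [e5, e6]
  have h1' : 2 * γ - 1 ≠ 0 := by linarith
  have h2' : 2 * γ + 1 ≠ 0 := by linarith
  have h3' : γ ≠ 0 := by linarith
  have h4' : 2 * γ - 2 ≠ 0 := hμ.ne'
  rw [e6] at hQ
  generalize Gamma ((1 - (2 * γ - 2)) / 2) = P at *
  generalize Gamma ((2 * γ - 1) / 2) = Q at *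
  generalize Gamma (2 * γ - 2) = T at *
  generalize (3 / 16 : ℝ) ^ (γ - 1) = Z at *
  generalize π ^ (2 * γ - 2) = Y at *
  have h5' : -1 + γ ≠ 0 := by linarith
  field_simp
  ring_nf
  field_simp
  ring

theorem mellin_UB {γ w : ℝ} (h1 : 1 < γ) (h2 : γ < 3 / 2) (hw : 0 ≤ w) :
    ∫ B in Ioi (0:ℝ), B ^ (2 * γ - 3) * UB B w =
      KK γ * (π ^ (2 * γ - 2) / (γ * (2 * γ - 2) * cos (π * (γ - 1)))) * w ^ (γ + 1 / 2) := by
  have hγ : γ + 1 / 2 ≠ 0 := by linarith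
  rcases hw.eq_or_lt with rfl | hw
  · rw [zero_rpow hγ]
    simp [UB_zero]
  · have h := (mellin_UB_aux (μ := 2 * γ - 2) (by linarith) (by linarith) hw).2
    rw [show 2 * γ - 2 - 1 = 2 * γ - 3 by ring] at h
    rw [h, KK_const h1 h2]
    have hpi := pi_pos
    have hsq : 0 < √w := sqrt_pos.mpr hw
    have hs3 : 0 < √3 := sqrt_pos.mpr (by norm_num)
    have e1 : (√3 * π / 4 * √w) ^ (2 * γ - 3) = (√3 * π / 4) ^ (2 * γ - 3) * w ^ (γ - 3 / 2) := by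
      have e0 : √w = w ^ (1 / 2 : ℝ) := sqrt_eq_rpow w
      rw [mul_rpow (by positivity) hsq.le, e0, ← rpow_mul hw.le]
      congr 2; ring
    have e2 : w ^ (γ + 1 / 2) = w ^ (γ - 3 / 2) * w ^ 2 := by
      rw [← rpow_natCast w 2, ← rpow_add hw]; congr 1; push_cast; ring
    rw [e1, e2]
    ring

end Vale.Agent.P371k
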