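import Vale.Agent.P371k.Scalar
import Vale.Agent.P371k.BetaReal

/-! E9, part F: the Mellin transform of `fB`. -/

namespace Vale.Agent.P371k
open Real MeasureTheory Set Filter Topology

/-- `H t = (1+t²) arctan t - t`. -/
noncomputable def HH (t : ℝ) : ℝ := (1 + t ^ 2) * arctan t - t

lemma hasDerivAt_HH (t : ℝ) : HasDerivAt HH (2 * t * arctan t) t := by
  have h1 : HasDerivAt (fun t : ℝ => 1 + t ^ 2) (2 * t) t := by
    simpa using (hasDerivAt_pow 2 t).const_add 1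
  have h2 := hasDerivAt_arctan t
  have h3 : HasDerivAt (fun t : ℝ => (1 + t ^ 2) * arctan t - t) _ t := (h1.mul h2).sub (hasDerivAt_id t)
  refine h3.congr_deriv ?_
  have : (1 + t ^ 2) ≠ 0 := by positivity
  field_simp
  ring

lemma arctan_le_self' {t : ℝ} (ht : 0 ≤ t) : arctan t ≤ t := by
  rcases ht.eq_or_lt with rfl | h
  · simp
  · have h0 : 0 < arctan t := arctan_pos.mpr h
    have := Real.lt_tan h0 (arctan_lt_pi_div_two t)
    rw [tan_arctan] at this
    exact this.le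

lemma arctan_nonneg' {t : ℝ} (ht : 0 ≤ t) : 0 ≤ arctan t := arctan_nonneg.mpr ht

lemma HH_nonneg {t : ℝ} (ht : 0 ≤ t) : 0 ≤ HH t := by
  have hmono : MonotoneOn HH (Ici 0) := by
    apply monotoneOn_of_deriv_nonneg (convex_Ici 0)
    · exact fun x _ => (hasDerivAt_HH x).continuousAt.continuousWithinAt
    · exact fun x _ => (hasDerivAt_HH x).differentiableAt.differentiableWithinAt
    · intro x hx
      rw [interior_Ici] at hx
      rw [(hasDerivAt_HH x).deriv]
      have : 0 < x := hx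
      have := arctan_nonneg' this.le
      positivity
  have h := hmono (mem_Ici.mpr le_rfl) (mem_Ici.mpr ht) ht
  have h0 : HH 0 = 0 := by simp [HH]
  linarith

lemma HH_le_cube {t : ℝ} (ht : 0 ≤ t) : HH t ≤ t ^ 3 := by
  unfold HH
  have := arctan_le_self' ht
  nlinarith [sq_nonneg t]

lemma HH_le_sq {t : ℝ} (ht : 1 ≤ t) : HH t ≤ π * t ^ 2 := by
  unfold HH
  have h0 := arctan_lt_pi_div_two t
  have h1 : (1 + t ^ 2) * arctan t ≤ (1 + t ^ 2) * (π / 2) :=
    mul_le_mul_of_nonneg_left h0.le (by positivity)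
  have h2 : 1 ≤ t ^ 2 := by nlinarith
  have hpi := pi_pos
  nlinarith

/-- integrability from two power bounds. -/
lemma integrableOn_two_bounds {f : ℝ → ℝ} {p q C1 C2 : ℝ} (hf : ContinuousOn f (Ioi 0))
    (hp : -1 < p) (hq : q < -1) (h1 : ∀ t ∈ Ioc (0:ℝ) 1, ‖f t‖ ≤ C1 * t ^ p)
    (h2 : ∀ t ∈ Ioi (1:ℝ), ‖f t‖ ≤ C2 * t ^ q) : IntegrableOn f (Ioi 0) := by
  have hU : Ioi (0:ℝ) = Ioc 0 1 ∪ Ioi 1 := (Ioc_union_Ioi_eq_Ioi zero_le_one).symm
  rw [hU]
  apply IntegrableOn.union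
  · have hi : IntegrableOn (fun t : ℝ => C1 * t ^ p) (Ioc 0 1) := by
      have := intervalIntegral.intervalIntegrable_rpow' (a := 0) (b := 1) hp
      rw [intervalIntegrable_iff_integrableOn_Ioc_of_le zero_le_one] at this
      exact this.const_mul C1
    refine Integrable.mono' hi ?_ ?_
    · exact (hf.mono (fun t ht => ht.1)).aestronglyMeasurable measurableSet_Ioc
    · exact (ae_restrict_iff' measurableSet_Ioc).mpr (Eventually.of_forall h1)
  · have hi : IntegrableOn (fun t : ℝ => C2 * t ^ q) (Ioi 1) :=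
      (integrableOn_Ioi_rpow_of_lt hq one_pos).const_mul C2
    refine Integrable.mono' hi ?_ ?_
    · exact (hf.mono (fun t (ht : 1 < t) => (show (0:ℝ) < t by linarith))).aestronglyMeasurable measurableSet_Ioi
    · exact (ae_restrict_iff' measurableSet_Ioi).mpr (Eventually.of_forall h2)

lemma tendsto_zero_of_bound_zero {f : ℝ → ℝ} {C e : ℝ} (he : 0 < e)
    (h : ∀ᶠ t in 𝓝[>] (0:ℝ), ‖f t‖ ≤ C * t ^ e) : Tendsto f (𝓝[>] 0) (𝓝 0) := by
  refine squeeze_zero_norm' h ?_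
  have h1 : ContinuousAt (fun t : ℝ => t ^ e) 0 := Real.continuousAt_rpow_const 0 e (Or.inr he.le)
  have h2 : Tendsto (fun t : ℝ => C * t ^ e) (𝓝 0) (𝓝 (C * (0:ℝ) ^ e)) := h1.tendsto.const_mul C
  rw [zero_rpow he.ne', mul_zero] at h2
  exact h2.mono_left nhdsWithin_le_nhds

lemma tendsto_zero_of_bound_top {f : ℝ → ℝ} {C e : ℝ} (he : 0 < e)
    (h : ∀ᶠ t in atTop, ‖f t‖ ≤ C * t ^ (-e)) : Tendsto f atTop (𝓝 0) := by
  refine squeeze_zero_norm' h ?_
  simpa using (tendsto_rpow_neg_atTop he).const_mul C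

/-! the rational integral, from Beta. -/

lemma psi_image : (fun t : ℝ => t ^ 2 / (1 + t ^ 2)) '' Ioi (0:ℝ) = Ioo (0:ℝ) 1 := by
  ext x
  constructor
  · rintro ⟨t, ht, rfl⟩
    have ht' : 0 < t := ht
    constructor
    · positivity
    · rw [div_lt_one (by positivity)]; linarith
  · rintro ⟨h0, h1⟩
    have h2 : 0 < 1 - x := by linarith
    refine ⟨√(x / (1 - x)), sqrt_pos.mpr (div_pos h0 h2), ?_⟩
    simp only []
    rw [sq_sqrt (div_pos h0 h2).le]
    field_simp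
    ring

lemma psi_injOn : InjOn (fun t : ℝ => t ^ 2 / (1 + t ^ 2)) (Ioi (0:ℝ)) := by
  intro s hs t ht h
  have hs' : 0 < s := hs
  have ht' : 0 < t := ht
  simp only [] at h
  field_simp at h
  have h2 : s ^ 2 = t ^ 2 := by nlinarith
  exact (sq_eq_sq₀ hs'.le ht'.le).mp h2

lemma hasDerivAt_psi (t : ℝ) :
    HasDerivAt (fun t : ℝ => t ^ 2 / (1 + t ^ 2)) (2 * t / (1 + t ^ 2) ^ 2) t := by
  have h1 : HasDerivAt (fun t : ℝ => t ^ 2) (2 * t) t := by simpa using hasDerivAt_pow 2 t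
  have h2 : HasDerivAt (fun t : ℝ => 1 + t ^ 2) (2 * t) t := h1.const_add 1
  have hne : (1 + t ^ 2) ≠ 0 := by positivity
  refine (h1.div h2 hne).congr_deriv ?_
  field_simp
  ring

lemma psi_formula {μ t : ℝ} (ht : 0 < t) :
    |2 * t / (1 + t ^ 2) ^ 2| • ((t ^ 2 / (1 + t ^ 2)) ^ ((1 - μ) / 2 - 1) *
      (1 - t ^ 2 / (1 + t ^ 2)) ^ ((1 + μ) / 2 - 1)) = 2 * (t ^ (-μ) / (1 + t ^ 2)) := by
  have hW : 0 < 1 + t ^ 2 := by positivity
  have e1 : 1 - t ^ 2 / (1 + t ^ 2) = (1 + t ^ 2)⁻¹ := by field_simp; ring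
  have e0 : (t ^ 2) ^ ((1 - μ) / 2 - 1) = t ^ (2 * ((1 - μ) / 2 - 1)) := by
    rw [← rpow_natCast t 2, ← rpow_mul ht.le]; norm_num
  rw [abs_of_pos (by positivity), smul_eq_mul, e1, inv_rpow hW.le,
    div_rpow (by positivity) hW.le, e0]
  have e2 : (1 + t ^ 2) ^ ((1 - μ) / 2 - 1) * (1 + t ^ 2) ^ ((1 + μ) / 2 - 1) = (1 + t ^ 2)⁻¹ := by
    rw [← rpow_add hW, show (1 - μ) / 2 - 1 + ((1 + μ) / 2 - 1) = -1 by ring, rpow_neg_one]
  have e3 : t ^ (-μ) = t * t ^ (2 * ((1 - μ) / 2 - 1)) := by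
    nth_rewrite 2 [← rpow_one t]
    rw [← rpow_add ht]
    congr 1; ring
  rw [e3]
  have hX : 0 < (1 + t ^ 2) ^ ((1 - μ) / 2 - 1) := rpow_pos_of_pos hW _
  have hY : 0 < (1 + t ^ 2) ^ ((1 + μ) / 2 - 1) := rpow_pos_of_pos hW _
  generalize t ^ (2 * ((1 - μ) / 2 - 1)) = Z at *
  generalize (1 + t ^ 2) ^ ((1 - μ) / 2 - 1) = X at *
  generalize (1 + t ^ 2) ^ ((1 + μ) / 2 - 1) = Y at *
  generalize 1 + t ^ 2 = W at *
  have e5 : W * (X * Y) = 1 := by rw [e2]; field_simp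
  have hXY : (X * Y) = W⁻¹ := e2
  field_simp
  have hY2 : Y = W⁻¹ / X := by rw [← hXY]; field_simp
  rw [hY2]
  field_simp

lemma rat_integrableOn {μ : ℝ} (h0 : 0 < μ) (h1 : μ < 1) :
    IntegrableOn (fun t : ℝ => t ^ (-μ) / (1 + t ^ 2)) (Ioi 0) := by
  have h := beta_integrableOn (a := (1 - μ) / 2) (b := (1 + μ) / 2) (by linarith) (by linarith)
  rw [← psi_image,
    integrableOn_image_iff_integrableOn_abs_deriv_smul measurableSet_Ioi
      (fun t _ => (hasDerivAt_psi t).hasDerivWithinAt) psi_injOn] at h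
  have h2 := h.const_mul (1 / 2)
  refine IntegrableOn.congr_fun h2 (fun t ht => ?_) measurableSet_Ioi
  have := psi_formula (μ := μ) ht
  rw [this]; ring

lemma rat_integral {μ : ℝ} (h0 : 0 < μ) (h1 : μ < 1) :
    ∫ t in Ioi (0:ℝ), t ^ (-μ) / (1 + t ^ 2) = Gamma ((1 - μ) / 2) * Gamma ((1 + μ) / 2) / 2 := by
  have h := beta_integral (a := (1 - μ) / 2) (b := (1 + μ) / 2) (by linarith) (by linarith)
  have e : (1 - μ) / 2 + (1 + μ) / 2 = 1 := by ring
  rw [e, Gamma_one, div_one, ← psi_image,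
    integral_image_eq_integral_abs_deriv_smul measurableSet_Ioi
      (fun t _ => (hasDerivAt_psi t).hasDerivWithinAt) psi_injOn] at h
  rw [← h, ← integral_div]
  refine setIntegral_congr_fun measurableSet_Ioi (fun t ht => ?_)
  have := psi_formula (μ := μ) ht
  rw [this]; ring

/-! integration by parts. -/

lemma continuousOn_rpow_Ioi (p : ℝ) : ContinuousOn (fun t : ℝ => t ^ p) (Ioi 0) :=
  continuousOn_id.rpow_const (fun t ht => Or.inl (ne_of_gt ht))

lemma mul_rpow_shift {t p : ℝ} (ht : 0 < t) : t * t ^ (p - 1) = t ^ p := by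
  nth_rewrite 1 [← rpow_one t]
  rw [← rpow_add ht]
  congr 1; ring

lemma integrableOn_arctan_rpow {μ : ℝ} (h0 : 0 < μ) (h1 : μ < 1) :
    IntegrableOn (fun t : ℝ => arctan t * t ^ (-μ - 1)) (Ioi 0) := by
  refine integrableOn_two_bounds (p := -μ) (q := -μ - 1) (C1 := 1) (C2 := π / 2) ?_
    (by linarith) (by linarith) ?_ ?_
  · exact continuous_arctan.continuousOn.mul (continuousOn_rpow_Ioi _)
  · intro t ht
    have h0t := ht.1
    rw [Real.norm_of_nonneg (mul_nonneg (arctan_nonneg' h0t.le) (rpow_nonneg h0t.le _)), one_mul,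
      ← mul_rpow_shift (p := -μ) h0t]
    exact mul_le_mul_of_nonneg_right (arctan_le_self' h0t.le) (rpow_nonneg h0t.le _)
  · intro t ht
    have h0t : 0 < t := lt_trans one_pos ht
    rw [Real.norm_of_nonneg (mul_nonneg (arctan_nonneg' h0t.le) (rpow_nonneg h0t.le _))]
    exact mul_le_mul_of_nonneg_right (arctan_lt_pi_div_two t).le (rpow_nonneg h0t.le _)

lemma integral_arctan_rpow {μ : ℝ} (h0 : 0 < μ) (h1 : μ < 1) :
    ∫ t in Ioi (0:ℝ), arctan t * t ^ (-μ - 1) =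
      1 / μ * ∫ t in Ioi (0:ℝ), t ^ (-μ) / (1 + t ^ 2) := by
  have hcongr : ∀ t ∈ Ioi (0:ℝ), 1 / (1 + t ^ 2) * (t ^ (-μ) / (-μ)) =
      (-(1 / μ)) * (t ^ (-μ) / (1 + t ^ 2)) := by
    intro t _
    have : (1 + t ^ 2) ≠ 0 := by positivity
    field_simp
  have hby := integral_Ioi_mul_deriv_eq_deriv_mul (a := 0) (a' := 0) (b' := 0)
    (u := arctan) (u' := fun t => 1 / (1 + t ^ 2))
    (v := fun t => t ^ (-μ) / (-μ)) (v' := fun t => t ^ (-μ - 1))
    (fun t _ => hasDerivAt_arctan t)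
    (fun t ht => ((hasDerivAt_rpow_const (Or.inl (ne_of_gt ht))).div_const (-μ)).congr_deriv
      (by field_simp))
    (integrableOn_arctan_rpow h0 h1)
    (by
      have := (rat_integrableOn h0 h1).const_mul (-(1 / μ))
      exact IntegrableOn.congr_fun this (fun t ht => (hcongr t ht).symm) measurableSet_Ioi)
    (by
      refine tendsto_zero_of_bound_zero (C := 1 / μ) (e := 1 - μ) (by linarith) ?_
      filter_upwards [self_mem_nhdsWithin] with t ht
      have h0t : 0 < t := ht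
      have h2 : ‖arctan t‖ ≤ t := by
        rw [Real.norm_of_nonneg (arctan_nonneg' h0t.le)]; exact arctan_le_self' h0t.le
      have h3 : ‖t ^ (-μ) / (-μ)‖ = t ^ (-μ) * (1 / μ) := by
        rw [norm_div, norm_neg, Real.norm_of_nonneg (rpow_nonneg h0t.le _), Real.norm_of_nonneg h0.le]
        ring
      simp only [Pi.mul_apply, norm_mul]
      rw [h3]
      have e : t ^ (1 - μ) = t * t ^ (-μ) := by
        rw [← mul_rpow_shift (p := 1 - μ) h0t]; congr 2; ring
      rw [e]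
      have hn : 0 ≤ t ^ (-μ) * (1 / μ) := by positivity
      calc ‖arctan t‖ * (t ^ (-μ) * (1 / μ)) ≤ t * (t ^ (-μ) * (1 / μ)) :=
            mul_le_mul_of_nonneg_right h2 hn
        _ = 1 / μ * (t * t ^ (-μ)) := by ring)
    (by
      refine tendsto_zero_of_bound_top (C := π / 2 * (1 / μ)) (e := μ) h0 ?_
      filter_upwards [eventually_gt_atTop 0] with t h0t
      have h2 : ‖arctan t‖ ≤ π / 2 := by
        rw [Real.norm_of_nonneg (arctan_nonneg' h0t.le)]; exact (arctan_lt_pi_div_two t).le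
      have h3 : ‖t ^ (-μ) / (-μ)‖ = t ^ (-μ) * (1 / μ) := by
        rw [norm_div, norm_neg, Real.norm_of_nonneg (rpow_nonneg h0t.le _), Real.norm_of_nonneg h0.le]
        ring
      simp only [Pi.mul_apply, norm_mul]
      rw [h3]
      have hn : 0 ≤ t ^ (-μ) * (1 / μ) := by positivity
      calc ‖arctan t‖ * (t ^ (-μ) * (1 / μ)) ≤ π / 2 * (t ^ (-μ) * (1 / μ)) :=
            mul_le_mul_of_nonneg_right h2 hn
        _ = π / 2 * (1 / μ) * t ^ (-μ) := by ring)
  rw [hby, setIntegral_congr_fun measurableSet_Ioi hcongr, integral_const_mul]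
  ring

lemma continuous_HH : Continuous HH :=
  continuous_iff_continuousAt.mpr (fun t => (hasDerivAt_HH t).continuousAt)

lemma integrableOn_HH_rpow {μ : ℝ} (h0 : 0 < μ) (h1 : μ < 1) :
    IntegrableOn (fun t : ℝ => HH t * t ^ (-μ - 3)) (Ioi 0) := by
  refine integrableOn_two_bounds (p := -μ) (q := -μ - 1) (C1 := 1) (C2 := π) ?_
    (by linarith) (by linarith) ?_ ?_
  · exact continuous_HH.continuousOn.mul (continuousOn_rpow_Ioi _)
  · intro t ht
    have h0t := ht.1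
    rw [Real.norm_of_nonneg (mul_nonneg (HH_nonneg h0t.le) (rpow_nonneg h0t.le _)), one_mul]
    have e : t ^ (-μ) = t ^ 3 * t ^ (-μ - 3) := by
      rw [← rpow_natCast t 3, ← rpow_add h0t]; congr 1; push_cast; ring
    rw [e]
    exact mul_le_mul_of_nonneg_right (HH_le_cube h0t.le) (rpow_nonneg h0t.le _)
  · intro t ht
    have h1t : 1 ≤ t := le_of_lt ht
    have h0t : 0 < t := by linarith
    rw [Real.norm_of_nonneg (mul_nonneg (HH_nonneg h0t.le) (rpow_nonneg h0t.le _))]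
    have e : t ^ (-μ - 1) = t ^ 2 * t ^ (-μ - 3) := by
      rw [← rpow_natCast t 2, ← rpow_add h0t]; congr 1; push_cast; ring
    rw [e, ← mul_assoc]
    exact mul_le_mul_of_nonneg_right (HH_le_sq h1t) (rpow_nonneg h0t.le _)

lemma integral_HH_rpow {μ : ℝ} (h0 : 0 < μ) (h1 : μ < 1) :
    ∫ t in Ioi (0:ℝ), HH t * t ^ (-μ - 3) =
      2 / (μ + 2) * ∫ t in Ioi (0:ℝ), arctan t * t ^ (-μ - 1) := by
  have hm2 : (-μ - 2) ≠ 0 := by linarith
  have hm3 : (μ + 2) ≠ 0 := by linarith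
  have hcongr : ∀ t ∈ Ioi (0:ℝ), 2 * t * arctan t * (t ^ (-μ - 2) / (-μ - 2)) =
      (-(2 / (μ + 2))) * (arctan t * t ^ (-μ - 1)) := by
    intro t ht
    have h0t : 0 < t := ht
    have e : t ^ (-μ - 1) = t * t ^ (-μ - 2) := by
      rw [← mul_rpow_shift (p := -μ - 1) h0t]; congr 2; ring
    rw [e]
    have : (-μ - 2) = -(μ + 2) := by ring
    rw [this]
    field_simp
  have hbd : ∀ t : ℝ, 0 < t → ‖t ^ (-μ - 2) / (-μ - 2)‖ = t ^ (-μ - 2) * (1 / (μ + 2)) := by
    intro t h0t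
    have : (-μ - 2) = -(μ + 2) := by ring
    rw [this, norm_div, norm_neg, Real.norm_of_nonneg (rpow_nonneg h0t.le _),
      Real.norm_of_nonneg (by linarith : (0:ℝ) ≤ μ + 2)]
    ring
  have hby := integral_Ioi_mul_deriv_eq_deriv_mul (a := 0) (a' := 0) (b' := 0)
    (u := HH) (u' := fun t => 2 * t * arctan t)
    (v := fun t => t ^ (-μ - 2) / (-μ - 2)) (v' := fun t => t ^ (-μ - 3))
    (fun t _ => hasDerivAt_HH t)
    (fun t ht => ((hasDerivAt_rpow_const (p := -μ - 2) (Or.inl (ne_of_gt ht))).div_const (-μ - 2)).congr_deriv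
      (by rw [show -μ - 2 - 1 = -μ - 3 by ring]; field_simp))
    (integrableOn_HH_rpow h0 h1)
    (by
      have := (integrableOn_arctan_rpow h0 h1).const_mul (-(2 / (μ + 2)))
      exact IntegrableOn.congr_fun this (fun t ht => (hcongr t ht).symm) measurableSet_Ioi)
    (by
      refine tendsto_zero_of_bound_zero (C := 1 / (μ + 2)) (e := 1 - μ) (by linarith) ?_
      filter_upwards [self_mem_nhdsWithin] with t ht
      have h0t : 0 < t := ht
      have h2 : ‖HH t‖ ≤ t ^ 3 := by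
        rw [Real.norm_of_nonneg (HH_nonneg h0t.le)]; exact HH_le_cube h0t.le
      simp only [Pi.mul_apply, norm_mul]
      rw [hbd t h0t]
      have e : t ^ (1 - μ) = t ^ 3 * t ^ (-μ - 2) := by
        rw [← rpow_natCast t 3, ← rpow_add h0t]; congr 1; push_cast; ring
      rw [e]
      have hn : 0 ≤ t ^ (-μ - 2) * (1 / (μ + 2)) := by
        have := rpow_nonneg h0t.le (-μ - 2)
        have h3 : 0 < μ + 2 := by linarith
        positivity
      calc ‖HH t‖ * (t ^ (-μ - 2) * (1 / (μ + 2))) ≤ t ^ 3 * (t ^ (-μ - 2) * (1 / (μ + 2))) :=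
            mul_le_mul_of_nonneg_right h2 hn
        _ = 1 / (μ + 2) * (t ^ 3 * t ^ (-μ - 2)) := by ring)
    (by
      refine tendsto_zero_of_bound_top (C := π * (1 / (μ + 2))) (e := μ) h0 ?_
      filter_upwards [eventually_ge_atTop 1] with t h1t
      have h0t : 0 < t := by linarith
      have h2 : ‖HH t‖ ≤ π * t ^ 2 := by
        rw [Real.norm_of_nonneg (HH_nonneg h0t.le)]; exact HH_le_sq h1t
      simp only [Pi.mul_apply, norm_mul]
      rw [hbd t h0t]
      have e : t ^ (-μ) = t ^ 2 * t ^ (-μ - 2) := by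
        rw [← rpow_natCast t 2, ← rpow_add h0t]; congr 1; push_cast; ring
      rw [e]
      have hn : 0 ≤ t ^ (-μ - 2) * (1 / (μ + 2)) := by
        have := rpow_nonneg h0t.le (-μ - 2)
        have h3 : 0 < μ + 2 := by linarith
        positivity
      calc ‖HH t‖ * (t ^ (-μ - 2) * (1 / (μ + 2))) ≤ π * t ^ 2 * (t ^ (-μ - 2) * (1 / (μ + 2))) :=
            mul_le_mul_of_nonneg_right h2 hn
        _ = π * (1 / (μ + 2)) * (t ^ 2 * t ^ (-μ - 2)) := by ring)
  rw [hby, setIntegral_congr_fun measurableSet_Ioi hcongr, integral_const_mul]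
  ring

/-! the substitution `B = c / t`. -/

lemma inv_image {c : ℝ} (hc : 0 < c) : (fun t : ℝ => c / t) '' Ioi (0:ℝ) = Ioi (0:ℝ) := by
  ext B
  constructor
  · rintro ⟨t, ht, rfl⟩
    exact div_pos hc ht
  · intro hB
    have hB' : 0 < B := hB
    exact ⟨c / B, div_pos hc hB', by field_simp⟩

lemma inv_injOn {c : ℝ} (hc : 0 < c) : InjOn (fun t : ℝ => c / t) (Ioi (0:ℝ)) := by
  intro s hs t ht h
  have h0s : 0 < s := hs
  have h0t : 0 < t := ht
  simp only [] at h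
  field_simp at h
  linarith

lemma hasDerivAt_inv_c (c : ℝ) {t : ℝ} (ht : t ≠ 0) :
    HasDerivAt (fun t : ℝ => c / t) (-(c / t ^ 2)) t := by
  have h := (hasDerivAt_inv ht).const_mul c
  have hf : (fun t : ℝ => c / t) = fun y => c * y⁻¹ := by funext y; rw [div_eq_mul_inv]
  rw [hf]
  refine h.congr_deriv ?_
  rw [div_eq_mul_inv]; ring

lemma fB_subst {l t : ℝ} (hl : 0 < l) (ht : 0 < t) :
    fB (π * √l / t) l = 2 / π * (l / t ^ 2) * HH t := by
  have hpi := pi_pos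
  have hsq : 0 < √l := sqrt_pos.mpr hl
  have hsq2 : √l ^ 2 = l := sq_sqrt hl.le
  have e1 : π * √l / (π * √l / t) = t := by field_simp
  unfold fB nB HH
  rw [e1]
  have hl2 : l = √l ^ 2 := hsq2.symm
  generalize arctan t = θ
  rw [hl2]
  rw [sqrt_sq hsq.le]
  field_simp
  ring

lemma fB_integrand {μ l t : ℝ} (hl : 0 < l) (ht : 0 < t) :
    |(-((π * √l) / t ^ 2))| • ((π * √l / t) ^ (μ - 1) * fB (π * √l / t) l) =
      (π * √l) ^ μ * (2 / π) * l * (HH t * t ^ (-μ - 3)) := by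
  have hpi := pi_pos
  have hsq : 0 < √l := sqrt_pos.mpr hl
  have hc : 0 < π * √l := by positivity
  rw [fB_subst hl ht, abs_neg, abs_of_pos (by positivity), smul_eq_mul, div_rpow hc.le ht.le]
  have e1 : (π * √l) ^ μ = (π * √l) ^ (μ - 1) * (π * √l) := by
    rw [rpow_sub_one hc.ne']; field_simp
  have e2 : t ^ (-μ - 3) = (t ^ (μ - 1))⁻¹ / t ^ 4 := by
    have : -μ - 3 = -(μ - 1) - (4:ℕ) := by push_cast; ring
    rw [this, rpow_sub ht, rpow_neg ht.le, rpow_natCast]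
  rw [e1, e2]
  generalize (π * √l) ^ (μ - 1) = X at *
  have hY : 0 < t ^ (μ - 1) := rpow_pos_of_pos ht _
  generalize t ^ (μ - 1) = Y at *
  field_simp

/-- main formula for `l > 0`. -/
lemma mellin_fB_aux {μ l : ℝ} (h0 : 0 < μ) (h1 : μ < 1) (hl : 0 < l) :
    IntegrableOn (fun B => B ^ (μ - 1) * fB B l) (Ioi 0) ∧
    ∫ B in Ioi (0:ℝ), B ^ (μ - 1) * fB B l =
      (π * √l) ^ μ * (2 / π) * l * (2 / (μ + 2) * (1 / μ *
        (Gamma ((1 - μ) / 2) * Gamma ((1 + μ) / 2) / 2))) := by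
  have hpi := pi_pos
  have hsq : 0 < √l := sqrt_pos.mpr hl
  have hc : 0 < π * √l := by positivity
  have hder : ∀ t ∈ Ioi (0:ℝ), HasDerivWithinAt (fun t : ℝ => π * √l / t) (-((π * √l) / t ^ 2)) (Ioi 0) t :=
    fun t ht => (hasDerivAt_inv_c _ (ne_of_gt ht)).hasDerivWithinAt
  have hcongr : ∀ t ∈ Ioi (0:ℝ), |(-((π * √l) / t ^ 2))| • ((π * √l / t) ^ (μ - 1) * fB (π * √l / t) l) =
      (π * √l) ^ μ * (2 / π) * l * (HH t * t ^ (-μ - 3)) := fun t ht => fB_integrand hl ht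
  constructor
  · rw [← inv_image hc, integrableOn_image_iff_integrableOn_abs_deriv_smul measurableSet_Ioi hder (inv_injOn hc)]
    exact IntegrableOn.congr_fun ((integrableOn_HH_rpow h0 h1).const_mul _)
      (fun t ht => (hcongr t ht).symm) measurableSet_Ioi
  · rw [← inv_image hc, integral_image_eq_integral_abs_deriv_smul measurableSet_Ioi hder (inv_injOn hc),
      setIntegral_congr_fun measurableSet_Ioi hcongr, integral_const_mul, integral_HH_rpow h0 h1,
      integral_arctan_rpow h0 h1, rat_integral h0 h1]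

end Vale.Agent.P371k
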