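import Vale.Agent.P371k.Defs

/-! E3: the new kernel `E(x,y) = bf^{[1]}(x,y) + B + 2 (bf x + bf y) q(x+y)` is nonpositive. -/

namespace Vale.Agent.P371k
open Real Set

lemma t_cos_le_sin {t : ℝ} (h0 : 0 < t) (h1 : t < π / 2) : t * cos t ≤ sin t := by
  have hc : 0 < cos t := cos_pos_of_mem_Ioo ⟨by linarith [pi_pos], h1⟩
  have := Real.lt_tan h0 h1
  rw [tan_eq_sin_div_cos, lt_div_iff₀ hc] at this
  exact this.le

lemma cos_sub_sinc_nonpos {t : ℝ} (h0 : t ≠ 0) (h1 : |t| < π / 2) :
    cos t * (cos t - sin t / t) ≤ 0 := by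
  have hc : 0 < cos t := cos_pos_of_mem_Ioo ⟨by linarith [(abs_lt.mp h1).1], (abs_lt.mp h1).2⟩
  apply mul_nonpos_of_nonneg_of_nonpos hc.le
  rcases lt_or_gt_of_ne h0 with h | h
  · have h2 : 0 < -t := by linarith
    have h3 : -t < π / 2 := by linarith [(abs_lt.mp h1).1]
    have h4 := t_cos_le_sin h2 h3
    rw [cos_neg, sin_neg] at h4
    have : sin t / t - cos t = (sin t - t * cos t) / t := by field_simp
    have h5 : (sin t - t * cos t) / t ≥ 0 :=
      div_nonneg_of_nonpos (by linarith) h.le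
    linarith
  · have h4 := t_cos_le_sin h (abs_lt.mp h1).2
    have : sin t / t - cos t = (sin t - t * cos t) / t := by field_simp
    have h5 : (sin t - t * cos t) / t ≥ 0 := div_nonneg (by linarith) h.le
    linarith

lemma kernelE_formula {B x y : ℝ} (hx : 0 < x ∧ x < 1) (hy : 0 < y ∧ y < 1) (hne : x ≠ y) :
    (bf B x - bf B y) / (x - y) + B +
        2 * (bf B x + bf B y) * (π / 4 * (cos (π * (x + y) / 2) / sin (π * (x + y) / 2))) =
      B / (sin (π * x) * sin (π * y)) *
        (cos (π * (x - y) / 2) * (cos (π * (x - y) / 2) - sin (π * (x - y) / 2) / (π * (x - y) / 2))) := by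
  have hpi := pi_pos
  have hsA : 0 < sin (π * x) := sin_pos_of_pos_of_lt_pi (by nlinarith [hx.1]) (by nlinarith [hx.2])
  have hsC : 0 < sin (π * y) := sin_pos_of_pos_of_lt_pi (by nlinarith [hy.1]) (by nlinarith [hy.2])
  have hsU : 0 < sin (π * (x + y) / 2) :=
    sin_pos_of_pos_of_lt_pi (by nlinarith [hx.1, hy.1]) (by nlinarith [hx.2, hy.2])
  have hxy : x - y ≠ 0 := sub_ne_zero.mpr hne
  set u := π * (x + y) / 2 with hu
  set t := π * (x - y) / 2 with ht
  have ht0 : t ≠ 0 := by rw [ht]; positivity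
  have hA : π * x = u + t := by rw [hu, ht]; ring
  have hC : π * y = u - t := by rw [hu, ht]; ring
  have hsA' : sin (π * x) = sin u * cos t + cos u * sin t := by rw [hA, sin_add]
  have hcA' : cos (π * x) = cos u * cos t - sin u * sin t := by rw [hA, cos_add]
  have hsC' : sin (π * y) = sin u * cos t - cos u * sin t := by rw [hC, sin_sub]
  have hcC' : cos (π * y) = cos u * cos t + sin u * sin t := by rw [hC, cos_sub]
  have hxy' : x - y = 2 * t / π := by rw [ht]; field_simp
  have h1 : sin u ^ 2 + cos u ^ 2 = 1 := sin_sq_add_cos_sq u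
  have h2 : sin t ^ 2 + cos t ^ 2 = 1 := sin_sq_add_cos_sq t
  unfold bf
  rw [hxy']
  have hsA2 := hsA.ne'
  have hsC2 := hsC.ne'
  have hsU2 := hsU.ne'
  have key1 : cos (π * x) / sin (π * x) - cos (π * y) / sin (π * y) =
      -(2 * sin t * cos t) / (sin (π * x) * sin (π * y)) := by
    field_simp
    rw [hsA', hcA', hsC', hcC']
    linear_combination (-2 * sin t * cos t) * h1
  have key2 : cos (π * x) / sin (π * x) + cos (π * y) / sin (π * y) =
      2 * sin u * cos u / (sin (π * x) * sin (π * y)) := by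
    field_simp
    rw [hsA', hcA', hsC', hcC']
    linear_combination (2 * sin u * cos u) * h2
  have key3 : sin (π * x) * sin (π * y) + cos u ^ 2 = cos t ^ 2 := by
    rw [hsA', hsC']
    linear_combination (cos t) ^ 2 * h1 - (cos u) ^ 2 * h2
  have e1 : (B / π * (cos (π * x) / sin (π * x)) - B / π * (cos (π * y) / sin (π * y))) / (2 * t / π)
      = B / (sin (π * x) * sin (π * y)) * (-(sin t * cos t) / t) := by
    have : B / π * (cos (π * x) / sin (π * x)) - B / π * (cos (π * y) / sin (π * y))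
        = B / π * (-(2 * sin t * cos t) / (sin (π * x) * sin (π * y))) := by
      rw [← key1]; ring
    rw [this]; field_simp
  have e2 : 2 * (B / π * (cos (π * x) / sin (π * x)) + B / π * (cos (π * y) / sin (π * y))) *
      (π / 4 * (cos u / sin u)) = B / (sin (π * x) * sin (π * y)) * cos u ^ 2 := by
    have : B / π * (cos (π * x) / sin (π * x)) + B / π * (cos (π * y) / sin (π * y))
        = B / π * (2 * sin u * cos u / (sin (π * x) * sin (π * y))) := by
      rw [← key2]; ring
    rw [this]; field_simp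
    ring
  rw [e1, e2]
  have e3 : B = B / (sin (π * x) * sin (π * y)) * (sin (π * x) * sin (π * y)) := by
    field_simp
  have : B / (sin (π * x) * sin (π * y)) * (-(sin t * cos t) / t) + B +
        B / (sin (π * x) * sin (π * y)) * cos u ^ 2 =
      B / (sin (π * x) * sin (π * y)) * (-(sin t * cos t) / t + (sin (π * x) * sin (π * y) + cos u ^ 2)) := by
    nth_rewrite 2 [e3]; ring
  rw [this, key3]
  congr 1
  field_simp
  ring

/-- E3: the kernel is nonpositive. -/
theorem kernelE_ne {B x y : ℝ} (hB : 0 ≤ B) (hx : 0 < x ∧ x < 1) (hy : 0 < y ∧ y < 1) (hne : x ≠ y) :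
    (bf B x - bf B y) / (x - y) + B + 2 * (bf B x + bf B y) * Vale.Agent.P371h11.qq (x + y) ≤ 0 := by
  have hpi := pi_pos
  have hsA : 0 < sin (π * x) := sin_pos_of_pos_of_lt_pi (by nlinarith [hx.1]) (by nlinarith [hx.2])
  have hsC : 0 < sin (π * y) := sin_pos_of_pos_of_lt_pi (by nlinarith [hy.1]) (by nlinarith [hy.2])
  unfold Vale.Agent.P371h11.qq
  rw [kernelE_formula hx hy hne]
  apply mul_nonpos_of_nonneg_of_nonpos (by positivity)
  apply cos_sub_sinc_nonpos
  · have : x - y ≠ 0 := sub_ne_zero.mpr hne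
    positivity
  · rw [abs_lt]
    constructor <;> nlinarith [hx.1, hx.2, hy.1, hy.2]

/-- diagonal case: `bf'(x) + B + 4 bf(x) q(2x) = 0`, with `bf' = -B / sin²(πx)`. -/
theorem kernelE_self {B x : ℝ} (hx : 0 < x ∧ x < 1) :
    -B / sin (π * x) ^ 2 + B + 4 * bf B x * Vale.Agent.P371h11.qq (2 * x) = 0 := by
  have hpi := pi_pos
  have hsA : 0 < sin (π * x) := sin_pos_of_pos_of_lt_pi (by nlinarith [hx.1]) (by nlinarith [hx.2])
  have hs := hsA.ne'
  have h2 : π * (2 * x) / 2 = π * x := by ring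
  unfold Vale.Agent.P371h11.qq bf
  rw [h2]
  have h3 := sin_sq_add_cos_sq (π * x)
  field_simp
  linear_combination B * h3

theorem hasDerivAt_bf {B x : ℝ} (hx : 0 < x ∧ x < 1) : HasDerivAt (bf B) (-B / sin (π * x) ^ 2) x := by
  have hpi := pi_pos
  have hsA : 0 < sin (π * x) := sin_pos_of_pos_of_lt_pi (by nlinarith [hx.1]) (by nlinarith [hx.2])
  have hs := hsA.ne'
  have hid : HasDerivAt (fun g : ℝ => π * g) π x := by
    simpa using (hasDerivAt_id x).const_mul π
  have h1 := hid.cos
  have h2 := hid.sin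
  have h3 : HasDerivAt (fun g : ℝ => B / π * (cos (π * g) / sin (π * g))) _ x :=
    (h1.div h2 hs).const_mul (B / π)
  have h4 := sin_sq_add_cos_sq (π * x)
  refine h3.congr_deriv ?_
  field_simp
  linear_combination (-B) * h4

theorem hasDerivAt_af {B x : ℝ} (hx : 0 < x ∧ x < 1) : HasDerivAt (af B) (-(bf B x) ^ 2) x := by
  have hpi := pi_pos
  have hsA : 0 < sin (π * x) := sin_pos_of_pos_of_lt_pi (by nlinarith [hx.1]) (by nlinarith [hx.2])
  have hs := hsA.ne'
  have hid : HasDerivAt (fun g : ℝ => π * g) π x := by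
    simpa using (hasDerivAt_id x).const_mul π
  have h1 := hid.cos
  have h2 := hid.sin
  have h3 : HasDerivAt (fun g : ℝ => (B / π) ^ 2 * (cos (π * g) / sin (π * g) / π + g - 1 / 2)) _ x :=
    ((((h1.div h2 hs).div_const π).add (hasDerivAt_id x)).sub_const (1 / 2)).const_mul ((B / π) ^ 2)
  have h4 := sin_sq_add_cos_sq (π * x)
  refine h3.congr_deriv ?_
  simp only [bf]
  field_simp
  ring

/-- boundary values: `af((1-n)/2) - af((1+n)/2) = cost n`. -/
theorem af_diff {B n : ℝ} : af B ((1 - n) / 2) - af B ((1 + n) / 2) = costB B n := by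
  unfold af costB
  have h1 : π * ((1 - n) / 2) = π / 2 - π * n / 2 := by ring
  have h2 : π * ((1 + n) / 2) = π / 2 + π * n / 2 := by ring
  rw [h1, h2, cos_pi_div_two_sub, sin_pi_div_two_sub, cos_add, sin_add, cos_pi_div_two, sin_pi_div_two,
    tan_eq_sin_div_cos]
  simp only [zero_mul, one_mul, zero_sub, add_zero]
  ring

end Vale.Agent.P371k
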