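import Vale.Agent.P371k.Algebra
import Vale.Agent.P371m.Pointwise

/-! Module E5: the pointwise inequality for the two parameter Bellman function. -/

namespace Vale.Agent.P371k
open Matrix BigOperators Real MeasureTheory Set
open Vale.Agent.P371h8 (dd pev pdd exists_spectral eig_bounds)
open Vale.Agent.P371m (Bp DBp tauq DBn_spectral mul_transpose_apply trace_cube abs_triple_le
  trace_conj_rot remainder_le trace_mul_transpose)

variable {ι κ : Type*} [Fintype ι] [DecidableEq ι] [Fintype κ]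

omit [DecidableEq ι] in
/-- Symmetry of `β βᵀ`. -/
lemma R_symm (β : Matrix ι κ ℝ) (i j : ι) : (β * βᵀ) j i = (β * βᵀ) i j := by
  simp only [mul_transpose_apply]
  exact Finset.sum_congr rfl fun α _ => mul_comm _ _

omit [DecidableEq ι] in
/-- The completion of the square in the rotated frame. -/
lemma square_part (β ν : Matrix ι κ ℝ) (P : ι → ι → ℝ) (hPsymm : ∀ i j, P j i = P i j)
    (bb : ι → ℝ) :
    2 * ∑ i, ∑ j, (ν * βᵀ + β * νᵀ) i j * (β * βᵀ) i j * P i j +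
        ∑ i, bb i * (ν * βᵀ + β * νᵀ) i i ≤
      ∑ i, ∑ α, ν i α ^ 2 +
        4 * ∑ i, ∑ j, ∑ l, ((β * βᵀ) i j * (β * βᵀ) j l * (β * βᵀ) l i) * (P i j * P i l) +
        2 * ∑ i, ∑ j, (bb i + bb j) * P i j * (β * βᵀ) i j ^ 2 +
        ∑ i, bb i ^ 2 * (β * βᵀ) i i := by
  set R' : Matrix ι ι ℝ := β * βᵀ with hR'
  have hRsymm : ∀ i j, R' j i = R' i j := R_symm β
  set E : ι → κ → ℝ := fun i α => ∑ j, P i j * R' i j * β j α with hE
  have e1 : ∑ i, ∑ j, (ν * βᵀ + β * νᵀ) i j * R' i j * P i j = 2 * ∑ i, ∑ α, ν i α * E i α := by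
    have e1 : ∑ i, ∑ j, (ν * βᵀ) i j * R' i j * P i j = ∑ i, ∑ α, ν i α * E i α := by
      refine Finset.sum_congr rfl fun i _ => ?_
      simp only [hE, mul_transpose_apply, Finset.mul_sum, Finset.sum_mul]
      rw [Finset.sum_comm]
      refine Finset.sum_congr rfl fun α _ => Finset.sum_congr rfl fun j _ => ?_
      ring
    have e2 : ∑ i, ∑ j, (β * νᵀ) i j * R' i j * P i j = ∑ i, ∑ α, ν i α * E i α := by
      rw [Finset.sum_comm, ← e1]
      refine Finset.sum_congr rfl fun i _ => Finset.sum_congr rfl fun j _ => ?_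
      have : (β * νᵀ) j i = (ν * βᵀ) i j := by
        simp only [mul_transpose_apply]
        exact Finset.sum_congr rfl fun α _ => mul_comm _ _
      rw [this, hRsymm, hPsymm]
    simp only [Matrix.add_apply, add_mul, Finset.sum_add_distrib]
    rw [e1, e2]
    ring
  have e2 : ∑ i, bb i * (ν * βᵀ + β * νᵀ) i i = 2 * ∑ i, ∑ α, ν i α * (bb i * β i α) := by
    rw [Finset.mul_sum]
    refine Finset.sum_congr rfl fun i _ => ?_
    have h : (ν * βᵀ + β * νᵀ) i i = ∑ α, ν i α * β i α + ∑ α, β i α * ν i α := by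
      simp only [Matrix.add_apply, mul_transpose_apply]
    rw [h, Finset.mul_sum, mul_add, Finset.mul_sum, Finset.mul_sum, ← Finset.sum_add_distrib]
    refine Finset.sum_congr rfl fun α _ => ?_
    ring
  set W : ι → κ → ℝ := fun i α => 2 * E i α + bb i * β i α with hW
  have e3 : 2 * (2 * ∑ i, ∑ α, ν i α * E i α) + 2 * ∑ i, ∑ α, ν i α * (bb i * β i α) =
      2 * ∑ i, ∑ α, ν i α * W i α := by
    have : ∑ i, ∑ α, ν i α * W i α =
        2 * ∑ i, ∑ α, ν i α * E i α + ∑ i, ∑ α, ν i α * (bb i * β i α) := by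
      rw [Finset.mul_sum, ← Finset.sum_add_distrib]
      refine Finset.sum_congr rfl fun i _ => ?_
      rw [Finset.mul_sum, ← Finset.sum_add_distrib]
      refine Finset.sum_congr rfl fun α _ => ?_
      simp only [hW]
      ring
    rw [this]
    ring
  have e4 : 2 * ∑ i, ∑ α, ν i α * W i α ≤ ∑ i, ∑ α, ν i α ^ 2 + ∑ i, ∑ α, W i α ^ 2 := by
    rw [Finset.mul_sum, ← Finset.sum_add_distrib]
    refine Finset.sum_le_sum fun i _ => ?_
    rw [Finset.mul_sum, ← Finset.sum_add_distrib]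
    refine Finset.sum_le_sum fun α _ => ?_
    nlinarith [sq_nonneg (ν i α - W i α)]
  have e5 : ∑ i, ∑ α, E i α ^ 2 = ∑ i, ∑ j, ∑ l, (R' i j * R' j l * R' l i) * (P i j * P i l) := by
    refine Finset.sum_congr rfl fun i _ => ?_
    have e : ∀ α, E i α ^ 2 = ∑ j, ∑ l, (P i j * R' i j * β j α) * (P i l * R' i l * β l α) := by
      intro α
      simp only [hE]
      rw [pow_two, Finset.sum_mul_sum]
    simp only [e]
    rw [Finset.sum_comm]
    refine Finset.sum_congr rfl fun j _ => ?_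
    rw [Finset.sum_comm]
    refine Finset.sum_congr rfl fun l _ => ?_
    have e4 : (∑ α, β j α * β l α) = R' j l := (mul_transpose_apply β β j l).symm
    have e3 : (R' i j * R' j l * R' l i) * (P i j * P i l) =
        (P i j * R' i j * (P i l * R' i l)) * ∑ α, β j α * β l α := by
      rw [e4, hRsymm i l]
      ring
    rw [e3, Finset.mul_sum]
    refine Finset.sum_congr rfl fun α _ => ?_
    ring
  have e6 : ∑ i, ∑ α, E i α * (bb i * β i α) = ∑ i, ∑ j, bb i * P i j * R' i j ^ 2 := by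
    refine Finset.sum_congr rfl fun i _ => ?_
    simp only [hE, Finset.sum_mul]
    rw [Finset.sum_comm]
    refine Finset.sum_congr rfl fun j _ => ?_
    have e4 : (∑ α, β i α * β j α) = R' i j := (mul_transpose_apply β β i j).symm
    have e3 : bb i * P i j * R' i j ^ 2 = (bb i * P i j * R' i j) * ∑ α, β i α * β j α := by
      rw [e4]
      ring
    rw [e3, Finset.mul_sum]
    refine Finset.sum_congr rfl fun α _ => ?_
    ring
  have e7 : 2 * ∑ i, ∑ j, bb i * P i j * R' i j ^ 2 =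
      ∑ i, ∑ j, (bb i + bb j) * P i j * R' i j ^ 2 := by
    have hswap : ∑ i, ∑ j, bb i * P i j * R' i j ^ 2 = ∑ i, ∑ j, bb j * P i j * R' i j ^ 2 := by
      rw [Finset.sum_comm]
      refine Finset.sum_congr rfl fun i _ => Finset.sum_congr rfl fun j _ => ?_
      rw [hRsymm, hPsymm]
    have : ∑ i, ∑ j, (bb i + bb j) * P i j * R' i j ^ 2 =
        ∑ i, ∑ j, bb i * P i j * R' i j ^ 2 + ∑ i, ∑ j, bb j * P i j * R' i j ^ 2 := by
      rw [← Finset.sum_add_distrib]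
      refine Finset.sum_congr rfl fun i _ => ?_
      rw [← Finset.sum_add_distrib]
      refine Finset.sum_congr rfl fun j _ => ?_
      ring
    rw [this, ← hswap]
    ring
  have e8 : ∑ i, ∑ α, (bb i * β i α) ^ 2 = ∑ i, bb i ^ 2 * R' i i := by
    refine Finset.sum_congr rfl fun i _ => ?_
    have e4 : R' i i = ∑ α, β i α * β i α := mul_transpose_apply β β i i
    rw [e4, Finset.mul_sum]
    refine Finset.sum_congr rfl fun α _ => ?_
    ring
  have e9 : ∑ i, ∑ α, W i α ^ 2 = 4 * ∑ i, ∑ α, E i α ^ 2 +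
      4 * ∑ i, ∑ α, E i α * (bb i * β i α) + ∑ i, ∑ α, (bb i * β i α) ^ 2 := by
    rw [Finset.mul_sum, Finset.mul_sum, ← Finset.sum_add_distrib, ← Finset.sum_add_distrib]
    refine Finset.sum_congr rfl fun i _ => ?_
    rw [Finset.mul_sum, Finset.mul_sum, ← Finset.sum_add_distrib, ← Finset.sum_add_distrib]
    refine Finset.sum_congr rfl fun α _ => ?_
    simp only [hW]
    ring
  rw [e1, e2]
  rw [e9, e5, e6, e8] at e4
  rw [← e7]
  linarith

/-- The trilinear part. -/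
lemma pi_part (a1 : ℕ → ℝ) (d1 : ℕ) (ε δ : ℝ)
    (h1 : ∀ y ∈ Icc (2 * ε) (2 - 2 * ε), ∀ y' ∈ Icc (2 * ε) (2 - 2 * ε),
      |4 * pev a1 d1 y * pev a1 d1 y' + 2 * pdd a1 d1 y y' + π ^ 2 / 4 - tauq y y'| ≤ δ)
    (hδ : 0 ≤ δ) (hε : 0 < ε) (g : ι → ℝ) (hg : ∀ i, ε ≤ g i ∧ g i ≤ 1 - ε) (β : Matrix ι κ ℝ) :
    4 * ∑ i, ∑ j, ∑ l, ((β * βᵀ) i j * (β * βᵀ) j l * (β * βᵀ) l i) *
        (pev a1 d1 (g i + g j) * pev a1 d1 (g i + g l)) +
      2 * ∑ i, ∑ j, ∑ l, ((β * βᵀ) i j * (β * βᵀ) j l * (β * βᵀ) l i) *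
        pdd a1 d1 (g i + g j) (g i + g l) ≤
      -(π ^ 2 / 4 * ∑ i, ∑ j, ∑ l, (β * βᵀ) i j * (β * βᵀ) j l * (β * βᵀ) l i) +
        δ * trace (β * βᵀ) ^ 3 := by
  set R' : Matrix ι ι ℝ := β * βᵀ with hR'
  have hRsymm : ∀ i j, R' j i = R' i j := R_symm β
  set P : ι → ι → ℝ := fun i j => pev a1 d1 (g i + g j) with hP
  set Pi : ι → ι → ι → ℝ := fun i j l => R' i j * R' j l * R' l i with hPi
  have hg01 : ∀ i, 0 < g i ∧ g i < 1 := fun i => by
    have h1 := (hg i).1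
    have h2 := (hg i).2
    constructor <;> linarith
  have hRpsd : R'.PosSemidef := by
    have := Matrix.posSemidef_self_mul_conjTranspose β
    rwa [conjTranspose_eq_transpose_of_trivial] at this
  have h4 : ∑ i, ∑ j, ∑ l, Pi i j l * tauq (g i + g j) (g i + g l) ≤ 0 := by
    have hr := remainder_le R' hRpsd g hg01
    refine le_of_eq_of_le ?_ hr
    rw [Finset.sum_comm]
    refine Finset.sum_congr rfl fun i _ => Finset.sum_congr rfl fun j _ =>
      Finset.sum_congr rfl fun l _ => ?_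
    simp only [hPi]
    rw [hRsymm i j, hRsymm l i, hRsymm j l, add_comm (g j) (g i)]
    ring
  have h5 : ∑ i, ∑ j, ∑ l, Pi i j l * (4 * (P i j * P i l) + 2 * pdd a1 d1 (g i + g j) (g i + g l)
        + π ^ 2 / 4) ≤
      ∑ i, ∑ j, ∑ l, Pi i j l * tauq (g i + g j) (g i + g l) + δ * trace R' ^ 3 := by
    have habs := abs_triple_le β
    have hδ2 := mul_le_mul_of_nonneg_left habs hδ
    refine le_trans ?_ (add_le_add_right hδ2 _)
    simp only [Finset.mul_sum]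
    rw [← Finset.sum_add_distrib]
    refine Finset.sum_le_sum fun i _ => ?_
    rw [← Finset.sum_add_distrib]
    refine Finset.sum_le_sum fun j _ => ?_
    rw [← Finset.sum_add_distrib]
    refine Finset.sum_le_sum fun l _ => ?_
    have hy : g i + g j ∈ Set.Icc (2 * ε) (2 - 2 * ε) :=
      ⟨by linarith [(hg i).1, (hg j).1], by linarith [(hg i).2, (hg j).2]⟩
    have hy' : g i + g l ∈ Set.Icc (2 * ε) (2 - 2 * ε) :=
      ⟨by linarith [(hg i).1, (hg l).1], by linarith [(hg i).2, (hg l).2]⟩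
    have hk := h1 _ hy _ hy'
    have hk' : |4 * P i j * P i l + 2 * pdd a1 d1 (g i + g j) (g i + g l) + π ^ 2 / 4 -
        tauq (g i + g j) (g i + g l)| ≤ δ := hk
    set err : ℝ := 4 * P i j * P i l + 2 * pdd a1 d1 (g i + g j) (g i + g l) + π ^ 2 / 4 -
        tauq (g i + g j) (g i + g l) with herr
    have e : Pi i j l * (4 * (P i j * P i l) + 2 * pdd a1 d1 (g i + g j) (g i + g l) + π ^ 2 / 4) =
        Pi i j l * tauq (g i + g j) (g i + g l) + Pi i j l * err := by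
      rw [herr]
      ring
    rw [e]
    have h7 : Pi i j l * err ≤ |Pi i j l| * δ := by
      calc Pi i j l * err ≤ |Pi i j l * err| := le_abs_self _
        _ = |Pi i j l| * |err| := abs_mul _ _
        _ ≤ |Pi i j l| * δ := mul_le_mul_of_nonneg_left hk' (abs_nonneg _)
    have h8 : |Pi i j l| * δ = δ * |R' i j * R' j l * R' l i| := by
      simp only [hPi]
      ring
    linarith
  have h6 : ∑ i, ∑ j, ∑ l, Pi i j l * (4 * (P i j * P i l) + 2 * pdd a1 d1 (g i + g j) (g i + g l)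
        + π ^ 2 / 4) =
      4 * ∑ i, ∑ j, ∑ l, Pi i j l * (P i j * P i l) +
        2 * ∑ i, ∑ j, ∑ l, Pi i j l * pdd a1 d1 (g i + g j) (g i + g l) +
        π ^ 2 / 4 * ∑ i, ∑ j, ∑ l, R' i j * R' j l * R' l i := by
    simp only [Finset.mul_sum]
    rw [← Finset.sum_add_distrib, ← Finset.sum_add_distrib]
    refine Finset.sum_congr rfl fun i _ => ?_
    rw [← Finset.sum_add_distrib, ← Finset.sum_add_distrib]
    refine Finset.sum_congr rfl fun j _ => ?_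
    rw [← Finset.sum_add_distrib, ← Finset.sum_add_distrib]
    refine Finset.sum_congr rfl fun l _ => ?_
    simp only [hPi]
    ring
  have h9 : 4 * ∑ i, ∑ j, ∑ l, Pi i j l * (P i j * P i l) +
        2 * ∑ i, ∑ j, ∑ l, Pi i j l * pdd a1 d1 (g i + g j) (g i + g l) +
        π ^ 2 / 4 * ∑ i, ∑ j, ∑ l, R' i j * R' j l * R' l i ≤ δ * trace R' ^ 3 := by
    rw [← h6]
    linarith
  have h10 : ∑ i, ∑ j, ∑ l, Pi i j l = ∑ i, ∑ j, ∑ l, R' i j * R' j l * R' l i := rfl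
  linarith

/-- The quadratic part. -/
lemma quad_part (a1 : ℕ → ℝ) (d1 : ℕ) (a2 : ℕ → ℝ) (d2 : ℕ) (B ε δ : ℝ)
    (h2 : ∀ x ∈ Icc ε (1 - ε), ∀ y ∈ Icc ε (1 - ε),
      pdd a2 d2 x y + B + 2 * (pev a2 d2 x + pev a2 d2 y) * pev a1 d1 (x + y) ≤ δ)
    (hδ : 0 ≤ δ) (g : ι → ℝ) (hg : ∀ i, ε ≤ g i ∧ g i ≤ 1 - ε) (β : Matrix ι κ ℝ) :
    ∑ i, ∑ j, (β * βᵀ) i j ^ 2 * pdd a2 d2 (g i) (g j) +
      2 * ∑ i, ∑ j, (pev a2 d2 (g i) + pev a2 d2 (g j)) * pev a1 d1 (g i + g j) * (β * βᵀ) i j ^ 2 ≤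
      -(B * trace ((β * βᵀ) * (β * βᵀ))) + δ * trace (β * βᵀ) ^ 2 := by
  set R' : Matrix ι ι ℝ := β * βᵀ with hR'
  have hRsymm : ∀ i j, R' j i = R' i j := R_symm β
  have htr2 : trace (R' * R') = ∑ i, ∑ j, R' i j ^ 2 := by
    simp only [Matrix.trace, Matrix.diag, Matrix.mul_apply]
    refine Finset.sum_congr rfl fun i _ => Finset.sum_congr rfl fun j _ => ?_
    rw [hRsymm i j]
    ring
  have hcs : ∀ i j, R' i j ^ 2 ≤ R' i i * R' j j := fun i j => by
    simp only [hR', mul_transpose_apply]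
    exact Finset.sum_mul_sq_le_sq_mul_sq _ _ _ |>.trans_eq (by simp only [pow_two])
  have htrsq : ∑ i, ∑ j, R' i j ^ 2 ≤ trace R' ^ 2 := by
    have htr : trace R' = ∑ i, R' i i := rfl
    rw [htr, pow_two, Finset.sum_mul_sum]
    exact Finset.sum_le_sum fun i _ => Finset.sum_le_sum fun j _ => hcs i j
  have hδtr : δ * ∑ i, ∑ j, R' i j ^ 2 ≤ δ * trace R' ^ 2 :=
    mul_le_mul_of_nonneg_left htrsq hδ
  have hQ2 : ∑ i, ∑ j, R' i j ^ 2 * pdd a2 d2 (g i) (g j) +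
      2 * ∑ i, ∑ j, (pev a2 d2 (g i) + pev a2 d2 (g j)) * pev a1 d1 (g i + g j) * R' i j ^ 2 ≤
      (δ - B) * ∑ i, ∑ j, R' i j ^ 2 := by
    rw [Finset.mul_sum, Finset.mul_sum, ← Finset.sum_add_distrib]
    refine Finset.sum_le_sum fun i _ => ?_
    rw [Finset.mul_sum, Finset.mul_sum, ← Finset.sum_add_distrib]
    refine Finset.sum_le_sum fun j _ => ?_
    have hk := h2 _ ⟨(hg i).1, (hg i).2⟩ _ ⟨(hg j).1, (hg j).2⟩
    have hn : 0 ≤ R' i j ^ 2 := sq_nonneg _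
    have hk' : pdd a2 d2 (g i) (g j) + 2 * (pev a2 d2 (g i) + pev a2 d2 (g j)) *
        pev a1 d1 (g i + g j) ≤ δ - B := by linarith
    have := mul_le_mul_of_nonneg_left hk' hn
    nlinarith [this]
  rw [htr2]
  nlinarith [hQ2, hδtr]

/-- The linear part. -/
lemma lin_part (a2 : ℕ → ℝ) (d2 : ℕ) (a3 : ℕ → ℝ) (d3 : ℕ) (ε δ : ℝ)
    (h3 : ∀ x ∈ Icc ε (1 - ε), pdv a3 d3 x + pev a2 d2 x ^ 2 ≤ δ)
    (g : ι → ℝ) (hg : ∀ i, ε ≤ g i ∧ g i ≤ 1 - ε) (β : Matrix ι κ ℝ) :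
    ∑ i, pdv a3 d3 (g i) * (β * βᵀ) i i + ∑ i, pev a2 d2 (g i) ^ 2 * (β * βᵀ) i i ≤
      δ * trace (β * βᵀ) := by
  set R' : Matrix ι ι ℝ := β * βᵀ with hR'
  have hRd : ∀ i, 0 ≤ R' i i := fun i => by
    rw [hR', mul_transpose_apply]
    exact Finset.sum_nonneg fun α _ => mul_self_nonneg _
  have htr : trace R' = ∑ i, R' i i := rfl
  rw [htr, Finset.mul_sum, ← Finset.sum_add_distrib]
  refine Finset.sum_le_sum fun i _ => ?_
  have hk := h3 _ ⟨(hg i).1, (hg i).2⟩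
  have := mul_le_mul_of_nonneg_right hk (hRd i)
  nlinarith [this]

theorem DPhi_le (a1 : ℕ → ℝ) (d1 : ℕ) (a2 : ℕ → ℝ) (d2 : ℕ) (a3 : ℕ → ℝ) (d3 : ℕ) (B ε δ : ℝ)
    (hε : 0 < ε) (hε2 : ε < 1 / 2)
    (h1 : ∀ y ∈ Icc (2 * ε) (2 - 2 * ε), ∀ y' ∈ Icc (2 * ε) (2 - 2 * ε),
      |4 * pev a1 d1 y * pev a1 d1 y' + 2 * pdd a1 d1 y y' + π ^ 2 / 4 - tauq y y'| ≤ δ)
    (h2 : ∀ x ∈ Icc ε (1 - ε), ∀ y ∈ Icc ε (1 - ε),
      pdd a2 d2 x y + B + 2 * (pev a2 d2 x + pev a2 d2 y) * pev a1 d1 (x + y) ≤ δ)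
    (h3 : ∀ x ∈ Icc ε (1 - ε), pdv a3 d3 x + pev a2 d2 x ^ 2 ≤ δ) (hδ : 0 ≤ δ)
    (G : Matrix ι ι ℝ) (hsymm : G.IsSymm)
    (hlow : ∀ u : ι → ℝ, ε * (u ⬝ᵥ u) ≤ u ⬝ᵥ (G *ᵥ u))
    (hup : ∀ u : ι → ℝ, u ⬝ᵥ (G *ᵥ u) ≤ (1 - ε) * (u ⬝ᵥ u))
    (b v : Matrix ι κ ℝ) :
    DBp a1 d1 G (b * bᵀ) (v * bᵀ + b * vᵀ) + DTp a2 d2 G (b * bᵀ) (v * bᵀ + b * vᵀ)
        + DAp a3 d3 G (b * bᵀ) ≤
      trace (v * vᵀ) - π ^ 2 / 4 * trace ((b * bᵀ) * (b * bᵀ) * (b * bᵀ))
        - B * trace ((b * bᵀ) * (b * bᵀ))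
        + δ * (trace (b * bᵀ) ^ 3 + trace (b * bᵀ) ^ 2 + trace (b * bᵀ)) := by
  obtain ⟨Q, g, hQ, hG⟩ := exists_spectral G hsymm
  have hg := eig_bounds hQ hG hlow hup
  have hQ' : Q * Qᵀ = 1 := mul_eq_one_comm.1 hQ
  set β : Matrix ι κ ℝ := Qᵀ * b with hβ
  set ν : Matrix ι κ ℝ := Qᵀ * v with hν
  -- the rotated matrices
  have eR : Qᵀ * (b * bᵀ) * Q = β * βᵀ := by
    simp only [hβ, Matrix.transpose_mul, Matrix.transpose_transpose, Matrix.mul_assoc]
  have eD : Qᵀ * (v * bᵀ + b * vᵀ) * Q = ν * βᵀ + β * νᵀ := by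
    simp only [hν, hβ, Matrix.transpose_mul, Matrix.transpose_transpose, Matrix.mul_assoc,
      Matrix.mul_add, Matrix.add_mul]
  have hRs : (b * bᵀ).IsSymm := by
    simp [Matrix.IsSymm, Matrix.transpose_mul]
  have hDs : (v * bᵀ + b * vᵀ).IsSymm := by
    simp [Matrix.IsSymm, Matrix.transpose_mul, Matrix.transpose_add, add_comm]
  have hc : ∀ X Y : Matrix ι ι ℝ, (Qᵀ * X * Q) * (Qᵀ * Y * Q) = Qᵀ * (X * Y) * Q := by
    intro X Y
    calc (Qᵀ * X * Q) * (Qᵀ * Y * Q) = Qᵀ * X * (Q * Qᵀ) * Y * Q := by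
          simp only [Matrix.mul_assoc]
      _ = Qᵀ * (X * Y) * Q := by
          rw [hQ']
          simp only [Matrix.mul_assoc, Matrix.mul_one]
  -- traces
  have t1 : trace (v * vᵀ) = trace (ν * νᵀ) := by
    have : ν * νᵀ = Qᵀ * (v * vᵀ) * Q := by
      simp only [hν, Matrix.transpose_mul, Matrix.transpose_transpose, Matrix.mul_assoc]
    rw [this, trace_conj_rot hQ']
  have t2 : trace (b * bᵀ) = trace (β * βᵀ) := by
    rw [← eR, trace_conj_rot hQ']
  have t3 : trace ((b * bᵀ) * (b * bᵀ) * (b * bᵀ)) = trace ((β * βᵀ) * (β * βᵀ) * (β * βᵀ)) := by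
    have : (β * βᵀ) * (β * βᵀ) * (β * βᵀ) = Qᵀ * ((b * bᵀ) * (b * bᵀ) * (b * bᵀ)) * Q := by
      rw [← eR, hc, hc]
    rw [this, trace_conj_rot hQ']
  have t4 : trace ((b * bᵀ) * (b * bᵀ)) = trace ((β * βᵀ) * (β * βᵀ)) := by
    have : (β * βᵀ) * (β * βᵀ) = Qᵀ * ((b * bᵀ) * (b * bᵀ)) * Q := by
      rw [← eR, hc]
    rw [this, trace_conj_rot hQ']
  rw [t1, t2, t3, t4, trace_cube, trace_mul_transpose ν]
  -- the spectral form
  have hform : DBp a1 d1 G (b * bᵀ) (v * bᵀ + b * vᵀ) =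
      2 * ∑ i, ∑ j, (ν * βᵀ + β * νᵀ) i j * (β * βᵀ) i j * pev a1 d1 (g i + g j)
      + 2 * ∑ i, ∑ j, ∑ l, ((β * βᵀ) i j * (β * βᵀ) j l * (β * βᵀ) l i) *
          pdd a1 d1 (g i + g j) (g i + g l) := by
    unfold DBp
    simp_rw [DBn_spectral Q g hQ G hG _ _ hRs hDs, eR, eD]
    simp only [mul_add, Finset.sum_add_distrib]
    congr 1
    · simp only [Finset.mul_sum]
      rw [Finset.sum_comm]
      refine Finset.sum_congr rfl fun i _ => ?_
      rw [Finset.sum_comm]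
      refine Finset.sum_congr rfl fun j _ => ?_
      simp only [pev, Finset.mul_sum]
      refine Finset.sum_congr rfl fun n _ => ?_
      ring
    · simp only [Finset.mul_sum]
      rw [Finset.sum_comm]
      refine Finset.sum_congr rfl fun i _ => ?_
      rw [Finset.sum_comm]
      refine Finset.sum_congr rfl fun j _ => ?_
      rw [Finset.sum_comm]
      refine Finset.sum_congr rfl fun l _ => ?_
      simp only [pdd, Finset.mul_sum]
      refine Finset.sum_congr rfl fun n _ => ?_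
      ring
  have hformT : DTp a2 d2 G (b * bᵀ) (v * bᵀ + b * vᵀ) =
      ∑ i, pev a2 d2 (g i) * (ν * βᵀ + β * νᵀ) i i +
        ∑ i, ∑ j, (β * βᵀ) i j ^ 2 * pdd a2 d2 (g i) (g j) := by
    unfold DTp
    simp_rw [DTn_spectral Q g hQ G hG _ _ hRs, eR, eD]
    simp only [mul_add, Finset.sum_add_distrib]
    congr 1
    · simp only [Finset.mul_sum]
      rw [Finset.sum_comm]
      refine Finset.sum_congr rfl fun i _ => ?_
      simp only [pev, Finset.sum_mul]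
      refine Finset.sum_congr rfl fun n _ => ?_
      ring
    · simp only [Finset.mul_sum]
      rw [Finset.sum_comm]
      refine Finset.sum_congr rfl fun i _ => ?_
      rw [Finset.sum_comm]
      refine Finset.sum_congr rfl fun j _ => ?_
      simp only [pdd, Finset.mul_sum]
      refine Finset.sum_congr rfl fun n _ => ?_
      ring
  have hformA : DAp a3 d3 G (b * bᵀ) = ∑ i, pdv a3 d3 (g i) * (β * βᵀ) i i := by
    unfold DAp
    simp_rw [DAn_spectral Q g hQ G hG _, eR]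
    simp only [Finset.mul_sum]
    rw [Finset.sum_comm]
    refine Finset.sum_congr rfl fun i _ => ?_
    simp only [pdv, Finset.sum_mul]
    refine Finset.sum_congr rfl fun n _ => ?_
    ring
  rw [hform, hformT, hformA]
  have hsq := square_part β ν (fun i j => pev a1 d1 (g i + g j))
    (fun i j => by simp only [add_comm]) (fun i => pev a2 d2 (g i))
  have hpi := pi_part a1 d1 ε δ h1 hδ hε g hg β
  have hqu := quad_part a1 d1 a2 d2 B ε δ h2 hδ g hg β
  have hli := lin_part a2 d2 a3 d3 ε δ h3 g hg β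
  linarith

end Vale.Agent.P371k
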