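import Vale.Agent.P371k.KernelE
import Vale.Agent.P371m.Poly

/-! E4: common polynomial approximations for the two parameter Bellman function. -/

open Real Set Filter Topology Polynomial
open Vale.Agent.P371h11
open Vale.Agent.P371h8 (pev pdd pev_eq pdd_mul continuous_pev continuous_pdd)
open Vale.Agent.P371m (tauq qdd)

namespace Vale.Agent.P371k

lemma pdv_eq (p : ℝ[X]) (z : ℝ) : pdv p.coeff (p.natDegree + 1) z = (derivative p).eval z := by
  rw [derivative_eval, Polynomial.sum_over_range]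
  · unfold pdv
    refine Finset.sum_congr rfl fun n _ => ?_
    ring
  · intro n
    simp

/-- `C¹` polynomial approximation on an interval of length at most one. -/
lemma exists_poly_C1 {f f' : ℝ → ℝ} {a b : ℝ} (hab : a ≤ b) (hl : b - a ≤ 1)
    (hd : ∀ z ∈ Icc a b, HasDerivAt f (f' z) z) (hc : ContinuousOn f' (Icc a b)) {η : ℝ}
    (hη : 0 < η) :
    ∃ p : ℝ[X], (∀ z ∈ Icc a b, |(derivative p).eval z - f' z| ≤ η) ∧
      (∀ z ∈ Icc a b, |p.eval z - f z| ≤ η) ∧
      (∀ y ∈ Icc a b, ∀ y' ∈ Icc a b, |(p.eval y - f y) - (p.eval y' - f y')| ≤ η * |y - y'|) := by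
  obtain ⟨r, hr⟩ := exists_polynomial_near_of_continuousOn a b f' hc η hη
  obtain ⟨P, hP⟩ := exists_antideriv r
  set p : ℝ[X] := P + C (f a - P.eval a) with hp
  have hpd : derivative p = r := by
    rw [hp, derivative_add, derivative_C, add_zero, hP]
  set g : ℝ → ℝ := fun z => p.eval z - f z with hg
  have hfd : ∀ z ∈ Icc a b, HasDerivWithinAt g (r.eval z - f' z) (Icc a b) z := by
    intro z hz
    have h1 := (hd z hz).hasDerivWithinAt (s := Icc a b)
    have h2 := (p.hasDerivAt z).hasDerivWithinAt (s := Icc a b)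
    rw [hpd] at h2
    exact h2.sub h1
  have hfb : ∀ z ∈ Icc a b, ‖r.eval z - f' z‖ ≤ η := by
    intro z hz
    rw [Real.norm_eq_abs]
    exact (hr z hz).le
  have hconv : Convex ℝ (Icc a b) := convex_Icc _ _
  have hmv : ∀ y ∈ Icc a b, ∀ y' ∈ Icc a b, |g y - g y'| ≤ η * |y - y'| := by
    intro y hy y' hy'
    have := hconv.norm_image_sub_le_of_norm_hasDerivWithin_le hfd hfb hy' hy
    simpa [Real.norm_eq_abs] using this
  have hamem : a ∈ Icc a b := ⟨le_rfl, hab⟩
  have hga : g a = 0 := by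
    simp only [hg, hp, eval_add, eval_C]
    ring
  refine ⟨p, ?_, ?_, hmv⟩
  · intro z hz
    rw [hpd]
    exact (hr z hz).le
  · intro z hz
    have h2 := hmv z hz a hamem
    rw [hga, sub_zero] at h2
    refine h2.trans ?_
    have h3 : |z - a| ≤ 1 := by
      rw [abs_le]
      constructor <;> linarith [hz.1, hz.2]
    nlinarith

/-- The polynomial kernel is uniformly close to the exact kernel `τ`, and the polynomial
is close to `q`. -/
theorem exists_poly_two_near (ε δ η' : ℝ) (hε : 0 < ε) (hε2 : ε < 1 / 2) (hδ : 0 < δ)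
    (hη' : 0 < η') :
    ∃ (d : ℕ) (a : ℕ → ℝ), (∀ z ∈ Icc ε (2 - ε), |pev a d z - qq z| ≤ η') ∧
      ∀ y ∈ Icc (2 * ε) (2 - 2 * ε), ∀ y' ∈ Icc (2 * ε) (2 - 2 * ε),
      |4 * pev a d y * pev a d y' + 2 * pdd a d y y' + π ^ 2 / 4 - tauq y y'| ≤ δ := by
  have hε1 : ε < 1 := by linarith
  obtain ⟨M, hM⟩ := (isCompact_Icc (a := ε) (b := 2 - ε)).exists_bound_of_continuousOn
    (continuousOn_qq hε (by linarith))
  have hM0 : 0 ≤ M := (norm_nonneg _).trans (hM 1 ⟨hε1.le, by linarith⟩)
  set η : ℝ := min η' (min 1 (δ / (8 * M + 6))) with hη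
  have hη0 : 0 < η := lt_min hη' (lt_min one_pos (by positivity))
  have hηp : η ≤ η' := min_le_left _ _
  have hη1 : η ≤ 1 := (min_le_right _ _).trans (min_le_left _ _)
  have hη2 : η * (8 * M + 6) ≤ δ := by
    have : η ≤ δ / (8 * M + 6) := (min_le_right _ _).trans (min_le_right _ _)
    rwa [le_div_iff₀ (by positivity)] at this
  obtain ⟨p, hp1, hp2⟩ := exists_poly_near hε hε1 hη0
  refine ⟨p.natDegree + 1, p.coeff, ?_, ?_⟩
  · intro z hz
    rw [pev_eq]
    exact (hp1 z hz).trans hηp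
  set a := p.coeff with ha
  set d := p.natDegree + 1 with hd
  have hev : ∀ z, p.eval z = pev a d z := fun z => (pev_eq p z).symm
  have hne : ∀ y ∈ Icc ε (2 - ε), ∀ y' ∈ Icc ε (2 - ε), y ≠ y' →
      |4 * pev a d y * pev a d y' + 2 * pdd a d y y' + π ^ 2 / 4 - tauq y y'| ≤ δ := by
    intro y hy y' hy' hne
    have hq1 : |qq y| ≤ M := by simpa [Real.norm_eq_abs] using hM y hy
    have hq2 : |qq y'| ≤ M := by simpa [Real.norm_eq_abs] using hM y' hy'
    have hd1 := hp1 y hy
    have hd2 := hp1 y' hy'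
    have hdd := hp2 y hy y' hy'
    have hyy : 0 < |y - y'| := abs_pos.2 (sub_ne_zero.2 hne)
    have hy0 : y - y' ≠ 0 := sub_ne_zero.2 hne
    set u := p.eval y - qq y with hu
    set v := p.eval y' - qq y' with hv
    have e1 : pev a d y = qq y + u := by rw [← hev, hu]; ring
    have e2 : pev a d y' = qq y' + v := by rw [← hev, hv]; ring
    have hpdd : pdd a d y y' = (qq y - qq y') / (y - y') + (u - v) / (y - y') := by
      have h1 := pdd_mul a d y y'
      rw [e1, e2] at h1
      field_simp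
      linarith
    have hqd : qdd y y' = (qq y - qq y') / (y - y') := by
      simp [qdd, hne]
    have h9 : |(u - v) / (y - y')| ≤ η := by
      rw [abs_div, div_le_iff₀ hyy]
      exact hdd
    have h3 : |qq y * v| ≤ M * η := by
      rw [abs_mul]
      exact mul_le_mul hq1 hd2 (abs_nonneg _) hM0
    have h4 : |u * qq y'| ≤ η * M := by
      rw [abs_mul]
      exact mul_le_mul hd1 hq2 (abs_nonneg _) hη0.le
    have h5 : |u * v| ≤ η * η := by
      rw [abs_mul]
      exact mul_le_mul hd1 hd2 (abs_nonneg _) hη0.le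
    have key : 4 * pev a d y * pev a d y' + 2 * pdd a d y y' + π ^ 2 / 4 - tauq y y' =
        4 * (qq y * v) + 4 * (u * qq y') + 4 * (u * v) + 2 * ((u - v) / (y - y')) := by
      rw [e1, e2, hpdd]
      unfold tauq
      rw [hqd]
      ring
    rw [key]
    have a1 := abs_le.1 h3
    have a2 := abs_le.1 h4
    have a3 := abs_le.1 h5
    have a4 := abs_le.1 h9
    have hηη : η * η ≤ η := by nlinarith
    have hη3 : η * (8 * M + 6) = 4 * (M * η) + 4 * (η * M) + 4 * η + 2 * η := by ring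
    rw [abs_le]
    constructor <;> linarith
  intro y hy y' hy'
  have hyL : y ∈ Icc ε (2 - ε) := ⟨by linarith [hy.1], by linarith [hy.2]⟩
  have hyL' : y' ∈ Icc ε (2 - ε) := ⟨by linarith [hy'.1], by linarith [hy'.2]⟩
  by_cases h : y = y'
  · subst h
    have hy0 : 0 < y := by linarith [hy.1]
    have hy2 : y < 2 := by linarith [hy.2]
    have hder := hasDerivAt_qq hy0 hy2
    have hslope : Tendsto (fun t => (qq y - qq t) / (y - t)) (𝓝[≠] y) (𝓝 (qq' y)) := by
      have := hasDerivAt_iff_tendsto_slope.1 hder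
      refine this.congr fun t => ?_
      simp only [slope_def_field]
      rw [← neg_div_neg_eq]
      congr 1 <;> ring
    have hqc : Tendsto qq (𝓝[≠] y) (𝓝 (qq y)) :=
      hder.continuousAt.tendsto.mono_left nhdsWithin_le_nhds
    have hpc : Tendsto (pev a d) (𝓝[≠] y) (𝓝 (pev a d y)) :=
      ((continuous_pev a d).tendsto y).mono_left nhdsWithin_le_nhds
    have hdc : Tendsto (pdd a d y) (𝓝[≠] y) (𝓝 (pdd a d y y)) :=
      ((continuous_pdd a d y).tendsto y).mono_left nhdsWithin_le_nhds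
    have hval : tauq y y = 4 * qq y * qq y + 2 * qq' y + π ^ 2 / 4 := by
      simp [tauq, qdd]
    have hlim : Tendsto (fun t => |4 * pev a d y * pev a d t + 2 * pdd a d y t + π ^ 2 / 4 -
        (4 * qq y * qq t + 2 * ((qq y - qq t) / (y - t)) + π ^ 2 / 4)|) (𝓝[≠] y)
        (𝓝 |4 * pev a d y * pev a d y + 2 * pdd a d y y + π ^ 2 / 4 - tauq y y|) := by
      rw [hval]
      refine Tendsto.abs ?_
      refine Tendsto.sub (((hpc.const_mul _).add (hdc.const_mul _)).add tendsto_const_nhds) ?_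
      exact ((hqc.const_mul _).add (hslope.const_mul _)).add tendsto_const_nhds
    refine le_of_tendsto hlim ?_
    have hnear : Ioo ε (2 - ε) ∈ 𝓝 y := Ioo_mem_nhds (by linarith [hy.1]) (by linarith [hy.2])
    filter_upwards [mem_nhdsWithin_of_mem_nhds hnear, self_mem_nhdsWithin] with t ht htne
    have htne' : t ≠ y := htne
    have h1 := hne y hyL t ⟨ht.1.le, ht.2.le⟩ (Ne.symm htne')
    have h2 : tauq y t = 4 * qq y * qq t + 2 * ((qq y - qq t) / (y - t)) + π ^ 2 / 4 := by
      simp [tauq, qdd, Ne.symm htne']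
    rwa [h2] at h1
  · exact hne y hyL y' hyL' h

lemma continuousOn_bf' {B a b : ℝ} (ha : 0 < a) (hb : b < 1) :
    ContinuousOn (fun x : ℝ => -B / sin (π * x) ^ 2) (Icc a b) := by
  apply ContinuousOn.div continuousOn_const (by fun_prop)
  intro z hz
  have hpi := pi_pos
  have hz0 : 0 < z := ha.trans_le hz.1
  have hz1 : z < 1 := hz.2.trans_lt hb
  have : 0 < sin (π * z) := sin_pos_of_pos_of_lt_pi (by positivity) (by nlinarith)
  positivity

/-- E4: common polynomial approximations. -/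
theorem exists_polys (B ε δ : ℝ) (hB : 0 < B) (hε : 0 < ε) (hε2 : ε < 1 / 2) (hδ : 0 < δ) :
    ∃ (d1 : ℕ) (a1 : ℕ → ℝ) (d2 : ℕ) (a2 : ℕ → ℝ) (d3 : ℕ) (a3 : ℕ → ℝ),
      (∀ y ∈ Icc (2 * ε) (2 - 2 * ε), ∀ y' ∈ Icc (2 * ε) (2 - 2 * ε),
        |4 * pev a1 d1 y * pev a1 d1 y' + 2 * pdd a1 d1 y y' + π ^ 2 / 4 - tauq y y'| ≤ δ) ∧
      (∀ x ∈ Icc ε (1 - ε), ∀ y ∈ Icc ε (1 - ε),
        pdd a2 d2 x y + B + 2 * (pev a2 d2 x + pev a2 d2 y) * pev a1 d1 (x + y) ≤ δ) ∧
      (∀ x ∈ Icc ε (1 - ε), pdv a3 d3 x + pev a2 d2 x ^ 2 ≤ δ) ∧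
      (∀ x ∈ Icc ε (1 - ε), |pev a3 d3 x - af B x| ≤ δ) := by
  have hε4 : 0 < ε / 2 := by positivity
  have hbd : ∀ z ∈ Icc (ε / 2) (1 - ε / 2), HasDerivAt (bf B) (-B / sin (π * z) ^ 2) z :=
    fun z hz => hasDerivAt_bf ⟨by linarith [hz.1], by linarith [hz.2]⟩
  have hcb : ContinuousOn (bf B) (Icc (ε / 2) (1 - ε / 2)) := fun z hz =>
    (hbd z hz).continuousAt.continuousWithinAt
  obtain ⟨Mb, hMb⟩ := (isCompact_Icc (a := ε / 2) (b := 1 - ε / 2)).exists_bound_of_continuousOn hcb
  obtain ⟨M, hM⟩ := (isCompact_Icc (a := ε) (b := 2 - ε)).exists_bound_of_continuousOn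
    (continuousOn_qq hε (by linarith))
  have hMb0 : 0 ≤ Mb := (norm_nonneg _).trans (hMb (1 / 2) ⟨by linarith, by linarith⟩)
  have hM0 : 0 ≤ M := (norm_nonneg _).trans (hM 1 ⟨by linarith, by linarith⟩)
  have hMbs : ∀ z ∈ Icc (ε / 2) (1 - ε / 2), |bf B z| ≤ Mb := fun z hz => by
    simpa [Real.norm_eq_abs] using hMb z hz
  have hMs : ∀ z ∈ Icc ε (2 - ε), |qq z| ≤ M := fun z hz => by
    simpa [Real.norm_eq_abs] using hM z hz
  -- the first polynomial
  set η1 : ℝ := min 1 (δ / (8 * Mb + 8)) with hη1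
  have hη10 : 0 < η1 := lt_min one_pos (by positivity)
  have hη11 : η1 ≤ 1 := min_le_left _ _
  have hη12 : η1 * (8 * Mb + 8) ≤ δ := by
    have : η1 ≤ δ / (8 * Mb + 8) := min_le_right _ _
    rwa [le_div_iff₀ (by positivity)] at this
  obtain ⟨d1, a1, hA1, hτ⟩ := exists_poly_two_near ε δ η1 hε hε2 hδ hη10
  -- the second polynomial
  set η2 : ℝ := min 1 (min (δ / (8 * M + 10)) (δ / (4 * Mb + 2))) with hη2
  have hη20 : 0 < η2 := lt_min one_pos (lt_min (by positivity) (by positivity))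
  have hη21 : η2 ≤ 1 := min_le_left _ _
  have hη22 : η2 * (8 * M + 10) ≤ δ := by
    have : η2 ≤ δ / (8 * M + 10) := (min_le_right _ _).trans (min_le_left _ _)
    rwa [le_div_iff₀ (by positivity)] at this
  have hη23 : η2 * (4 * Mb + 2) ≤ δ := by
    have : η2 ≤ δ / (4 * Mb + 2) := (min_le_right _ _).trans (min_le_right _ _)
    rwa [le_div_iff₀ (by positivity)] at this
  obtain ⟨p2, -, hp2, hp2L⟩ := exists_poly_C1 (f := bf B)
    (f' := fun x => -B / sin (π * x) ^ 2) (a := ε / 2) (b := 1 - ε / 2)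
    (by linarith) (by linarith) hbd (continuousOn_bf' hε4 (by linarith)) hη20
  -- the third polynomial
  have hcb2 : ContinuousOn (fun x => -(bf B x) ^ 2) (Icc ε (1 - ε)) := by
    have h0 : ContinuousOn (bf B) (Icc ε (1 - ε)) :=
      hcb.mono fun z hz => ⟨by linarith [hz.1], by linarith [hz.2]⟩
    exact (h0.pow 2).neg
  obtain ⟨p3, hp3d, hp3, -⟩ := exists_poly_C1 (f := af B)
    (f' := fun x => -(bf B x) ^ 2) (a := ε) (b := 1 - ε) (by linarith) (by linarith)
    (fun z hz => hasDerivAt_af ⟨by linarith [hz.1], by linarith [hz.2]⟩) hcb2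
    (half_pos hδ)
  have hev2 : ∀ z, pev p2.coeff (p2.natDegree + 1) z = p2.eval z := fun z => pev_eq p2 z
  refine ⟨d1, a1, p2.natDegree + 1, p2.coeff, p3.natDegree + 1, p3.coeff, hτ, ?_, ?_, ?_⟩
  · -- the kernel for distinct points on the larger interval
    have hne : ∀ x ∈ Icc (ε / 2) (1 - ε / 2), ∀ y ∈ Icc (ε / 2) (1 - ε / 2), x ≠ y →
        pdd p2.coeff (p2.natDegree + 1) x y + B +
          2 * (pev p2.coeff (p2.natDegree + 1) x + pev p2.coeff (p2.natDegree + 1) y) *
            pev a1 d1 (x + y) ≤ δ := by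
      intro x hx y hy hxy
      have hxy0 : x - y ≠ 0 := sub_ne_zero.2 hxy
      have habs : 0 < |x - y| := abs_pos.2 hxy0
      have hE := kernelE_ne (B := B) hB.le (x := x) (y := y)
        ⟨by linarith [hx.1], by linarith [hx.2]⟩ ⟨by linarith [hy.1], by linarith [hy.2]⟩ hxy
      have hsum : x + y ∈ Icc ε (2 - ε) := ⟨by linarith [hx.1, hy.1], by linarith [hx.2, hy.2]⟩
      have hw := hA1 (x + y) hsum
      have hQ := hMs (x + y) hsum
      have hbx := hMbs x hx
      have hby := hMbs y hy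
      have hu' := hp2 x hx
      have hv' := hp2 y hy
      have hL := hp2L x hx y hy
      have hdq : pdd p2.coeff (p2.natDegree + 1) x y =
          (p2.eval x - p2.eval y) / (x - y) := by
        have h1 := pdd_mul p2.coeff (p2.natDegree + 1) x y
        rw [hev2, hev2] at h1
        field_simp
        linarith
      rw [hdq, hev2, hev2]
      set u := p2.eval x - bf B x with hu
      set v := p2.eval y - bf B y with hv
      set w := pev a1 d1 (x + y) - qq (x + y) with hwd
      set Q := qq (x + y) with hQd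
      have e1 : p2.eval x = bf B x + u := by rw [hu]; ring
      have e2 : p2.eval y = bf B y + v := by rw [hv]; ring
      have e3 : pev a1 d1 (x + y) = Q + w := by rw [hwd]; ring
      have h9 : (u - v) / (x - y) ≤ η2 := by
        have : |(u - v) / (x - y)| ≤ η2 := by
          rw [abs_div, div_le_iff₀ habs]
          exact hL
        exact (abs_le.1 this).2
      have key : (p2.eval x - p2.eval y) / (x - y) + B +
            2 * (p2.eval x + p2.eval y) * pev a1 d1 (x + y) =
          ((bf B x - bf B y) / (x - y) + B + 2 * (bf B x + bf B y) * Q) +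
            (u - v) / (x - y) + 2 * (u * Q) + 2 * (v * Q) + 2 * (bf B x * w) + 2 * (bf B y * w)
            + 2 * (u * w) + 2 * (v * w) := by
        rw [e1, e2, e3]
        field_simp
        ring
      rw [key]
      have b1 : u * Q ≤ η2 * M := (le_abs_self _).trans (by
        rw [abs_mul]; exact mul_le_mul hu' hQ (abs_nonneg _) hη20.le)
      have b2 : v * Q ≤ η2 * M := (le_abs_self _).trans (by
        rw [abs_mul]; exact mul_le_mul hv' hQ (abs_nonneg _) hη20.le)
      have b3 : bf B x * w ≤ Mb * η1 := (le_abs_self _).trans (by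
        rw [abs_mul]; exact mul_le_mul hbx hw (abs_nonneg _) hMb0)
      have b4 : bf B y * w ≤ Mb * η1 := (le_abs_self _).trans (by
        rw [abs_mul]; exact mul_le_mul hby hw (abs_nonneg _) hMb0)
      have b5 : u * w ≤ η2 * η1 := (le_abs_self _).trans (by
        rw [abs_mul]; exact mul_le_mul hu' hw (abs_nonneg _) hη20.le)
      have b6 : v * w ≤ η2 * η1 := (le_abs_self _).trans (by
        rw [abs_mul]; exact mul_le_mul hv' hw (abs_nonneg _) hη20.le)
      have b7 : η2 * η1 ≤ η2 := by nlinarith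
      nlinarith
    intro x hx y hy
    have hxL : x ∈ Icc (ε / 2) (1 - ε / 2) := ⟨by linarith [hx.1], by linarith [hx.2]⟩
    have hyL : y ∈ Icc (ε / 2) (1 - ε / 2) := ⟨by linarith [hy.1], by linarith [hy.2]⟩
    by_cases h : x = y
    · subst h
      have hcont : Continuous fun t : ℝ =>
          pdd p2.coeff (p2.natDegree + 1) x t + B +
            2 * (pev p2.coeff (p2.natDegree + 1) x + pev p2.coeff (p2.natDegree + 1) t) *
              pev a1 d1 (x + t) :=
        ((continuous_pdd _ _ x).add continuous_const).add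
          ((continuous_const.mul (continuous_const.add (continuous_pev _ _))).mul
            ((continuous_pev a1 d1).comp (continuous_const.add continuous_id)))
      have hlim := (hcont.tendsto x).mono_left (nhdsWithin_le_nhds (s := {x}ᶜ))
      refine le_of_tendsto hlim ?_
      have hnear : Ioo (ε / 2) (1 - ε / 2) ∈ 𝓝 x :=
        Ioo_mem_nhds (by linarith [hx.1]) (by linarith [hx.2])
      filter_upwards [mem_nhdsWithin_of_mem_nhds hnear, self_mem_nhdsWithin] with t ht htne
      exact hne x hxL t ⟨ht.1.le, ht.2.le⟩ (Ne.symm htne)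
    · exact hne x hxL y hyL h
  · intro x hx
    have hxL : x ∈ Icc (ε / 2) (1 - ε / 2) := ⟨by linarith [hx.1], by linarith [hx.2]⟩
    rw [pdv_eq, hev2]
    have h1 := abs_le.1 (hp3d x hx)
    have hu' := hp2 x hxL
    have hbx := hMbs x hxL
    set u := p2.eval x - bf B x with hu
    have e1 : p2.eval x = bf B x + u := by rw [hu]; ring
    rw [e1]
    have b1 : bf B x * u ≤ Mb * η2 := (le_abs_self _).trans (by
      rw [abs_mul]; exact mul_le_mul hbx hu' (abs_nonneg _) hMb0)
    have b2 : u ^ 2 ≤ η2 := by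
      have : |u| ^ 2 ≤ η2 ^ 2 := pow_le_pow_left₀ (abs_nonneg _) hu' 2
      rw [sq_abs] at this
      nlinarith
    nlinarith [h1.2]
  · intro x hx
    rw [pev_eq]
    exact (hp3 x hx).trans (by linarith)

end Vale.Agent.P371k
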