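import Vale.Agent.P371k.PathDeriv
import Vale.Agent.P371k.KernelE
import Vale.Agent.P371k.Polys
import Vale.Agent.P371k.Pointwise
import Vale.Agent.P371m.Core

open Matrix BigOperators Real MeasureTheory Set Filter Topology

namespace Vale.Agent.P371k

open Vale.Agent.P371h8 (dd pev pdd)
open Vale.Agent.P371m (Bp DBp Bn tauq fmat fmat_apply mul_tr_apply cont_R sq_sum_eq R_deriv exists_L
  integrable_of_vanish interval_eq_full le_of_forall_delta hasDerivAt_Bp)

variable {ι κ : Type*} [Fintype ι] [DecidableEq ι] [Fintype κ]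

/-- the path `G x = diag d0 + ∫_{-L}^x b bᵀ` -/
noncomputable def GGd (d0 : ι → ℝ) (L : ℝ) (P : ι → κ → ℝ → ℝ) (x : ℝ) : Matrix ι ι ℝ :=
  Matrix.of fun i j => (if i = j then d0 i else 0) + ∫ t in (-L)..x, (fmat P t * (fmat P t)ᵀ) i j

lemma GGd_quad {P : ι → κ → ℝ → ℝ} (hPc : ∀ i a, Continuous (P i a)) (d0 : ι → ℝ) (L : ℝ) (u : ι → ℝ)
    (x : ℝ) :
    u ⬝ᵥ (GGd d0 L P x *ᵥ u) = ∑ i, d0 i * (u i * u i) +
      ∫ t in (-L)..x, ∑ a, (∑ i, u i * P i a t) ^ 2 := by
  have h1 : ∫ t in (-L)..x, ∑ a, (∑ i, u i * P i a t) ^ 2 =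
      ∑ i, ∑ j, u i * u j * ∫ t in (-L)..x, (fmat P t * (fmat P t)ᵀ) i j := by
    simp_rw [sq_sum_eq]
    rw [intervalIntegral.integral_finsetSum]
    · apply Finset.sum_congr rfl
      intro i _
      rw [intervalIntegral.integral_finsetSum]
      · apply Finset.sum_congr rfl
        intro j _
        rw [intervalIntegral.integral_const_mul]
      · intro j _
        exact ((cont_R hPc i j).const_mul _).intervalIntegrable _ _
    · intro i _
      exact (continuous_finsetSum _ fun j _ => (cont_R hPc i j).const_mul _).intervalIntegrable _ _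
  rw [h1]
  simp only [dotProduct, mulVec, GGd, Matrix.of_apply]
  rw [← Finset.sum_add_distrib]
  apply Finset.sum_congr rfl
  intro i _
  have h2 : ∑ j, ((if i = j then d0 i else 0) + ∫ t in (-L)..x, (fmat P t * (fmat P t)ᵀ) i j) * u j =
      d0 i * u i + ∑ j, (∫ t in (-L)..x, (fmat P t * (fmat P t)ᵀ) i j) * u j := by
    simp only [add_mul, Finset.sum_add_distrib, ite_mul, zero_mul, Finset.sum_ite_eq, Finset.mem_univ,
      if_true]
  rw [h2, mul_add, Finset.mul_sum]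
  congr 1
  · ring
  · apply Finset.sum_congr rfl
    intro j _
    ring

omit [Fintype ι] in
lemma GGd_symm (d0 : ι → ℝ) (L : ℝ) (P : ι → κ → ℝ → ℝ) (x : ℝ) : (GGd d0 L P x).IsSymm := by
  apply Matrix.IsSymm.ext
  intro i j
  simp only [GGd, Matrix.of_apply]
  congr 1
  · by_cases h : i = j
    · simp [h]
    · simp [h, Ne.symm h]
  · apply intervalIntegral.integral_congr
    intro t _
    simp only [mul_tr_apply, fmat_apply]
    apply Finset.sum_congr rfl
    intro a _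
    ring

omit [Fintype ι] in
lemma GGd_deriv {P : ι → κ → ℝ → ℝ} (hPc : ∀ i a, Continuous (P i a)) (d0 : ι → ℝ) (L : ℝ) (x : ℝ)
    (i j : ι) :
    HasDerivAt (fun t => GGd d0 L P t i j) ((fmat P x * (fmat P x)ᵀ) i j) x := by
  simp only [GGd, Matrix.of_apply]
  exact ((cont_R hPc i j).integral_hasStrictDerivAt (-L) x).hasDerivAt.const_add _

/-- The integrated form of the pointwise inequality on an interval. -/
lemma integrated_ext {P P' : ι → κ → ℝ → ℝ} (hd : ∀ i a x, HasDerivAt (P i a) (P' i a x) x)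
    (hc' : ∀ i a, Continuous (P' i a)) {d0 : ι → ℝ} {B ε δ L : ℝ} (hε : 0 < ε) (hε2 : ε < 1 / 2)
    (hδ : 0 ≤ δ) (hL : 0 ≤ L)
    (hzero : ∀ i a, P i a L = 0 ∧ P i a (-L) = 0)
    (hlow : ∀ (u : ι → ℝ) (x : ℝ), x ∈ Icc (-L) L →
      ε * (u ⬝ᵥ u) ≤ ∑ i, d0 i * (u i * u i) + ∫ t in (-L)..x, ∑ a, (∑ i, u i * P i a t) ^ 2)
    (hup : ∀ (u : ι → ℝ) (x : ℝ), x ∈ Icc (-L) L →
      ∑ i, d0 i * (u i * u i) + ∫ t in (-L)..x, ∑ a, (∑ i, u i * P i a t) ^ 2 ≤ (1 - ε) * (u ⬝ᵥ u))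
    (a1 : ℕ → ℝ) (d1 : ℕ) (a2 : ℕ → ℝ) (d2 : ℕ) (a3 : ℕ → ℝ) (d3 : ℕ)
    (h1 : ∀ y ∈ Icc (2 * ε) (2 - 2 * ε), ∀ y' ∈ Icc (2 * ε) (2 - 2 * ε),
      |4 * pev a1 d1 y * pev a1 d1 y' + 2 * pdd a1 d1 y y' + π ^ 2 / 4 - tauq y y'| ≤ δ)
    (h2 : ∀ x ∈ Icc ε (1 - ε), ∀ y ∈ Icc ε (1 - ε),
      pdd a2 d2 x y + B + 2 * (pev a2 d2 x + pev a2 d2 y) * pev a1 d1 (x + y) ≤ δ)
    (h3 : ∀ x ∈ Icc ε (1 - ε), pdv a3 d3 x + pev a2 d2 x ^ 2 ≤ δ) :
    Ap a3 d3 (GGd d0 L P L) - Ap a3 d3 (GGd d0 L P (-L)) ≤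
      ∫ x in (-L)..L, (trace (fmat P' x * (fmat P' x)ᵀ) -
        π ^ 2 / 4 * trace ((fmat P x * (fmat P x)ᵀ) * (fmat P x * (fmat P x)ᵀ) * (fmat P x * (fmat P x)ᵀ))
        - B * trace ((fmat P x * (fmat P x)ᵀ) * (fmat P x * (fmat P x)ᵀ))
        + δ * (trace (fmat P x * (fmat P x)ᵀ) ^ 3 + trace (fmat P x * (fmat P x)ᵀ) ^ 2 +
            trace (fmat P x * (fmat P x)ᵀ))) := by
  have hPc : ∀ i a, Continuous (P i a) := fun i a =>
    continuous_iff_continuousAt.2 fun x => (hd i a x).continuousAt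
  set F : ℝ → ℝ := fun t => Bp a1 d1 (GGd d0 L P t) (fmat P t * (fmat P t)ᵀ) +
    Tp a2 d2 (GGd d0 L P t) (fmat P t * (fmat P t)ᵀ) + Ap a3 d3 (GGd d0 L P t) with hF
  set F' : ℝ → ℝ := fun x => DBp a1 d1 (GGd d0 L P x) (fmat P x * (fmat P x)ᵀ)
      (fmat P' x * (fmat P x)ᵀ + fmat P x * (fmat P' x)ᵀ) +
    DTp a2 d2 (GGd d0 L P x) (fmat P x * (fmat P x)ᵀ)
      (fmat P' x * (fmat P x)ᵀ + fmat P x * (fmat P' x)ᵀ) +
    DAp a3 d3 (GGd d0 L P x) (fmat P x * (fmat P x)ᵀ) with hF'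
  have hderiv : ∀ x, HasDerivAt F (F' x) x := by
    intro x
    exact ((hasDerivAt_Bp a1 d1 (GGd d0 L P) (fun t => fmat P t * (fmat P t)ᵀ)
      (fun t => fmat P' t * (fmat P t)ᵀ + fmat P t * (fmat P' t)ᵀ) x (R_deriv hd x)
      (GGd_deriv hPc d0 L x)).add
      (hasDerivAt_Tp a2 d2 (GGd d0 L P) (fun t => fmat P t * (fmat P t)ᵀ)
      (fun t => fmat P' t * (fmat P t)ᵀ + fmat P t * (fmat P' t)ᵀ) x (R_deriv hd x)
      (GGd_deriv hPc d0 L x))).add
      (hasDerivAt_Ap a3 d3 (GGd d0 L P) (fun t => fmat P t * (fmat P t)ᵀ) x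
      (GGd_deriv hPc d0 L x))
  have hend : ∀ y, (∀ i a, P i a y = 0) → F y = Ap a3 d3 (GGd d0 L P y) := by
    intro y hy
    have h0 : fmat P y = 0 := by
      ext i a
      simp [fmat_apply, hy]
    simp only [hF, Bp, Bn, Tp, Tn, h0]
    simp
  have hcm : Continuous fun x => (fmat P x : Matrix ι κ ℝ) := by
    apply continuous_matrix
    intro i a
    exact hPc i a
  have hcm' : Continuous fun x => (fmat P' x : Matrix ι κ ℝ) := by
    apply continuous_matrix
    intro i a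
    exact hc' i a
  have hφ : Continuous fun x => (trace (fmat P' x * (fmat P' x)ᵀ) -
        π ^ 2 / 4 * trace ((fmat P x * (fmat P x)ᵀ) * (fmat P x * (fmat P x)ᵀ) * (fmat P x * (fmat P x)ᵀ))
        - B * trace ((fmat P x * (fmat P x)ᵀ) * (fmat P x * (fmat P x)ᵀ))
        + δ * (trace (fmat P x * (fmat P x)ᵀ) ^ 3 + trace (fmat P x * (fmat P x)ᵀ) ^ 2 +
            trace (fmat P x * (fmat P x)ᵀ))) := by
    have h1 : Continuous fun x => (fmat P x * (fmat P x)ᵀ : Matrix ι ι ℝ) :=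
      hcm.matrix_mul hcm.matrix_transpose
    have h2 : Continuous fun x => (fmat P' x * (fmat P' x)ᵀ : Matrix ι ι ℝ) :=
      hcm'.matrix_mul hcm'.matrix_transpose
    exact (((h2.matrix_trace).sub (((h1.matrix_mul h1).matrix_mul h1).matrix_trace.const_mul _)).sub
      ((h1.matrix_mul h1).matrix_trace.const_mul _)).add
      (((h1.matrix_trace.pow 3).add (h1.matrix_trace.pow 2)).add h1.matrix_trace |>.const_mul _)
  have hmain := intervalIntegral.sub_le_integral_of_hasDeriv_right_of_le (a := -L) (b := L) (g := F) (g' := F')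
    (φ := fun x => (trace (fmat P' x * (fmat P' x)ᵀ) -
        π ^ 2 / 4 * trace ((fmat P x * (fmat P x)ᵀ) * (fmat P x * (fmat P x)ᵀ) * (fmat P x * (fmat P x)ᵀ))
        - B * trace ((fmat P x * (fmat P x)ᵀ) * (fmat P x * (fmat P x)ᵀ))
        + δ * (trace (fmat P x * (fmat P x)ᵀ) ^ 3 + trace (fmat P x * (fmat P x)ᵀ) ^ 2 +
            trace (fmat P x * (fmat P x)ᵀ))))
    (by linarith) (fun x _ => (hderiv x).continuousAt.continuousWithinAt)
    (fun x _ => (hderiv x).hasDerivWithinAt) (hφ.integrableOn_Icc) ?_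
  · rw [hend L (fun i a => (hzero i a).1), hend (-L) (fun i a => (hzero i a).2)] at hmain
    exact hmain
  · intro x hx
    have hx' : x ∈ Icc (-L) L := Ioo_subset_Icc_self hx
    apply DPhi_le a1 d1 a2 d2 a3 d3 B ε δ hε hε2 h1 h2 h3 hδ (GGd d0 L P x) (GGd_symm d0 L P x)
    · intro u
      rw [GGd_quad hPc]
      exact hlow u x hx'
    · intro u
      rw [GGd_quad hPc]
      exact hup u x hx'

omit [DecidableEq ι] in
lemma Ap_diagonal [DecidableEq ι] (a : ℕ → ℝ) (d : ℕ) (g : ι → ℝ) :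
    Ap a d (diagonal g) = ∑ i, pev a d (g i) := by
  simp only [Ap, An, pev, Matrix.diagonal_pow, Matrix.trace_diagonal, Finset.mul_sum, Pi.pow_apply]
  rw [Finset.sum_comm]

/-- One approximate inequality, for fixed `ε` and `δ`. -/
lemma core_ext_step (Ψ : ι → κ → ℝ → ℝ)
    (hsm : ∀ i a, ContDiff ℝ 1 (Ψ i a)) (hcs : ∀ i a, HasCompactSupport (Ψ i a))
    (n : ι → ℝ) (hn0 : ∀ i, 0 ≤ n i) (hn1 : ∀ i, n i < 1)
    (hON : ∀ i j, ∑ a, ∫ x, Ψ i a x * Ψ j a x = if i = j then n i else 0)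
    {B : ℝ} (hB : 0 < B) {ε δ : ℝ} (hε : 0 < ε) (hε2 : ε < 1 / 2) (hδ : 0 < δ) :
    π ^ 2 / 4 * ((1 - 2 * ε) ^ 3 * ∫ x, trace ((fmat Ψ x * (fmat Ψ x)ᵀ) * (fmat Ψ x * (fmat Ψ x)ᵀ) *
        (fmat Ψ x * (fmat Ψ x)ᵀ))) +
      B * ((1 - 2 * ε) ^ 2 * ∫ x, trace ((fmat Ψ x * (fmat Ψ x)ᵀ) * (fmat Ψ x * (fmat Ψ x)ᵀ))) ≤
      (1 - 2 * ε) * (∑ i, ∑ a, ∫ x, deriv (Ψ i a) x ^ 2) + ∑ i, costB B ((1 - 2 * ε) * n i) +
        δ * ((1 - 2 * ε) ^ 3 * (∫ x, trace (fmat Ψ x * (fmat Ψ x)ᵀ) ^ 3) +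
          (1 - 2 * ε) ^ 2 * (∫ x, trace (fmat Ψ x * (fmat Ψ x)ᵀ) ^ 2) +
          (1 - 2 * ε) * (∫ x, trace (fmat Ψ x * (fmat Ψ x)ᵀ)) + 2 * (Fintype.card ι : ℝ)) := by
  obtain ⟨d1, a1, d2, a2, d3, a3, h1, h2, h3, h4⟩ := exists_polys B ε δ hB hε hε2 hδ
  obtain ⟨L, hL, hLv, hLd⟩ := exists_L hcs
  set c : ℝ := 1 - 2 * ε with hc
  have hc0 : 0 < c := by rw [hc]; linarith
  have hc1 : c < 1 := by rw [hc]; linarith
  set s : ℝ := √c with hs
  have hs2 : s * s = c := Real.mul_self_sqrt hc0.le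
  have hΨc : ∀ i a, Continuous (Ψ i a) := fun i a => (hsm i a).continuous
  have hdc : ∀ i a, Continuous (deriv (Ψ i a)) := fun i a =>
    (hsm i a).continuous_deriv (le_refl _)
  have hd : ∀ i a x, HasDerivAt (Ψ i a) (deriv (Ψ i a) x) x := fun i a x =>
    ((hsm i a).differentiable (by norm_num) x).hasDerivAt
  set P : ι → κ → ℝ → ℝ := fun i a t => s * Ψ i a t with hP
  set P' : ι → κ → ℝ → ℝ := fun i a t => s * deriv (Ψ i a) t with hP'
  set Ψ' : ι → κ → ℝ → ℝ := fun i a => deriv (Ψ i a) with hΨ'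
  have hPm : ∀ x, fmat P x = s • fmat Ψ x := by
    intro x
    ext i a
    simp [fmat_apply, hP]
  have hPm' : ∀ x, fmat P' x = s • fmat Ψ' x := by
    intro x
    ext i a
    simp [fmat_apply, hP', hΨ']
  have hprodi : ∀ i j a, Integrable fun t => Ψ i a t * Ψ j a t := by
    intro i j a
    apply integrable_of_vanish ((hΨc i a).mul (hΨc j a)) (L := L)
    intro t ht
    show Ψ i a t * Ψ j a t = 0
    rw [hLv i a t ht, zero_mul]
  have hWeq : ∀ (u : ι → ℝ) (t : ℝ), ∑ a, (∑ i, u i * Ψ i a t) ^ 2 =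
      ∑ a, ∑ i, ∑ j, u i * u j * (Ψ i a t * Ψ j a t) := by
    intro u t
    apply Finset.sum_congr rfl
    intro a _
    rw [sq, Finset.sum_mul_sum]
    apply Finset.sum_congr rfl
    intro i _
    apply Finset.sum_congr rfl
    intro j _
    ring
  have hWi : ∀ u : ι → ℝ, Integrable fun t => ∑ a, (∑ i, u i * Ψ i a t) ^ 2 := by
    intro u
    have hWc : Continuous fun t => ∑ a, (∑ i, u i * Ψ i a t) ^ 2 :=
      continuous_finsetSum _ fun a _ =>
        (continuous_finsetSum _ fun i _ => (hΨc i a).const_mul _).pow 2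
    apply integrable_of_vanish hWc (L := L)
    intro t ht
    apply Finset.sum_eq_zero
    intro a _
    have : ∑ i, u i * Ψ i a t = 0 := by
      apply Finset.sum_eq_zero
      intro i _
      rw [hLv i a t ht, mul_zero]
    rw [this]
    norm_num
  have hWint : ∀ u : ι → ℝ, ∫ t, ∑ a, (∑ i, u i * Ψ i a t) ^ 2 = ∑ i, n i * (u i * u i) := by
    intro u
    simp_rw [hWeq]
    have e1 : ∫ t, ∑ a, ∑ i, ∑ j, u i * u j * (Ψ i a t * Ψ j a t) =
        ∑ a, ∑ i, ∑ j, u i * u j * ∫ t, Ψ i a t * Ψ j a t := by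
      rw [integral_finsetSum]
      · apply Finset.sum_congr rfl
        intro a _
        rw [integral_finsetSum]
        · apply Finset.sum_congr rfl
          intro i _
          rw [integral_finsetSum]
          · apply Finset.sum_congr rfl
            intro j _
            rw [integral_const_mul]
          · intro j _
            exact (hprodi i j a).const_mul _
        · intro i _
          exact integrable_finsetSum _ fun j _ => (hprodi i j a).const_mul _
      · intro a _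
        exact integrable_finsetSum _ fun i _ => integrable_finsetSum _ fun j _ => (hprodi i j a).const_mul _
    rw [e1, Finset.sum_comm]
    apply Finset.sum_congr rfl
    intro i _
    rw [Finset.sum_comm]
    simp_rw [← Finset.mul_sum, hON]
    simp only [mul_ite, mul_zero, Finset.sum_ite_eq, Finset.mem_univ, if_true]
    ring
  have hW : ∀ u : ι → ℝ, ∀ x ∈ Icc (-L) L,
      0 ≤ ∫ t in (-L)..x, ∑ a, (∑ i, u i * Ψ i a t) ^ 2 ∧
      ∫ t in (-L)..x, ∑ a, (∑ i, u i * Ψ i a t) ^ 2 ≤ ∑ i, n i * (u i * u i) := by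
    intro u x hx
    constructor
    · apply intervalIntegral.integral_nonneg hx.1
      intro t _
      exact Finset.sum_nonneg fun a _ => sq_nonneg _
    · rw [← hWint u, intervalIntegral.integral_of_le hx.1]
      apply setIntegral_le_integral (hWi u)
      exact Eventually.of_forall fun t => Finset.sum_nonneg fun a _ => sq_nonneg _
  have hPW : ∀ (u : ι → ℝ) (t : ℝ), ∑ a, (∑ i, u i * P i a t) ^ 2 = c * ∑ a, (∑ i, u i * Ψ i a t) ^ 2 := by
    intro u t
    rw [Finset.mul_sum]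
    apply Finset.sum_congr rfl
    intro a _
    have : ∑ i, u i * P i a t = s * ∑ i, u i * Ψ i a t := by
      rw [Finset.mul_sum]
      apply Finset.sum_congr rfl
      intro i _
      simp only [hP]
      ring
    rw [this, mul_pow, sq s, hs2]
  set d0 : ι → ℝ := fun i => (1 - c * n i) / 2 with hd0
  set d1' : ι → ℝ := fun i => (1 + c * n i) / 2 with hd1'
  have hdot : ∀ u : ι → ℝ, u ⬝ᵥ u = ∑ i, u i * u i := fun u => rfl
  have hcn : ∀ i, 0 ≤ c * n i ∧ c * n i ≤ c := by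
    intro i
    constructor
    · exact mul_nonneg hc0.le (hn0 i)
    · nlinarith [hn1 i]
  have hd0m : ∀ i, d0 i ∈ Icc ε (1 - ε) := by
    intro i
    have := hcn i
    simp only [hd0, mem_Icc]
    constructor <;> nlinarith
  have hd1m : ∀ i, d1' i ∈ Icc ε (1 - ε) := by
    intro i
    have := hcn i
    simp only [hd1', mem_Icc]
    constructor <;> nlinarith
  have hint := integrated_ext (P := P) (P' := P') (d0 := d0) (B := B) (ε := ε) (δ := δ) (L := L)
    (fun i a x => (hd i a x).const_mul s) (fun i a => (hdc i a).const_mul s) hε hε2 hδ.le hL.le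
    (fun i a => by
      refine ⟨?_, ?_⟩
      · simp only [hP]
        rw [hLv i a L (by rw [abs_of_pos hL]), mul_zero]
      · simp only [hP]
        rw [hLv i a (-L) (by rw [abs_neg, abs_of_pos hL]), mul_zero])
    (fun u x hx => by
      simp_rw [hPW]
      rw [intervalIntegral.integral_const_mul, hdot, Finset.mul_sum]
      have h5 := (hW u x hx).1
      have h6 : ∑ i, ε * (u i * u i) ≤ ∑ i, d0 i * (u i * u i) := by
        apply Finset.sum_le_sum
        intro i _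
        exact mul_le_mul_of_nonneg_right (hd0m i).1 (mul_self_nonneg _)
      have h7 := mul_nonneg hc0.le h5
      linarith)
    (fun u x hx => by
      simp_rw [hPW]
      rw [intervalIntegral.integral_const_mul, hdot, Finset.mul_sum]
      have h5 := (hW u x hx).2
      have h6 : ∑ i, d0 i * (u i * u i) + c * ∑ i, n i * (u i * u i) ≤ ∑ i, (1 - ε) * (u i * u i) := by
        rw [Finset.mul_sum, ← Finset.sum_add_distrib]
        apply Finset.sum_le_sum
        intro i _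
        have h8 : d0 i + c * n i ≤ 1 - ε := by
          have := hcn i
          simp only [hd0]
          nlinarith
        calc d0 i * (u i * u i) + c * (n i * (u i * u i)) = (d0 i + c * n i) * (u i * u i) := by ring
          _ ≤ _ := mul_le_mul_of_nonneg_right h8 (mul_self_nonneg _)
      have h7 := mul_le_mul_of_nonneg_left h5 hc0.le
      linarith)
    a1 d1 a2 d2 a3 d3 h1 h2 h3
  -- the end values
  have hGm : GGd d0 L P (-L) = diagonal d0 := by
    ext i j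
    simp only [GGd, Matrix.of_apply, intervalIntegral.integral_same, add_zero, Matrix.diagonal_apply]
  have hRvP : ∀ i j t, (fmat P t * (fmat P t)ᵀ) i j = c * ∑ a, Ψ i a t * Ψ j a t := by
    intro i j t
    rw [mul_tr_apply, Finset.mul_sum]
    apply Finset.sum_congr rfl
    intro a _
    simp only [fmat_apply, hP]
    rw [← hs2]
    ring
  have hGp : GGd d0 L P L = diagonal d1' := by
    ext i j
    simp only [GGd, Matrix.of_apply, Matrix.diagonal_apply]
    have e : ∫ t in (-L)..L, (fmat P t * (fmat P t)ᵀ) i j = c * (if i = j then n i else 0) := by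
      rw [interval_eq_full hL]
      · simp_rw [hRvP]
        rw [integral_const_mul, integral_finsetSum _ (fun a _ => hprodi i j a), hON]
      · intro t ht
        rw [hRvP]
        have : ∑ a, Ψ i a t * Ψ j a t = 0 := by
          apply Finset.sum_eq_zero
          intro a _
          rw [hLv i a t ht, zero_mul]
        rw [this, mul_zero]
    rw [e]
    by_cases hij : i = j
    · subst hij
      simp only [if_true, hd0, hd1']
      ring
    · simp [hij]
  rw [hGp, hGm, Ap_diagonal, Ap_diagonal] at hint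
  -- the traces
  set T1 : ℝ → ℝ := fun x => ∑ i, ∑ a, deriv (Ψ i a) x ^ 2 with hT1
  set R : ℝ → Matrix ι ι ℝ := fun x => fmat Ψ x * (fmat Ψ x)ᵀ with hR
  set T2 : ℝ → ℝ := fun x => trace (R x * R x * R x) with hT2
  set T2b : ℝ → ℝ := fun x => trace (R x * R x) with hT2b
  set T3 : ℝ → ℝ := fun x => trace (R x) ^ 3 with hT3
  set T3b : ℝ → ℝ := fun x => trace (R x) ^ 2 with hT3b
  set T3c : ℝ → ℝ := fun x => trace (R x) with hT3c
  have hRs : ∀ x, fmat P x * (fmat P x)ᵀ = c • R x := by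
    intro x
    rw [hPm, Matrix.transpose_smul, Matrix.smul_mul, Matrix.mul_smul, smul_smul, hs2]
  have hval : ∀ x, (trace (fmat P' x * (fmat P' x)ᵀ) -
        π ^ 2 / 4 * trace ((fmat P x * (fmat P x)ᵀ) * (fmat P x * (fmat P x)ᵀ) * (fmat P x * (fmat P x)ᵀ))
        - B * trace ((fmat P x * (fmat P x)ᵀ) * (fmat P x * (fmat P x)ᵀ))
        + δ * (trace (fmat P x * (fmat P x)ᵀ) ^ 3 + trace (fmat P x * (fmat P x)ᵀ) ^ 2 +
            trace (fmat P x * (fmat P x)ᵀ))) =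
      c * T1 x - π ^ 2 / 4 * (c ^ 3 * T2 x) - B * (c ^ 2 * T2b x) +
        δ * (c ^ 3 * T3 x + c ^ 2 * T3b x + c * T3c x) := by
    intro x
    rw [hRs]
    have h1 : trace (fmat P' x * (fmat P' x)ᵀ) = c * T1 x := by
      rw [hPm', Matrix.transpose_smul, Matrix.smul_mul, Matrix.mul_smul, smul_smul, hs2,
        Matrix.trace_smul, smul_eq_mul]
      congr 1
      simp only [Matrix.trace, Matrix.diag, mul_tr_apply, fmat_apply, hT1, hΨ', sq]
    have h2 : trace (c • R x * (c • R x) * (c • R x)) = c ^ 3 * T2 x := by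
      have e : c • R x * (c • R x) * (c • R x) = (c ^ 3) • (R x * R x * R x) := by
        simp only [Matrix.smul_mul, Matrix.mul_smul, smul_smul]
        congr 1
        ring
      rw [e, Matrix.trace_smul, smul_eq_mul]
    have h2b : trace (c • R x * (c • R x)) = c ^ 2 * T2b x := by
      have e : c • R x * (c • R x) = (c ^ 2) • (R x * R x) := by
        simp only [Matrix.smul_mul, Matrix.mul_smul, smul_smul]
        congr 1
        ring
      rw [e, Matrix.trace_smul, smul_eq_mul]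
    have h3 : trace (c • R x) ^ 3 = c ^ 3 * T3 x := by
      rw [Matrix.trace_smul, smul_eq_mul, mul_pow]
    have h3b : trace (c • R x) ^ 2 = c ^ 2 * T3b x := by
      rw [Matrix.trace_smul, smul_eq_mul, mul_pow]
    have h3c : trace (c • R x) = c * T3c x := by
      rw [Matrix.trace_smul, smul_eq_mul]
    rw [h1, h2, h2b, h3, h3b, h3c]
  have hRv : ∀ x, L ≤ |x| → R x = 0 := by
    intro x hx
    have h0 : fmat Ψ x = 0 := by
      ext i a
      simp [fmat_apply, hLv i a x hx]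
    simp only [hR, h0]
    simp
  have hT1v : ∀ x, L ≤ |x| → T1 x = 0 := by
    intro x hx
    apply Finset.sum_eq_zero
    intro i _
    apply Finset.sum_eq_zero
    intro a _
    rw [hLd i a x hx]
    norm_num
  have hT2v : ∀ x, L ≤ |x| → T2 x = 0 := by
    intro x hx
    simp [hT2, hRv x hx]
  have hT2bv : ∀ x, L ≤ |x| → T2b x = 0 := by
    intro x hx
    simp [hT2b, hRv x hx]
  have hT3v : ∀ x, L ≤ |x| → T3 x = 0 := by
    intro x hx
    simp [hT3, hRv x hx]
  have hT3bv : ∀ x, L ≤ |x| → T3b x = 0 := by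
    intro x hx
    simp [hT3b, hRv x hx]
  have hT3cv : ∀ x, L ≤ |x| → T3c x = 0 := by
    intro x hx
    simp [hT3c, hRv x hx]
  have hcm : Continuous fun x => (fmat Ψ x : Matrix ι κ ℝ) := by
    apply continuous_matrix
    intro i a
    exact hΨc i a
  have hRc : Continuous R := hcm.matrix_mul hcm.matrix_transpose
  have hT1c : Continuous T1 :=
    continuous_finsetSum _ fun i _ => continuous_finsetSum _ fun a _ => (hdc i a).pow 2
  have hT2c : Continuous T2 := ((hRc.matrix_mul hRc).matrix_mul hRc).matrix_trace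
  have hT2bc : Continuous T2b := (hRc.matrix_mul hRc).matrix_trace
  have hT3c' : Continuous T3 := hRc.matrix_trace.pow 3
  have hT3bc : Continuous T3b := hRc.matrix_trace.pow 2
  have hT3cc : Continuous T3c := hRc.matrix_trace
  have hT1i := integrable_of_vanish hT1c hT1v
  have hT2i := integrable_of_vanish hT2c hT2v
  have hT2bi := integrable_of_vanish hT2bc hT2bv
  have hT3i := integrable_of_vanish hT3c' hT3v
  have hT3bi := integrable_of_vanish hT3bc hT3bv
  have hT3ci := integrable_of_vanish hT3cc hT3cv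
  have hfull : ∫ x in (-L)..L, (c * T1 x - π ^ 2 / 4 * (c ^ 3 * T2 x) - B * (c ^ 2 * T2b x) +
        δ * (c ^ 3 * T3 x + c ^ 2 * T3b x + c * T3c x)) =
      ∫ x, (c * T1 x - π ^ 2 / 4 * (c ^ 3 * T2 x) - B * (c ^ 2 * T2b x) +
        δ * (c ^ 3 * T3 x + c ^ 2 * T3b x + c * T3c x)) := by
    apply interval_eq_full hL
    intro x hx
    rw [hT1v x hx, hT2v x hx, hT2bv x hx, hT3v x hx, hT3bv x hx, hT3cv x hx]
    ring
  have hsplit : ∫ x, (c * T1 x - π ^ 2 / 4 * (c ^ 3 * T2 x) - B * (c ^ 2 * T2b x) +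
        δ * (c ^ 3 * T3 x + c ^ 2 * T3b x + c * T3c x)) =
      c * (∫ x, T1 x) - π ^ 2 / 4 * (c ^ 3 * ∫ x, T2 x) - B * (c ^ 2 * ∫ x, T2b x) +
        δ * (c ^ 3 * (∫ x, T3 x) + c ^ 2 * (∫ x, T3b x) + c * ∫ x, T3c x) := by
    have i1 : Integrable (fun x => c * T1 x) := hT1i.const_mul c
    have i2 : Integrable (fun x => π ^ 2 / 4 * (c ^ 3 * T2 x)) := (hT2i.const_mul _).const_mul _
    have i2b : Integrable (fun x => B * (c ^ 2 * T2b x)) := (hT2bi.const_mul _).const_mul _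
    have i3 : Integrable (fun x => c ^ 3 * T3 x) := hT3i.const_mul _
    have i3b : Integrable (fun x => c ^ 2 * T3b x) := hT3bi.const_mul _
    have i3c : Integrable (fun x => c * T3c x) := hT3ci.const_mul _
    have i12 : Integrable (fun x => c * T1 x - π ^ 2 / 4 * (c ^ 3 * T2 x)) := i1.sub i2
    have i123 : Integrable (fun x => c * T1 x - π ^ 2 / 4 * (c ^ 3 * T2 x) - B * (c ^ 2 * T2b x)) :=
      i12.sub i2b
    have i33 : Integrable (fun x => c ^ 3 * T3 x + c ^ 2 * T3b x) := i3.add i3b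
    have i333 : Integrable (fun x => c ^ 3 * T3 x + c ^ 2 * T3b x + c * T3c x) := i33.add i3c
    rw [integral_add i123 (i333.const_mul δ), integral_sub i12 i2b, integral_sub i1 i2,
      integral_const_mul δ, integral_add i33 i3c, integral_add i3 i3b]
    simp only [integral_const_mul]
  have hT1int : ∫ x, T1 x = ∑ i, ∑ a, ∫ x, deriv (Ψ i a) x ^ 2 := by
    simp only [hT1]
    rw [integral_finsetSum]
    · apply Finset.sum_congr rfl
      intro i _
      rw [integral_finsetSum]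
      intro a _
      apply integrable_of_vanish ((hdc i a).pow 2) (L := L)
      intro t ht
      show deriv (Ψ i a) t ^ 2 = 0
      rw [hLd i a t ht]
      norm_num
    · intro i _
      apply integrable_of_vanish (continuous_finsetSum _ fun a _ => (hdc i a).pow 2) (L := L)
      intro t ht
      apply Finset.sum_eq_zero
      intro a _
      show deriv (Ψ i a) t ^ 2 = 0
      rw [hLd i a t ht]
      norm_num
  simp_rw [hval] at hint
  rw [hfull, hsplit, hT1int] at hint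
  -- the polynomial at the ends
  have hends : ∑ i, pev a3 d3 (d0 i) - ∑ i, pev a3 d3 (d1' i) ≤
      ∑ i, costB B (c * n i) + 2 * δ * (Fintype.card ι : ℝ) := by
    have e : ∑ i, costB B (c * n i) + 2 * δ * (Fintype.card ι : ℝ) =
        ∑ i, (costB B (c * n i) + 2 * δ) := by
      rw [Finset.sum_add_distrib]
      simp
      ring
    rw [e, ← Finset.sum_sub_distrib]
    apply Finset.sum_le_sum
    intro i _
    have h5 := abs_le.1 (h4 (d0 i) (hd0m i))
    have h6 := abs_le.1 (h4 (d1' i) (hd1m i))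
    have h7 : af B (d0 i) - af B (d1' i) = costB B (c * n i) := af_diff
    linarith [h5.1, h5.2, h6.1, h6.2]
  have e2 : (∫ x, trace ((fmat Ψ x * (fmat Ψ x)ᵀ) * (fmat Ψ x * (fmat Ψ x)ᵀ) * (fmat Ψ x * (fmat Ψ x)ᵀ))) =
      ∫ x, T2 x := rfl
  have e2b : (∫ x, trace ((fmat Ψ x * (fmat Ψ x)ᵀ) * (fmat Ψ x * (fmat Ψ x)ᵀ))) = ∫ x, T2b x := rfl
  have e3 : (∫ x, trace (fmat Ψ x * (fmat Ψ x)ᵀ) ^ 3) = ∫ x, T3 x := rfl
  have e3b : (∫ x, trace (fmat Ψ x * (fmat Ψ x)ᵀ) ^ 2) = ∫ x, T3b x := rfl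
  have e3c : (∫ x, trace (fmat Ψ x * (fmat Ψ x)ᵀ)) = ∫ x, T3c x := rfl
  rw [e2, e2b, e3, e3b, e3c]
  nlinarith [hint, hends]

/-- The kinetic inequality with diagonal Gram matrix and the extra term `B ρ²`. -/
theorem core_ext (Ψ : ι → κ → ℝ → ℝ)
    (hsm : ∀ i a, ContDiff ℝ 1 (Ψ i a)) (hcs : ∀ i a, HasCompactSupport (Ψ i a))
    (n : ι → ℝ) (hn0 : ∀ i, 0 ≤ n i) (hn1 : ∀ i, n i < 1)
    (hON : ∀ i j, ∑ a, ∫ x, Ψ i a x * Ψ j a x = if i = j then n i else 0)
    {B : ℝ} (hB : 0 < B) :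
    π ^ 2 / 4 * (∫ x, trace ((fmat Ψ x * (fmat Ψ x)ᵀ) * (fmat Ψ x * (fmat Ψ x)ᵀ) * (fmat Ψ x * (fmat Ψ x)ᵀ)))
      + B * (∫ x, trace ((fmat Ψ x * (fmat Ψ x)ᵀ) * (fmat Ψ x * (fmat Ψ x)ᵀ))) ≤
      (∑ i, ∑ a, ∫ x, deriv (Ψ i a) x ^ 2) + ∑ i, costB B (n i) := by
  set I3 : ℝ := ∫ x, trace ((fmat Ψ x * (fmat Ψ x)ᵀ) * (fmat Ψ x * (fmat Ψ x)ᵀ) * (fmat Ψ x * (fmat Ψ x)ᵀ))
    with hI3
  set I2 : ℝ := ∫ x, trace ((fmat Ψ x * (fmat Ψ x)ᵀ) * (fmat Ψ x * (fmat Ψ x)ᵀ)) with hI2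
  set K : ℝ := ∑ i, ∑ a, ∫ x, deriv (Ψ i a) x ^ 2 with hK
  have h1 : ∀ ε : ℝ, 0 < ε → ε < 1 / 2 →
      π ^ 2 / 4 * ((1 - 2 * ε) ^ 3 * I3) + B * ((1 - 2 * ε) ^ 2 * I2) ≤
        (1 - 2 * ε) * K + ∑ i, costB B ((1 - 2 * ε) * n i) := by
    intro ε hε hε2
    apply le_of_forall_delta (z := (1 - 2 * ε) ^ 3 * (∫ x, trace (fmat Ψ x * (fmat Ψ x)ᵀ) ^ 3) +
          (1 - 2 * ε) ^ 2 * (∫ x, trace (fmat Ψ x * (fmat Ψ x)ᵀ) ^ 2) +
          (1 - 2 * ε) * (∫ x, trace (fmat Ψ x * (fmat Ψ x)ᵀ)) + 2 * (Fintype.card ι : ℝ))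
    intro δ hδ
    exact core_ext_step Ψ hsm hcs n hn0 hn1 hON hB hε hε2 hδ
  have hlimL : Tendsto (fun ε : ℝ => π ^ 2 / 4 * ((1 - 2 * ε) ^ 3 * I3) + B * ((1 - 2 * ε) ^ 2 * I2))
      (𝓝[>] 0) (𝓝 (π ^ 2 / 4 * ((1 - 2 * 0) ^ 3 * I3) + B * ((1 - 2 * 0) ^ 2 * I2))) := by
    apply Tendsto.mono_left _ nhdsWithin_le_nhds
    apply Continuous.tendsto
    fun_prop
  have hcost : ∀ i, ContinuousAt (fun ε : ℝ => costB B ((1 - 2 * ε) * n i)) 0 := by
    intro i
    unfold costB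
    have hcos : cos (π * ((1 - 2 * 0) * n i) / 2) ≠ 0 := by
      have e : π * ((1 - 2 * 0) * n i) / 2 = π * n i / 2 := by ring
      rw [e]
      apply (Real.cos_pos_of_mem_Ioo ⟨?_, ?_⟩).ne'
      · have := hn0 i
        have := Real.pi_pos
        nlinarith [mul_nonneg Real.pi_pos.le (hn0 i)]
      · have := hn1 i
        have := Real.pi_pos
        nlinarith
    have htan : ContinuousAt (fun ε : ℝ => tan (π * ((1 - 2 * ε) * n i) / 2)) 0 :=
      ContinuousAt.comp (f := fun ε : ℝ => π * ((1 - 2 * ε) * n i) / 2) (g := tan)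
        (Real.continuousAt_tan.2 hcos) (by fun_prop)
    apply ContinuousAt.mul continuousAt_const
    apply ContinuousAt.sub
    · exact ContinuousAt.mul continuousAt_const htan
    · fun_prop
  have hlimR : Tendsto (fun ε : ℝ => (1 - 2 * ε) * K + ∑ i, costB B ((1 - 2 * ε) * n i))
      (𝓝[>] 0) (𝓝 ((1 - 2 * 0) * K + ∑ i, costB B ((1 - 2 * 0) * n i))) := by
    apply Tendsto.mono_left _ nhdsWithin_le_nhds
    apply ContinuousAt.tendsto
    apply ContinuousAt.add (by fun_prop)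
    exact tendsto_finsetSum _ fun i _ => hcost i
  have hev : ∀ᶠ ε : ℝ in 𝓝[>] 0,
      π ^ 2 / 4 * ((1 - 2 * ε) ^ 3 * I3) + B * ((1 - 2 * ε) ^ 2 * I2) ≤
        (1 - 2 * ε) * K + ∑ i, costB B ((1 - 2 * ε) * n i) := by
    filter_upwards [Ioo_mem_nhdsGT (by norm_num : (0 : ℝ) < 1 / 2)] with ε hε
    exact h1 ε hε.1 hε.2
  have h4 := le_of_tendsto_of_tendsto hlimL hlimR hev
  have e1 : π ^ 2 / 4 * ((1 - 2 * 0) ^ 3 * I3) + B * ((1 - 2 * 0) ^ 2 * I2) = π ^ 2 / 4 * I3 + B * I2 := by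
    ring
  have e2 : (1 - 2 * 0) * K + ∑ i, costB B ((1 - 2 * 0) * n i) = K + ∑ i, costB B (n i) := by
    norm_num
  rw [e1, e2] at h4
  exact h4

end Vale.Agent.P371k
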