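import Vale.Agent.P371k.Defs
import Vale.Agent.P371m.Complex
import Vale.Agent.P371k.Core

/-!
Doubling for the extended kinetic inequality: orthogonal complex families with norms `n j`.
-/

namespace Vale.Agent.P371k
open Matrix BigOperators Real MeasureTheory
open scoped ContDiff
open Vale.Agent.P371m (dblΨ fmat realify realify_mul trace_realify dbl_gram_eq dbl_smooth dbl_support
  dbl_kinetic integrable_sq_of_cs)

section

variable {ι τ : Type*} [Fintype ι] [DecidableEq ι] [Fintype τ] [DecidableEq τ]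

omit [DecidableEq ι] [DecidableEq τ] in
lemma dbl_trace2 (ψ : ι → ℝ → τ → ℂ) (x : ℝ) :
    trace ((Matrix.of fun i a => dblΨ ψ i a x) * (Matrix.of fun i a => dblΨ ψ i a x)ᵀ *
        ((Matrix.of fun i a => dblΨ ψ i a x) * (Matrix.of fun i a => dblΨ ψ i a x)ᵀ)) =
      2 * ((Vale.Agent.P371.rhoM ψ x * Vale.Agent.P371.rhoM ψ x).trace).re := by
  set b : Matrix (ι × Bool) (τ × Bool) ℝ := Matrix.of fun i a => dblΨ ψ i a x with hb
  have h1 : trace (b * bᵀ * (b * bᵀ)) = trace (bᵀ * b * (bᵀ * b)) := by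
    simp only [Matrix.mul_assoc]
    rw [Matrix.trace_mul_comm]
    simp only [Matrix.mul_assoc]
  rw [h1, dbl_gram_eq, ← realify_mul, trace_realify]

variable {ψ : ι → ℝ → τ → ℂ}

/-- integrability of a product of two continuous functions of compact support -/
lemma integrable_mul_cs {f g : ℝ → ℝ} (hf : Continuous f) (hg : Continuous g)
    (hs : HasCompactSupport f) : Integrable (fun y => f y * g y) :=
  (hf.mul hg).integrable_of_hasCompactSupport hs.mul_right

/-- real and imaginary parts of the scalar products -/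
lemma dbl_inner (hsm : ∀ n, ContDiff ℝ ∞ (ψ n)) (hcs : ∀ n, HasCompactSupport (ψ n)) (j k : ι) :
    (∑ α, ((∫ x, (ψ j x α).re * (ψ k x α).re) + ∫ x, (ψ j x α).im * (ψ k x α).im)) =
        (∫ x, star (ψ j x) ⬝ᵥ ψ k x).re ∧
    (∑ α, ((∫ x, (ψ j x α).re * (ψ k x α).im) - ∫ x, (ψ j x α).im * (ψ k x α).re)) =
        (∫ x, star (ψ j x) ⬝ᵥ ψ k x).im := by
  have hc : ∀ n α, Continuous (fun y => ψ n y α) :=
    fun n α => (Vale.Agent.P371.comp_smooth hsm n α).continuous
  have hs : ∀ n α, HasCompactSupport (fun y => ψ n y α) :=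
    fun n α => Vale.Agent.P371.comp_support hcs n α
  have hre : ∀ n α, Continuous (fun y => (ψ n y α).re) :=
    fun n α => Complex.continuous_re.comp (hc n α)
  have him : ∀ n α, Continuous (fun y => (ψ n y α).im) :=
    fun n α => Complex.continuous_im.comp (hc n α)
  have hsre : ∀ n α, HasCompactSupport (fun y => (ψ n y α).re) :=
    fun n α => (hs n α).comp_left (g := fun z : ℂ => z.re) Complex.zero_re
  have hsim : ∀ n α, HasCompactSupport (fun y => (ψ n y α).im) :=
    fun n α => (hs n α).comp_left (g := fun z : ℂ => z.im) Complex.zero_im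
  have hI : ∀ α, Integrable (fun x => star (ψ j x α) * ψ k x α) := by
    intro α
    have h1 : Continuous (fun y => star (ψ j y α) * ψ k y α) :=
      (continuous_star.comp (hc j α)).mul (hc k α)
    exact h1.integrable_of_hasCompactSupport (hs k α).mul_left
  have hsum : (∫ x, star (ψ j x) ⬝ᵥ ψ k x) = ∑ α, ∫ x, star (ψ j x α) * ψ k x α := by
    simp only [dotProduct, Pi.star_apply]
    rw [integral_finsetSum]
    intro α _
    exact hI α
  constructor
  · rw [hsum, Complex.re_sum]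
    apply Finset.sum_congr rfl
    intro α _
    have h1 : (∫ x, star (ψ j x α) * ψ k x α).re = ∫ x, (star (ψ j x α) * ψ k x α).re :=
      (Complex.reCLM.integral_comp_comm (hI α)).symm
    rw [h1, ← integral_add (integrable_mul_cs (hre j α) (hre k α) (hsre j α))
      (integrable_mul_cs (him j α) (him k α) (hsim j α))]
    apply integral_congr_ae
    filter_upwards with x
    simp [Complex.mul_re]
  · rw [hsum, Complex.im_sum]
    apply Finset.sum_congr rfl
    intro α _
    have h1 : (∫ x, star (ψ j x α) * ψ k x α).im = ∫ x, (star (ψ j x α) * ψ k x α).im :=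
      (Complex.imCLM.integral_comp_comm (hI α)).symm
    rw [h1, ← integral_sub (integrable_mul_cs (hre j α) (him k α) (hsre j α))
      (integrable_mul_cs (him j α) (hre k α) (hsim j α))]
    apply integral_congr_ae
    filter_upwards with x
    simp [Complex.mul_im]
    ring

/-- the orthogonality relations of the doubled system -/
lemma dbl_orth (hsm : ∀ n, ContDiff ℝ ∞ (ψ n)) (hcs : ∀ n, HasCompactSupport (ψ n))
    (n : ι → ℝ) (hON : ∀ j k, ∫ x, star (ψ j x) ⬝ᵥ ψ k x = if j = k then (n j : ℂ) else 0)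
    (i i' : ι × Bool) :
    ∑ a, ∫ x, dblΨ ψ i a x * dblΨ ψ i' a x = if i = i' then n i.1 else 0 := by
  obtain ⟨j, s⟩ := i
  obtain ⟨k, t⟩ := i'
  obtain ⟨hR, hI⟩ := dbl_inner hsm hcs j k
  rw [hON] at hR hI
  have hRe : (∑ α, ((∫ x, (ψ j x α).re * (ψ k x α).re) + ∫ x, (ψ j x α).im * (ψ k x α).im)) =
      if j = k then n j else 0 := by
    rw [hR]
    split_ifs <;> simp
  have hIm : (∑ α, ((∫ x, (ψ j x α).re * (ψ k x α).im) - ∫ x, (ψ j x α).im * (ψ k x α).re)) = 0 := by
    rw [hI]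
    split_ifs <;> simp
  rw [Fintype.sum_prod_type]
  simp only [Fintype.sum_bool]
  cases s <;> cases t
  · -- false, false
    simp only [dblΨ, Prod.mk.injEq, and_true]
    rw [← hRe]
    apply Finset.sum_congr rfl
    intro α _
    ring
  · simp only [dblΨ, Prod.mk.injEq, and_false, if_false, reduceCtorEq]
    have e : ∀ α, ((∫ x, (ψ j x α).im * (ψ k x α).re) + ∫ x, (ψ j x α).re * -(ψ k x α).im) =
        -((∫ x, (ψ j x α).re * (ψ k x α).im) - ∫ x, (ψ j x α).im * (ψ k x α).re) := by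
      intro α
      simp only [mul_neg, integral_neg]
      ring
    simp only [e, Finset.sum_neg_distrib, hIm, neg_zero]
  · simp only [dblΨ, Prod.mk.injEq, and_false, if_false, reduceCtorEq]
    have e : ∀ α, ((∫ x, (ψ j x α).re * (ψ k x α).im) + ∫ x, -(ψ j x α).im * (ψ k x α).re) =
        ((∫ x, (ψ j x α).re * (ψ k x α).im) - ∫ x, (ψ j x α).im * (ψ k x α).re) := by
      intro α
      simp only [neg_mul, integral_neg]
      ring
    simp only [e, hIm]
  · simp only [dblΨ, Prod.mk.injEq, and_true]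
    rw [← hRe]
    apply Finset.sum_congr rfl
    intro α _
    simp only [neg_mul_neg]

/-- The extended kinetic inequality from the real matrix inequality for the doubled system. -/
theorem kinetic_ext_of_core {B : ℝ} (n : ι → ℝ)
    (hcore : (π ^ 2 / 4 * ∫ x, trace ((Matrix.of fun i a => dblΨ ψ i a x) * (Matrix.of fun i a => dblΨ ψ i a x)ᵀ *
        ((Matrix.of fun i a => dblΨ ψ i a x) * (Matrix.of fun i a => dblΨ ψ i a x)ᵀ) *
        ((Matrix.of fun i a => dblΨ ψ i a x) * (Matrix.of fun i a => dblΨ ψ i a x)ᵀ))) +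
        (B * ∫ x, trace ((Matrix.of fun i a => dblΨ ψ i a x) * (Matrix.of fun i a => dblΨ ψ i a x)ᵀ *
        ((Matrix.of fun i a => dblΨ ψ i a x) * (Matrix.of fun i a => dblΨ ψ i a x)ᵀ))) ≤
      (∑ i, ∑ a, ∫ x, deriv (dblΨ ψ i a) x ^ 2) + ∑ i : ι × Bool, costB B (n i.1))
    (hsm : ∀ n, ContDiff ℝ ∞ (ψ n)) (hcs : ∀ n, HasCompactSupport (ψ n)) :
    (π ^ 2 / 4 * ∫ x, ((Vale.Agent.P371.rhoM ψ x * Vale.Agent.P371.rhoM ψ x *
        Vale.Agent.P371.rhoM ψ x).trace).re) +
      (B * ∫ x, ((Vale.Agent.P371.rhoM ψ x * Vale.Agent.P371.rhoM ψ x).trace).re) ≤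
      (∑ j, ∑ α, ∫ y, ‖deriv (fun y => ψ j y α) y‖ ^ 2) + ∑ j, costB B (n j) := by
  simp only [Vale.Agent.P371m.dbl_trace, dbl_trace2] at hcore
  rw [integral_const_mul, integral_const_mul, dbl_kinetic hsm hcs, Fintype.sum_prod_type] at hcore
  simp only [Fintype.sum_bool] at hcore
  have h2 : ∑ j, (costB B (n j) + costB B (n j)) = 2 * ∑ j, costB B (n j) := by
    rw [Finset.mul_sum]
    apply Finset.sum_congr rfl
    intro j _
    ring
  rw [h2] at hcore
  linarith

end

open Vale.Agent.P371 in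
/-- E7: the extended kinetic inequality for orthogonal complex families with norms `n j`. -/
theorem kinetic_ext {ι τ : Type*} [Fintype ι] [DecidableEq ι] [Fintype τ] [DecidableEq τ]
    (ψ : ι → ℝ → τ → ℂ)
    (hsm : ∀ j, ContDiff ℝ (⊤ : ℕ∞) (ψ j)) (hcs : ∀ j, HasCompactSupport (ψ j))
    (n : ι → ℝ) (hn0 : ∀ i, 0 ≤ n i) (hn1 : ∀ i, n i < 1)
    (hON : ∀ j k, ∫ x, star (ψ j x) ⬝ᵥ ψ k x = if j = k then (n j : ℂ) else 0)
    {B : ℝ} (hB : 0 < B) :
    π ^ 2 / 4 * (∫ x, ((rhoM ψ x * rhoM ψ x * rhoM ψ x).trace).re)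
      + B * (∫ x, ((rhoM ψ x * rhoM ψ x).trace).re) ≤
      (∑ j, ∑ α, ∫ y, ‖deriv (fun y => ψ j y α) y‖ ^ 2) + ∑ j, costB B (n j) :=
  kinetic_ext_of_core n (core_ext (dblΨ ψ) (dbl_smooth hsm) (dbl_support hcs) (fun i => n i.1)
    (fun i => hn0 i.1) (fun i => hn1 i.1) (dbl_orth hsm hcs n hON) hB) hsm hcs

end Vale.Agent.P371k
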