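import Vale.Agent.P371m.Defs
import Vale.Agent.P371h11.Kernel

/-!
Two parameter Bellman function for the source `(π²/4) ρ³ + B ρ²`:
`Φ(G,R) = tr (R q(L_G) R) + tr (bf(G) R) + tr af(G)`, in polynomial form
`Bp a1 d1 G R + Tp a2 d2 G R + Ap a3 d3 G`.
-/

namespace Vale.Agent.P371k
open Matrix BigOperators Real
open Vale.Agent.P371h8 (dd pev pdd)

variable {ι : Type*} [Fintype ι] [DecidableEq ι]

/-- `tr (G^n R)`. -/
def Tn (G R : Matrix ι ι ℝ) (n : ℕ) : ℝ := trace (G ^ n * R)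

/-- derivative of `Tn` along `Ġ = R`, `Ṙ = D`. -/
def DTn (G R D : Matrix ι ι ℝ) (n : ℕ) : ℝ :=
  trace (G ^ n * D) + ∑ r ∈ Finset.range n, trace (G ^ r * R * G ^ (n - 1 - r) * R)

/-- polynomial combination of `Tn`. -/
def Tp (a : ℕ → ℝ) (d : ℕ) (G R : Matrix ι ι ℝ) : ℝ := ∑ n ∈ Finset.range d, a n * Tn G R n

/-- its derivative. -/
def DTp (a : ℕ → ℝ) (d : ℕ) (G R D : Matrix ι ι ℝ) : ℝ := ∑ n ∈ Finset.range d, a n * DTn G R D n

/-- `tr (G^n)`. -/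
def An (G : Matrix ι ι ℝ) (n : ℕ) : ℝ := trace (G ^ n)

/-- derivative of `An` along `Ġ = R`. -/
def DAn (G R : Matrix ι ι ℝ) (n : ℕ) : ℝ := (n : ℝ) * trace (G ^ (n - 1) * R)

/-- polynomial combination of `An`. -/
def Ap (a : ℕ → ℝ) (d : ℕ) (G : Matrix ι ι ℝ) : ℝ := ∑ n ∈ Finset.range d, a n * An G n

/-- its derivative. -/
def DAp (a : ℕ → ℝ) (d : ℕ) (G R : Matrix ι ι ℝ) : ℝ := ∑ n ∈ Finset.range d, a n * DAn G R n

/-- derivative of the polynomial `pev a d`. -/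
def pdv (a : ℕ → ℝ) (d : ℕ) (z : ℝ) : ℝ := ∑ n ∈ Finset.range d, a n * ((n : ℝ) * z ^ (n - 1))

/-- `bf(g) = (B/π) cot(π g)`. -/
noncomputable def bf (B g : ℝ) : ℝ := B / π * (cos (π * g) / sin (π * g))

/-- `af(g) = (B/π)² (cot(π g)/π + g - 1/2)`, so that `af' = -bf²`. -/
noncomputable def af (B g : ℝ) : ℝ := (B / π) ^ 2 * (cos (π * g) / sin (π * g) / π + g - 1 / 2)

/-- the cost of mass `n`: `(B/π)² ((2/π) tan(π n/2) - n)`. -/
noncomputable def costB (B n : ℝ) : ℝ := (B / π) ^ 2 * (2 / π * tan (π * n / 2) - n)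

/-- optimal mass for the eigenvalue `l`: `(2/π) arctan (π √l / B)`. -/
noncomputable def nB (B l : ℝ) : ℝ := 2 / π * arctan (π * √l / B)

/-- `f_B(l) = sup_n (n l - cost n) = n (l + B²/π²) - 2 B √l/π²`. -/
noncomputable def fB (B l : ℝ) : ℝ := nB B l * (l + B ^ 2 / π ^ 2) - 2 * B * √l / π ^ 2

/-- optimal density for the potential value `w`. -/
noncomputable def rB (B w : ℝ) : ℝ := 2 * w / (2 * B + √(4 * B ^ 2 + 3 * π ^ 2 * w))

/-- `U_B(w) = sup_r (w r - (π²/4) r³ - B r²)`. -/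
noncomputable def UB (B w : ℝ) : ℝ :=
  w * rB B w - π ^ 2 / 4 * rB B w ^ 3 - B * rB B w ^ 2

/-- the final constant, closed form. -/
noncomputable def KK (γ : ℝ) : ℝ :=
  2 * γ / (√3 * (2 * γ + 1)) * (3 / 16) ^ (γ - 1) *
    (Gamma (2 * γ - 1) / (Gamma (γ - 1 / 2) * Gamma (γ + 1 / 2)))

end Vale.Agent.P371k
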