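import Vale.Agent.P371k.FinalCore
import Vale.Agent.P371k.Complex
import Vale.Agent.P371k.Closed

/-!
E10: the theorem `final_gamma`.
-/

set_option linter.unusedSectionVars false
set_option linter.unusedSimpArgs false
set_option linter.unusedVariables false

namespace Vale.Agent.P371k
open Matrix MeasureTheory Set
open scoped Real ContDiff ComplexOrder
open Vale.Agent.P371

/-- **Lieb-Thirring bound for `1 < γ < 3/2`**, all matrix sizes, with the constant `KK γ`. -/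
theorem final_gamma {γ : ℝ} (h1 : 1 < γ) (h2 : γ < 3 / 2)
    (m n : ℕ) (W : ℝ → Matrix (Fin m) (Fin m) ℂ)
    (hWm : ∀ i j, Measurable fun x => W x i j)
    (hWpsd : ∀ x, (W x).PosSemidef)
    (hint : Integrable fun x => ∑ α, ((hWpsd x).1.eigenvalues α) ^ (γ + 1 / 2))
    (ψ : Fin n → ℝ → Fin m → ℂ)
    (hsm : ∀ j, ContDiff ℝ (⊤ : ℕ∞) (ψ j))
    (hcs : ∀ j, HasCompactSupport (ψ j))
    (hON : ∀ j k, ∫ x, star (ψ j x) ⬝ᵥ ψ k x = if j = k then 1 else 0)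
    (Q : Matrix (Fin n) (Fin n) ℂ)
    (hQ : ∀ j k, Q j k = (∫ x, star (deriv (ψ j) x) ⬝ᵥ deriv (ψ k) x) -
      ∫ x, star (ψ j x) ⬝ᵥ (W x *ᵥ ψ k x)) :
    ∃ hQH : Q.IsHermitian, ∑ j, (max (-hQH.eigenvalues j) 0) ^ γ ≤
      KK γ * ∫ x, ∑ α, ((hWpsd x).1.eigenvalues α) ^ (γ + 1 / 2) := by
  have hpi := Real.pi_pos
  have hcos : 0 < Real.cos (π * (γ - 1)) := by
    apply Real.cos_pos_of_mem_Ioo
    constructor <;> nlinarith
  have hC : 0 < π ^ (2 * γ - 2) / (γ * (2 * γ - 2) * Real.cos (π * (γ - 1))) := by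
    have h3 : 0 < 2 * γ - 2 := by linarith
    have h4 : 0 < γ := by linarith
    exact div_pos (Real.rpow_pos_of_pos hpi _) (mul_pos (mul_pos h4 h3) hcos)
  exact final_core (C := π ^ (2 * γ - 2) / (γ * (2 * γ - 2) * Real.cos (π * (γ - 1)))) (K := KK γ)
    h1 hWm hWpsd hint hsm hcs hON hQ
    (fun {ι} _ _ ψ hsm hcs n hn0 hn1 hON {B} hB => kinetic_ext ψ hsm hcs n hn0 hn1 hON hB) hC
    (fun l hl => integrableOn_fB h1 h2 hl) (fun l hl => mellin_fB h1 h2 hl)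
    (fun w hw => integrableOn_UB h1 h2 hw) (fun w hw => mellin_UB h1 h2 hw)

end Vale.Agent.P371k
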