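import Vale.Agent.P371k.Defs

/-! E8a: scalar facts about `nB`, `fB`, `rB`, `UB`. -/

namespace Vale.Agent.P371k
open Real

theorem nB_mem {B l : ℝ} (hB : 0 < B) (hl : 0 ≤ l) : 0 ≤ nB B l ∧ nB B l < 1 := by
  have hpi := pi_pos
  have h0 : 0 ≤ π * √l / B := by positivity
  unfold nB
  constructor
  · have : 0 ≤ arctan (π * √l / B) := arctan_nonneg.mpr h0
    positivity
  · have := arctan_lt_pi_div_two (π * √l / B)
    rw [div_mul_eq_mul_div, div_lt_one hpi]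
    linarith

theorem fB_eq {B l : ℝ} (hB : 0 < B) (_hl : 0 ≤ l) :
    fB B l = nB B l * l - costB B (nB B l) := by
  have hpi := pi_pos
  have htan : tan (π * nB B l / 2) = π * √l / B := by
    have : π * nB B l / 2 = arctan (π * √l / B) := by
      unfold nB; field_simp
    rw [this, tan_arctan]
  unfold fB costB
  rw [htan]
  field_simp
  ring

lemma rB_nonneg {B w : ℝ} (hB : 0 < B) (hw : 0 ≤ w) : 0 ≤ rB B w := by
  unfold rB
  have : 0 ≤ √(4 * B ^ 2 + 3 * π ^ 2 * w) := sqrt_nonneg _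
  positivity

/-- the critical point equation. -/
lemma rB_crit {B w : ℝ} (hB : 0 < B) (hw : 0 ≤ w) :
    w - 3 * π ^ 2 / 4 * rB B w ^ 2 - 2 * B * rB B w = 0 := by
  have hpi := pi_pos
  set S := √(4 * B ^ 2 + 3 * π ^ 2 * w) with hS
  have hS0 : 0 ≤ S := sqrt_nonneg _
  have hS2 : S ^ 2 = 4 * B ^ 2 + 3 * π ^ 2 * w := sq_sqrt (by positivity)
  have hden : 0 < 2 * B + S := by positivity
  unfold rB
  rw [← hS]
  field_simp
  nlinarith [hS2]

theorem le_UB {B w r : ℝ} (hB : 0 < B) (hw : 0 ≤ w) (hr : 0 ≤ r) :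
    w * r - π ^ 2 / 4 * r ^ 3 - B * r ^ 2 ≤ UB B w := by
  have hpi := pi_pos
  have h0 := rB_nonneg hB hw
  have hc := rB_crit hB hw
  unfold UB
  set s := rB B w with hs
  -- concavity: f s - f r = (s - r)^2 [ (π²/4)(2 s + r) + B ]
  have key : (w * s - π ^ 2 / 4 * s ^ 3 - B * s ^ 2) - (w * r - π ^ 2 / 4 * r ^ 3 - B * r ^ 2) =
      (s - r) ^ 2 * (π ^ 2 / 4 * (2 * s + r) + B) := by
    have hw' : w = 3 * π ^ 2 / 4 * s ^ 2 + 2 * B * s := by linarith
    rw [hw']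
    ring
  have : 0 ≤ (s - r) ^ 2 * (π ^ 2 / 4 * (2 * s + r) + B) := by positivity
  linarith

/-- closed form of `UB` on the critical curve. -/
lemma UB_eq {B w : ℝ} (hB : 0 < B) (hw : 0 ≤ w) :
    UB B w = rB B w / 2 * (w + π ^ 2 / 4 * rB B w ^ 2) := by
  have hc := rB_crit hB hw
  unfold UB
  have : B * rB B w = (w - 3 * π ^ 2 / 4 * rB B w ^ 2) / 2 := by linarith
  have h2 : B * rB B w ^ 2 = (w - 3 * π ^ 2 / 4 * rB B w ^ 2) / 2 * rB B w := by
    rw [← this]; ring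
  rw [h2]; ring

end Vale.Agent.P371k
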