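import Vale.Agent.Lib.P371.Kin6
import Vale.Agent.P371k.Scalar

/-!
E10, abstract core: from the kinetic inequality with the extra term `B ρ²` (for all `B > 0`) and
the two Mellin transforms, to the eigenvalue sum.
-/

set_option linter.unusedSectionVars false
set_option linter.unusedSimpArgs false
set_option linter.unusedVariables false

open Matrix MeasureTheory Set Filter Topology
open scoped Real ContDiff ComplexOrder

namespace Vale.Agent.P371k

open Vale.Agent.P371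

section pointwise

variable {τ : Type*} [Fintype τ] [DecidableEq τ]

/-- The trace of the square in terms of the eigenvalues. -/
lemma trace_sq_eig {Q : Matrix τ τ ℂ} (hQ : Q.IsHermitian) :
    ((Q * Q).trace).re = ∑ a, (hQ.eigenvalues a) ^ 2 := by
  set U : Matrix τ τ ℂ := (hQ.eigenvectorUnitary : Matrix τ τ ℂ) with hU
  set D : Matrix τ τ ℂ := diagonal (fun i => ((hQ.eigenvalues i : ℝ) : ℂ)) with hD
  have hQe : Q = U * D * star U := by
    conv_lhs => rw [← fc_eigenvalues hQ]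
    rfl
  have hSU : star U * U = 1 := unitary_star_mul hQ
  have h1 : Q * Q = U * (D * D) * star U := by
    rw [hQe]
    calc U * D * star U * (U * D * star U)
        = U * D * (star U * U) * D * star U := by
          simp only [Matrix.mul_assoc]
      _ = _ := by
          rw [hSU]
          simp only [Matrix.mul_one, Matrix.mul_assoc]
  rw [h1, Matrix.trace_mul_comm, ← Matrix.mul_assoc, hSU, Matrix.one_mul]
  simp only [hD, Matrix.diagonal_mul_diagonal, Matrix.trace_diagonal]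
  rw [Complex.re_sum]
  refine Finset.sum_congr rfl (fun a _ => ?_)
  have : ((hQ.eigenvalues a : ℂ)) * (hQ.eigenvalues a : ℂ) =
      (((hQ.eigenvalues a) ^ 2 : ℝ) : ℂ) := by
    push_cast
    ring
  rw [this, Complex.ofReal_re]

/-- Pointwise bound of the energy density by the Legendre transform `UB`. -/
lemma energy_le_UB {ι : Type*} [Fintype ι] [DecidableEq ι] (φ : ι → ℝ → τ → ℂ) (x : ℝ)
    {A : Matrix τ τ ℂ} (hA : A.PosSemidef) {B : ℝ} (hB : 0 < B) :
    (∑ j, star (φ j x) ⬝ᵥ (A *ᵥ φ j x)).re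
        - π ^ 2 / 4 * ((rhoM φ x * rhoM φ x * rhoM φ x).trace).re
        - B * ((rhoM φ x * rhoM φ x).trace).re ≤
      ∑ α, UB B (hA.1.eigenvalues α) := by
  set V : Matrix τ τ ℂ := ((rhoM_herm φ x).eigenvectorUnitary : Matrix τ τ ℂ) with hV
  have hVS : V * star V = 1 := unitary_mul_star (rhoM_herm φ x)
  have hSV : star V * V = 1 := unitary_star_mul (rhoM_herm φ x)
  set U : Matrix τ τ ℂ := (hA.1.eigenvectorUnitary : Matrix τ τ ℂ) with hU
  have hUS : U * star U = 1 := unitary_mul_star hA.1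
  have hSU : star U * U = 1 := unitary_star_mul hA.1
  set T := star U * V with hT
  have hT1 : star T * T = 1 := by
    rw [hT, star_mul, star_star]
    calc star V * U * (star U * V) = star V * (U * star U) * V := by
          simp only [Matrix.mul_assoc]
      _ = 1 := by rw [hUS, Matrix.mul_one, hSV]
  have hT2 : T * star T = 1 := by
    rw [hT, star_mul, star_star]
    calc star U * V * (star V * U) = star U * (V * star V) * U := by
          simp only [Matrix.mul_assoc]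
      _ = 1 := by rw [hVS, Matrix.mul_one, hSU]
  obtain ⟨hcol, hrow⟩ := unitary_col_row hT1 hT2
  set r : τ → ℝ := fun a => (rhoM_herm φ x).eigenvalues a with hr
  have hr0 : ∀ a, 0 ≤ r a := fun a => rhoM_eig_nonneg φ x a
  have hw0 : ∀ α, 0 ≤ hA.1.eigenvalues α := fun α => hA.eigenvalues_nonneg α
  have h1 : (∑ j, star (φ j x) ⬝ᵥ (A *ᵥ φ j x)).re =
      ∑ a, r a * ∑ α, ‖T α a‖ ^ 2 * hA.1.eigenvalues α := by
    rw [trace_rho_quad, Complex.re_sum]
    refine Finset.sum_congr rfl (fun a _ => ?_)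
    rw [Complex.re_ofReal_mul]
    have := quad_weights hA (V := V) a
    rw [← hU] at this
    rw [this]
  rw [h1, trace_cube (rhoM_herm φ x), trace_sq_eig (rhoM_herm φ x), Finset.mul_sum, Finset.mul_sum,
    ← Finset.sum_sub_distrib, ← Finset.sum_sub_distrib]
  have hone : ∀ a, r a * ∑ α, ‖T α a‖ ^ 2 * hA.1.eigenvalues α
      - π ^ 2 / 4 * (rhoM_herm φ x).eigenvalues a ^ 3 - B * (rhoM_herm φ x).eigenvalues a ^ 2 ≤
      ∑ α, ‖T α a‖ ^ 2 * UB B (hA.1.eigenvalues α) := by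
    intro a
    have e : r a * ∑ α, ‖T α a‖ ^ 2 * hA.1.eigenvalues α
        - π ^ 2 / 4 * (rhoM_herm φ x).eigenvalues a ^ 3 - B * (rhoM_herm φ x).eigenvalues a ^ 2 =
        ∑ α, ‖T α a‖ ^ 2 * (hA.1.eigenvalues α * r a - π ^ 2 / 4 * r a ^ 3 - B * r a ^ 2) := by
      have e2 : ∀ α, ‖T α a‖ ^ 2 * (hA.1.eigenvalues α * r a - π ^ 2 / 4 * r a ^ 3 - B * r a ^ 2) =
          r a * (‖T α a‖ ^ 2 * hA.1.eigenvalues α) - ‖T α a‖ ^ 2 * (π ^ 2 / 4 * r a ^ 3)
            - ‖T α a‖ ^ 2 * (B * r a ^ 2) := fun α => by ring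
      simp only [e2, Finset.sum_sub_distrib, ← Finset.mul_sum, ← Finset.sum_mul, hcol a, one_mul]
      rfl
    rw [e]
    exact Finset.sum_le_sum (fun α _ => mul_le_mul_of_nonneg_left
      (le_UB hB (hw0 α) (hr0 a)) (by positivity))
  calc _ ≤ ∑ a, ∑ α, ‖T α a‖ ^ 2 * UB B (hA.1.eigenvalues α) :=
        Finset.sum_le_sum (fun a _ => hone a)
    _ = ∑ α, ∑ a, ‖T α a‖ ^ 2 * UB B (hA.1.eigenvalues α) := Finset.sum_comm
    _ = _ := by
        refine Finset.sum_congr rfl (fun α _ => ?_)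
        rw [← Finset.sum_mul, hrow α, one_mul]

end pointwise

section separate

variable {τ ι : Type*} [Fintype τ] [DecidableEq τ] [Fintype ι] [DecidableEq ι]

/-- rank one matrix of a column. -/
noncomputable def Aj (φ : ι → ℝ → τ → ℂ) (j : ι) (x : ℝ) : Matrix τ τ ℂ :=
  Matrix.of fun α β => φ j x α * star (φ j x β)

/-- scaled family. -/
noncomputable def scl (s : ι → ℝ) (φ : ι → ℝ → τ → ℂ) : ι → ℝ → τ → ℂ :=
  fun j y α => ((√(s j) : ℝ) : ℂ) * φ j y α

lemma rhoM_scl (s : ι → ℝ) (hs : ∀ j, 0 ≤ s j) (φ : ι → ℝ → τ → ℂ) (x : ℝ) :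
    rhoM (scl s φ) x = ∑ j, ((s j : ℝ) : ℂ) • Aj φ j x := by
  ext α β
  simp only [rhoM, scl, Aj, Matrix.of_apply, Matrix.sum_apply, Matrix.smul_apply, smul_eq_mul]
  refine Finset.sum_congr rfl (fun j _ => ?_)
  have h : ((s j : ℝ) : ℂ) = ((√(s j) : ℝ) : ℂ) * ((√(s j) : ℝ) : ℂ) := by
    rw [← Complex.ofReal_mul, Real.mul_self_sqrt (hs j)]
  rw [h, star_mul', Complex.star_def, Complex.conj_ofReal]
  ring

lemma tr3_sep (a : ι → ℝ) (A : ι → Matrix τ τ ℂ) :
    (((∑ j, ((a j : ℝ) : ℂ) • A j) * (∑ j, ((a j : ℝ) : ℂ) • A j) *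
        (∑ j, ((a j : ℝ) : ℂ) • A j)).trace).re =
      ∑ i, ∑ j, ∑ k, a i * a j * a k * ((A i * A j * A k).trace).re := by
  have e : (∑ j, ((a j : ℝ) : ℂ) • A j) * (∑ j, ((a j : ℝ) : ℂ) • A j) *
      (∑ j, ((a j : ℝ) : ℂ) • A j) =
      ∑ i, ∑ j, ∑ k, (((a i : ℝ) : ℂ) • A i) * (((a j : ℝ) : ℂ) • A j) * (((a k : ℝ) : ℂ) • A k) := by
    rw [Finset.sum_mul_sum, Finset.sum_mul]
    refine Finset.sum_congr rfl (fun i _ => ?_)
    rw [Finset.sum_mul]
    refine Finset.sum_congr rfl (fun j _ => ?_)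
    rw [Finset.mul_sum]
  rw [e]
  simp only [Matrix.trace_sum, Complex.re_sum, Matrix.smul_mul,
    Matrix.mul_smul, Matrix.trace_smul, smul_eq_mul, Complex.re_ofReal_mul]
  refine Finset.sum_congr rfl (fun i _ => Finset.sum_congr rfl (fun j _ =>
    Finset.sum_congr rfl (fun k _ => ?_)))
  ring

lemma tr2_sep (a : ι → ℝ) (A : ι → Matrix τ τ ℂ) :
    (((∑ j, ((a j : ℝ) : ℂ) • A j) * (∑ j, ((a j : ℝ) : ℂ) • A j)).trace).re =
      ∑ i, ∑ j, a i * a j * ((A i * A j).trace).re := by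
  rw [Finset.sum_mul_sum]
  simp only [Matrix.trace_sum, Complex.re_sum, Matrix.smul_mul,
    Matrix.mul_smul, Matrix.trace_smul, smul_eq_mul, Complex.re_ofReal_mul]
  refine Finset.sum_congr rfl (fun i _ => Finset.sum_congr rfl (fun j _ => ?_))
  ring

lemma pot_sep (s : ι → ℝ) (hs : ∀ j, 0 ≤ s j) (φ : ι → ℝ → τ → ℂ) (x : ℝ) (W : Matrix τ τ ℂ) :
    (∑ j, star (scl s φ j x) ⬝ᵥ (W *ᵥ scl s φ j x)).re =
      ∑ j, s j * (star (φ j x) ⬝ᵥ (W *ᵥ φ j x)).re := by
  rw [Complex.re_sum]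
  refine Finset.sum_congr rfl (fun j _ => ?_)
  have e : scl s φ j x = ((√(s j) : ℝ) : ℂ) • φ j x := by
    ext α
    simp [scl]
  rw [e, star_smul, Matrix.mulVec_smul, smul_dotProduct, dotProduct_smul, smul_eq_mul, smul_eq_mul]
  have h : star ((√(s j) : ℝ) : ℂ) * (((√(s j) : ℝ) : ℂ) * (star (φ j x) ⬝ᵥ (W *ᵥ φ j x))) =
      ((s j : ℝ) : ℂ) * (star (φ j x) ⬝ᵥ (W *ᵥ φ j x)) := by
    rw [Complex.star_def, Complex.conj_ofReal, ← mul_assoc, ← Complex.ofReal_mul,
      Real.mul_self_sqrt (hs j)]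
  rw [h, Complex.re_ofReal_mul]

end separate

/-- finite sums of separated products: Fubini by linearity. -/
lemma sep_swap {T : Type*} [Fintype T] {S : Set ℝ} (c : T → ℝ → ℝ) (hc : ∀ t, IntegrableOn (c t) S)
    (d : T → ℝ → ℝ) (hd : ∀ t, Integrable (d t)) :
    Integrable (fun x => ∑ t, (∫ B in S, c t B) * d t x) ∧
    (∫ B in S, ∑ t, c t B * ∫ x, d t x) = (∫ x, ∑ t, (∫ B in S, c t B) * d t x) ∧
    (∀ x, (∫ B in S, ∑ t, c t B * d t x) = ∑ t, (∫ B in S, c t B) * d t x) ∧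
    (∀ x, IntegrableOn (fun B => ∑ t, c t B * d t x) S) ∧
    IntegrableOn (fun B => ∑ t, c t B * ∫ x, d t x) S := by
  refine ⟨integrable_finsetSum _ (fun t _ => (hd t).const_mul _), ?_, ?_, ?_, ?_⟩
  · rw [integral_finsetSum _ (fun t _ => (hc t).mul_const _),
      integral_finsetSum _ (fun t _ => (hd t).const_mul _)]
    refine Finset.sum_congr rfl (fun t _ => ?_)
    rw [integral_mul_const, integral_const_mul]
  · intro x
    rw [integral_finsetSum _ (fun t _ => (hc t).mul_const _)]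
    simp only [integral_mul_const]
  · intro x
    exact integrable_finsetSum _ (fun t _ => (hc t).mul_const _)
  · exact integrable_finsetSum _ (fun t _ => (hc t).mul_const _)

/-- coefficients in the variable `B`. -/
noncomputable def cT {I : Type*} (μ : ℝ → ℝ) (n : ℝ → I → ℝ) : I ⊕ ((I × I × I) ⊕ (I × I)) → ℝ → ℝ
  | Sum.inl j, B => μ B * n B j
  | Sum.inr (Sum.inl p), B => -(π ^ 2 / 4) * μ B * (n B p.1 * n B p.2.1 * n B p.2.2)
  | Sum.inr (Sum.inr p), B => -(μ B * B * (n B p.1 * n B p.2))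

/-- coefficients in the other variable. -/
noncomputable def dT {I : Type*} (D1 : I → ℝ) (D3 : I → I → I → ℝ) (D2 : I → I → ℝ) :
    I ⊕ ((I × I × I) ⊕ (I × I)) → ℝ
  | Sum.inl j => D1 j
  | Sum.inr (Sum.inl p) => D3 p.1 p.2.1 p.2.2
  | Sum.inr (Sum.inr p) => D2 p.1 p.2

lemma sum_T {I : Type*} [Fintype I] (μ : ℝ → ℝ) (n : ℝ → I → ℝ) (D1 : I → ℝ) (D3 : I → I → I → ℝ)
    (D2 : I → I → ℝ) (B : ℝ) :
    ∑ t, cT μ n t B * dT D1 D3 D2 t =
      μ B * (∑ j, n B j * D1 j - π ^ 2 / 4 * ∑ i, ∑ j, ∑ k, n B i * n B j * n B k * D3 i j k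
        - B * ∑ i, ∑ j, n B i * n B j * D2 i j) := by
  simp only [Fintype.sum_sum_type, Fintype.sum_prod_type, cT, dT]
  have h1 : ∑ x, μ B * n B x * D1 x = μ B * ∑ j, n B j * D1 j := by
    rw [Finset.mul_sum]
    exact Finset.sum_congr rfl (fun j _ => by ring)
  have h2 : ∑ x, ∑ x_1, ∑ x_2, -(π ^ 2 / 4) * μ B * (n B x * n B x_1 * n B x_2) * D3 x x_1 x_2 =
      -(π ^ 2 / 4) * μ B * ∑ i, ∑ j, ∑ k, n B i * n B j * n B k * D3 i j k := by
    simp only [Finset.mul_sum]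
    exact Finset.sum_congr rfl (fun i _ => Finset.sum_congr rfl (fun j _ =>
      Finset.sum_congr rfl (fun k _ => by ring)))
  have h3 : ∑ x, ∑ x_1, -(μ B * B * (n B x * n B x_1)) * D2 x x_1 =
      -(μ B * B) * ∑ i, ∑ j, n B i * n B j * D2 i j := by
    simp only [Finset.mul_sum]
    exact Finset.sum_congr rfl (fun i _ => Finset.sum_congr rfl (fun j _ => by ring))
  rw [h1, h2, h3]
  ring

section family

variable {m : ℕ} {W : ℝ → Matrix (Fin m) (Fin m) ℂ} (hWpsd : ∀ x, (W x).PosSemidef)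
  {I : Type} [Fintype I] [DecidableEq I] {φ : I → ℝ → Fin m → ℂ}

/-- matrix entry of `Aj` is continuous -/
lemma Aj_cont (hφsm : ∀ j, ContDiff ℝ ∞ (φ j)) (j : I) : Continuous (fun x => Aj φ j x) := by
  refine continuous_matrix (fun α β => ?_)
  have hc : ∀ α, Continuous (fun y => φ j y α) :=
    fun α => (continuous_apply α).comp (hφsm j).continuous
  simp only [Aj, Matrix.of_apply]
  exact (hc α).mul (continuous_star.comp (hc β))

lemma t3_integrable (hφsm : ∀ j, ContDiff ℝ ∞ (φ j)) (hφcs : ∀ j, HasCompactSupport (φ j))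
    (i j k : I) : Integrable (fun x => ((Aj φ i x * Aj φ j x * Aj φ k x).trace).re) := by
  have hcont : Continuous (fun x => ((Aj φ i x * Aj φ j x * Aj φ k x).trace).re) :=
    Complex.continuous_re.comp ((((Aj_cont hφsm i).matrix_mul (Aj_cont hφsm j)).matrix_mul
      (Aj_cont hφsm k)).matrix_trace)
  refine hcont.integrable_of_hasCompactSupport (HasCompactSupport.intro (hφcs i) (fun x hx => ?_))
  have h0 : φ i x = 0 := image_eq_zero_of_notMem_tsupport hx
  have h1 : Aj φ i x = 0 := by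
    ext α β
    simp [Aj, h0]
  simp [h1]

lemma t2_integrable (hφsm : ∀ j, ContDiff ℝ ∞ (φ j)) (hφcs : ∀ j, HasCompactSupport (φ j))
    (i j : I) : Integrable (fun x => ((Aj φ i x * Aj φ j x).trace).re) := by
  have hcont : Continuous (fun x => ((Aj φ i x * Aj φ j x).trace).re) :=
    Complex.continuous_re.comp (((Aj_cont hφsm i).matrix_mul (Aj_cont hφsm j)).matrix_trace)
  refine hcont.integrable_of_hasCompactSupport (HasCompactSupport.intro (hφcs i) (fun x hx => ?_))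
  have h0 : φ i x = 0 := image_eq_zero_of_notMem_tsupport hx
  have h1 : Aj φ i x = 0 := by
    ext α β
    simp [Aj, h0]
  simp [h1]

/-- pointwise energy bound in separated form. -/
lemma energy_sep (n : I → ℝ) (hn : ∀ j, 0 ≤ n j) (x : ℝ) {B : ℝ} (hB : 0 < B) :
    ∑ j, n j * (star (φ j x) ⬝ᵥ (W x *ᵥ φ j x)).re
      - π ^ 2 / 4 * ∑ i, ∑ j, ∑ k, n i * n j * n k * ((Aj φ i x * Aj φ j x * Aj φ k x).trace).re
      - B * ∑ i, ∑ j, n i * n j * ((Aj φ i x * Aj φ j x).trace).re ≤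
      ∑ α, UB B ((hWpsd x).1.eigenvalues α) := by
  have h := energy_le_UB (scl n φ) x (hWpsd x) hB
  rw [pot_sep n hn φ x (W x), rhoM_scl n hn φ x, tr3_sep, tr2_sep] at h
  exact h

/-- scaled family: smooth. -/
lemma scl_smooth (hφsm : ∀ j, ContDiff ℝ ∞ (φ j)) (n : I → ℝ) (j : I) :
    ContDiff ℝ ∞ (scl n φ j) :=
  contDiff_pi.mpr (fun α => contDiff_const.mul (contDiff_pi.mp (hφsm j) α))

/-- scaled family: compact support. -/
lemma scl_cs (hφcs : ∀ j, HasCompactSupport (φ j)) (n : I → ℝ) (j : I) :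
    HasCompactSupport (scl n φ j) := by
  refine HasCompactSupport.intro (hφcs j) (fun x hx => ?_)
  have h0 : φ j x = 0 := image_eq_zero_of_notMem_tsupport hx
  ext α
  simp [scl, h0]

/-- scaled family: orthogonality. -/
lemma scl_on (hφON : ∀ i j, ∫ x, star (φ i x) ⬝ᵥ φ j x = if i = j then 1 else 0)
    (n : I → ℝ) (hn : ∀ j, 0 ≤ n j) (i j : I) :
    ∫ x, star (scl n φ i x) ⬝ᵥ scl n φ j x = if i = j then ((n i : ℝ) : ℂ) else 0 := by
  have e : ∀ x, star (scl n φ i x) ⬝ᵥ scl n φ j x =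
      ((√(n i) * √(n j) : ℝ) : ℂ) * (star (φ i x) ⬝ᵥ φ j x) := by
    intro x
    have e1 : ∀ k, scl n φ k x = ((√(n k) : ℝ) : ℂ) • φ k x := by
      intro k
      ext α
      simp [scl]
    rw [e1, e1, star_smul, smul_dotProduct, dotProduct_smul, smul_eq_mul, smul_eq_mul,
      Complex.star_def, Complex.conj_ofReal]
    push_cast
    ring
  simp only [e]
  rw [integral_const_mul, hφON]
  split_ifs with h
  · subst h
    rw [mul_one, Real.mul_self_sqrt (hn i)]
  · simp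

/-- scaled family: kinetic energy. -/
lemma scl_kin (n : I → ℝ) (hn : ∀ j, 0 ≤ n j) (j : I) :
    ∑ α, ∫ y, ‖deriv (fun y => scl n φ j y α) y‖ ^ 2 =
      n j * ∑ α, ∫ y, ‖deriv (fun y => φ j y α) y‖ ^ 2 := by
  rw [Finset.mul_sum]
  refine Finset.sum_congr rfl (fun α _ => ?_)
  rw [← integral_const_mul]
  refine integral_congr_ae (Eventually.of_forall (fun y => ?_))
  simp only [scl]
  rw [deriv_const_mul_field, norm_mul, mul_pow, Complex.norm_real, Real.norm_eq_abs, sq_abs,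
    Real.sq_sqrt (hn j)]

/-- **The inequality for fixed `B`.** -/
lemma one_B (hφsm : ∀ j, ContDiff ℝ ∞ (φ j)) (hφcs : ∀ j, HasCompactSupport (φ j))
    (hφON : ∀ i j, ∫ x, star (φ i x) ⬝ᵥ φ j x = if i = j then 1 else 0)
    (ℓ : I → ℝ) (hℓ0 : ∀ j, 0 ≤ ℓ j)
    (hℓ : ∀ j, ℓ j = (∫ x, (star (φ j x) ⬝ᵥ (W x *ᵥ φ j x)).re) -
      ∑ α, ∫ y, ‖deriv (fun y => φ j y α) y‖ ^ 2)
    (hkin : ∀ (ψ : I → ℝ → Fin m → ℂ),
      (∀ j, ContDiff ℝ ∞ (ψ j)) → (∀ j, HasCompactSupport (ψ j)) →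
      ∀ (n : I → ℝ), (∀ i, 0 ≤ n i) → (∀ i, n i < 1) →
      (∀ j k, ∫ x, star (ψ j x) ⬝ᵥ ψ k x = if j = k then ((n j : ℝ) : ℂ) else 0) →
      ∀ {B : ℝ}, 0 < B →
      π ^ 2 / 4 * (∫ x, ((rhoM ψ x * rhoM ψ x * rhoM ψ x).trace).re)
        + B * (∫ x, ((rhoM ψ x * rhoM ψ x).trace).re) ≤
        (∑ j, ∑ α, ∫ y, ‖deriv (fun y => ψ j y α) y‖ ^ 2) + ∑ j, costB B (n j))
    {B : ℝ} (hB : 0 < B) :
    ∑ j, fB B (ℓ j) ≤
      ∑ j, nB B (ℓ j) * (∫ x, (star (φ j x) ⬝ᵥ (W x *ᵥ φ j x)).re)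
      - π ^ 2 / 4 * ∑ i, ∑ j, ∑ k, nB B (ℓ i) * nB B (ℓ j) * nB B (ℓ k) *
          (∫ x, ((Aj φ i x * Aj φ j x * Aj φ k x).trace).re)
      - B * ∑ i, ∑ j, nB B (ℓ i) * nB B (ℓ j) * (∫ x, ((Aj φ i x * Aj φ j x).trace).re) := by
  set n : I → ℝ := fun j => nB B (ℓ j) with hn
  have hn0 : ∀ j, 0 ≤ n j := fun j => (nB_mem hB (hℓ0 j)).1
  have hn1 : ∀ j, n j < 1 := fun j => (nB_mem hB (hℓ0 j)).2
  have hk := hkin (scl n φ) (scl_smooth hφsm n) (scl_cs hφcs n) n hn0 hn1 (scl_on hφON n hn0) hB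
  have e3 : ∫ x, ((rhoM (scl n φ) x * rhoM (scl n φ) x * rhoM (scl n φ) x).trace).re =
      ∑ i, ∑ j, ∑ k, n i * n j * n k * (∫ x, ((Aj φ i x * Aj φ j x * Aj φ k x).trace).re) := by
    simp only [rhoM_scl n hn0 φ, tr3_sep]
    have hi := t3_integrable hφsm hφcs
    rw [integral_finsetSum _ (fun i _ => integrable_finsetSum _ (fun j _ =>
      integrable_finsetSum _ (fun k _ => (hi i j k).const_mul _)))]
    refine Finset.sum_congr rfl (fun i _ => ?_)
    rw [integral_finsetSum _ (fun j _ => integrable_finsetSum _ (fun k _ => (hi i j k).const_mul _))]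
    refine Finset.sum_congr rfl (fun j _ => ?_)
    rw [integral_finsetSum _ (fun k _ => (hi i j k).const_mul _)]
    refine Finset.sum_congr rfl (fun k _ => ?_)
    rw [integral_const_mul]
  have e2 : ∫ x, ((rhoM (scl n φ) x * rhoM (scl n φ) x).trace).re =
      ∑ i, ∑ j, n i * n j * (∫ x, ((Aj φ i x * Aj φ j x).trace).re) := by
    simp only [rhoM_scl n hn0 φ, tr2_sep]
    have hi := t2_integrable hφsm hφcs
    rw [integral_finsetSum _ (fun i _ => integrable_finsetSum _ (fun j _ => (hi i j).const_mul _))]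
    refine Finset.sum_congr rfl (fun i _ => ?_)
    rw [integral_finsetSum _ (fun j _ => (hi i j).const_mul _)]
    refine Finset.sum_congr rfl (fun j _ => ?_)
    rw [integral_const_mul]
  rw [e3, e2] at hk
  simp only [scl_kin n hn0] at hk
  have hf : ∀ j, fB B (ℓ j) = n j * (∫ x, (star (φ j x) ⬝ᵥ (W x *ᵥ φ j x)).re)
      - n j * (∑ α, ∫ y, ‖deriv (fun y => φ j y α) y‖ ^ 2) - costB B (n j) := by
    intro j
    rw [fB_eq hB (hℓ0 j), ← mul_sub, ← hℓ j]
  simp only [hf, Finset.sum_sub_distrib]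
  linarith

lemma nB_contOn {S : Set ℝ} (hS : S ⊆ Ioi 0) (l : ℝ) : ContinuousOn (fun B => nB B l) S := by
  unfold nB
  refine continuousOn_const.mul (Real.continuous_arctan.comp_continuousOn ?_)
  exact continuousOn_const.div continuousOn_id (fun B hB => (ne_of_gt (hS hB)))

/-- **The bound on a compact range of `B`.** -/
lemma cutoff_bound {γ p : ℝ}
    (hint : Integrable fun x => ∑ α, ((hWpsd x).1.eigenvalues α) ^ p)
    (hφsm : ∀ j, ContDiff ℝ ∞ (φ j)) (hφcs : ∀ j, HasCompactSupport (φ j))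
    (hφON : ∀ i j, ∫ x, star (φ i x) ⬝ᵥ φ j x = if i = j then 1 else 0)
    (hpot : ∀ j, Integrable (fun x => (star (φ j x) ⬝ᵥ (W x *ᵥ φ j x)).re))
    (ℓ : I → ℝ) (hℓ0 : ∀ j, 0 ≤ ℓ j)
    (hℓ : ∀ j, ℓ j = (∫ x, (star (φ j x) ⬝ᵥ (W x *ᵥ φ j x)).re) -
      ∑ α, ∫ y, ‖deriv (fun y => φ j y α) y‖ ^ 2)
    (hkin : ∀ (ψ : I → ℝ → Fin m → ℂ),
      (∀ j, ContDiff ℝ ∞ (ψ j)) → (∀ j, HasCompactSupport (ψ j)) →
      ∀ (n : I → ℝ), (∀ i, 0 ≤ n i) → (∀ i, n i < 1) →
      (∀ j k, ∫ x, star (ψ j x) ⬝ᵥ ψ k x = if j = k then ((n j : ℝ) : ℂ) else 0) →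
      ∀ {B : ℝ}, 0 < B →
      π ^ 2 / 4 * (∫ x, ((rhoM ψ x * rhoM ψ x * rhoM ψ x).trace).re)
        + B * (∫ x, ((rhoM ψ x * rhoM ψ x).trace).re) ≤
        (∑ j, ∑ α, ∫ y, ‖deriv (fun y => ψ j y α) y‖ ^ 2) + ∑ j, costB B (n j))
    {C K : ℝ}
    (hfI : ∀ l, 0 ≤ l → IntegrableOn (fun B => B ^ (2 * γ - 3) * fB B l) (Ioi 0))
    (hUI : ∀ w, 0 ≤ w → IntegrableOn (fun B => B ^ (2 * γ - 3) * UB B w) (Ioi 0))
    (hUM : ∀ w, 0 ≤ w → ∫ B in Ioi (0:ℝ), B ^ (2 * γ - 3) * UB B w = K * C * w ^ p)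
    {b1 b2 : ℝ} (hb1 : 0 < b1) :
    ∑ j, ∫ B in Icc b1 b2, B ^ (2 * γ - 3) * fB B (ℓ j) ≤
      K * C * ∫ x, ∑ α, ((hWpsd x).1.eigenvalues α) ^ p := by
  set S := Icc b1 b2 with hS
  have hSpos : S ⊆ Ioi 0 := fun B hB => lt_of_lt_of_le hb1 hB.1
  have hSm : MeasurableSet S := measurableSet_Icc
  have hSc : IsCompact S := isCompact_Icc
  set μ : ℝ → ℝ := fun B => B ^ (2 * γ - 3) with hμ
  set nn : ℝ → I → ℝ := fun B j => nB B (ℓ j) with hnn
  have hμc : ContinuousOn μ S :=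
    continuousOn_id.rpow_const (fun B hB => Or.inl (ne_of_gt (hSpos hB)))
  have hμ0 : ∀ B ∈ S, 0 ≤ μ B := fun B hB => Real.rpow_nonneg (le_of_lt (hSpos hB)) _
  have hnc : ∀ j, ContinuousOn (fun B => nn B j) S := fun j => nB_contOn hSpos (ℓ j)
  have hcI : ∀ t, IntegrableOn (cT μ nn t) S := by
    rintro (j | p | p)
    · exact ContinuousOn.integrableOn_compact hSc (hμc.mul (hnc j))
    · exact ContinuousOn.integrableOn_compact hSc
        ((continuousOn_const.mul hμc).mul (((hnc p.1).mul (hnc p.2.1)).mul (hnc p.2.2)))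
    · exact ContinuousOn.integrableOn_compact hSc
        (((hμc.mul continuousOn_id).mul ((hnc p.1).mul (hnc p.2))).neg)
  set d : (I ⊕ ((I × I × I) ⊕ (I × I))) → ℝ → ℝ := fun t x =>
    dT (fun j => (star (φ j x) ⬝ᵥ (W x *ᵥ φ j x)).re)
      (fun i j k => ((Aj φ i x * Aj φ j x * Aj φ k x).trace).re)
      (fun i j => ((Aj φ i x * Aj φ j x).trace).re) t with hd
  have hdI : ∀ t, Integrable (d t) := by
    rintro (j | p | p)
    · exact hpot j
    · exact t3_integrable hφsm hφcs p.1 p.2.1 p.2.2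
    · exact t2_integrable hφsm hφcs p.1 p.2
  have hdint : ∀ t, ∫ x, d t x = dT (fun j => ∫ x, (star (φ j x) ⬝ᵥ (W x *ᵥ φ j x)).re)
      (fun i j k => ∫ x, ((Aj φ i x * Aj φ j x * Aj φ k x).trace).re)
      (fun i j => ∫ x, ((Aj φ i x * Aj φ j x).trace).re) t := by
    rintro (j | p | p) <;> rfl
  obtain ⟨h1, h2, h3, h4, h5⟩ := sep_swap (cT μ nn) hcI d hdI
  have hfS : ∀ j, IntegrableOn (fun B => μ B * fB B (ℓ j)) S := fun j =>
    (hfI (ℓ j) (hℓ0 j)).mono_set hSpos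
  calc ∑ j, ∫ B in S, μ B * fB B (ℓ j) = ∫ B in S, ∑ j, μ B * fB B (ℓ j) :=
        (integral_finsetSum _ (fun j _ => hfS j)).symm
    _ ≤ ∫ B in S, ∑ t, cT μ nn t B * ∫ x, d t x := by
        refine setIntegral_mono_on (integrable_finsetSum _ (fun j _ => hfS j)) h5 hSm
          (fun B hB => ?_)
        simp only [hdint]
        rw [sum_T, ← Finset.mul_sum]
        exact mul_le_mul_of_nonneg_left
          (one_B hφsm hφcs hφON ℓ hℓ0 hℓ hkin (hSpos hB)) (hμ0 B hB)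
    _ = ∫ x, ∑ t, (∫ B in S, cT μ nn t B) * d t x := h2
    _ ≤ ∫ x, K * C * ∑ α, ((hWpsd x).1.eigenvalues α) ^ p := by
        refine integral_mono h1 (hint.const_mul _) (fun x => ?_)
        have hw0 : ∀ α, 0 ≤ (hWpsd x).1.eigenvalues α := fun α => (hWpsd x).eigenvalues_nonneg α
        have hUS : ∀ α, IntegrableOn (fun B => μ B * UB B ((hWpsd x).1.eigenvalues α)) S := fun α =>
          (hUI _ (hw0 α)).mono_set hSpos
        simp only
        rw [← h3 x]
        calc ∫ B in S, ∑ t, cT μ nn t B * d t x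
            ≤ ∫ B in S, ∑ α, μ B * UB B ((hWpsd x).1.eigenvalues α) := by
              refine setIntegral_mono_on (h4 x) (integrable_finsetSum _ (fun α _ => hUS α)) hSm
                (fun B hB => ?_)
              simp only [hd]
              rw [sum_T, ← Finset.mul_sum]
              exact mul_le_mul_of_nonneg_left
                (energy_sep hWpsd (nn B) (fun j => (nB_mem (hSpos hB) (hℓ0 j)).1) x (hSpos hB))
                (hμ0 B hB)
          _ = ∑ α, ∫ B in S, μ B * UB B ((hWpsd x).1.eigenvalues α) :=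
              integral_finsetSum _ (fun α _ => hUS α)
          _ ≤ ∑ α, ∫ B in Ioi (0:ℝ), μ B * UB B ((hWpsd x).1.eigenvalues α) := by
              refine Finset.sum_le_sum (fun α _ => ?_)
              refine setIntegral_mono_set (hUI _ (hw0 α)) ?_ (LE.le.eventuallyLE hSpos)
              refine (ae_restrict_iff' measurableSet_Ioi).mpr (ae_of_all _ (fun B hB => ?_))
              have hB' : (0:ℝ) < B := hB
              have h0 := le_UB hB' (hw0 α) (le_refl 0)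
              have h00 : 0 ≤ UB B ((hWpsd x).1.eigenvalues α) := by
                simpa using h0
              exact mul_nonneg (Real.rpow_nonneg hB'.le _) h00
          _ = K * C * ∑ α, ((hWpsd x).1.eigenvalues α) ^ p := by
              rw [Finset.mul_sum]
              exact Finset.sum_congr rfl (fun α _ => hUM _ (hw0 α))
    _ = _ := integral_const_mul _ _

/-- exhausting `Ioi 0`. -/
lemma limit_bound {J : Type*} [Fintype J] (g : J → ℝ → ℝ) (hg : ∀ j, IntegrableOn (g j) (Ioi 0))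
    {R : ℝ} (h : ∀ b1 b2 : ℝ, 0 < b1 → ∑ j, ∫ B in Icc b1 b2, g j B ≤ R) :
    ∑ j, ∫ B in Ioi (0:ℝ), g j B ≤ R := by
  set s : ℕ → Set ℝ := fun k => Icc (1 / ((k:ℝ) + 1)) ((k:ℝ) + 1) with hs
  have hm : ∀ k, MeasurableSet (s k) := fun k => measurableSet_Icc
  have hmono : Monotone s := by
    intro k l hkl
    have h1 : (k:ℝ) ≤ l := by exact_mod_cast hkl
    have h2 : 1 / ((l:ℝ) + 1) ≤ 1 / ((k:ℝ) + 1) :=
      one_div_le_one_div_of_le (by positivity) (by linarith)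
    exact Icc_subset_Icc h2 (by linarith)
  have hU : (⋃ k, s k) = Ioi 0 := by
    ext B
    simp only [mem_iUnion, mem_Ioi]
    constructor
    · rintro ⟨k, hk⟩
      have : (0:ℝ) < 1 / ((k:ℝ) + 1) := by positivity
      exact lt_of_lt_of_le this hk.1
    · intro hB
      obtain ⟨k, hk⟩ := exists_nat_ge (max B (1 / B))
      refine ⟨k, ?_, ?_⟩
      · have h1 : 1 / B ≤ (k:ℝ) + 1 := by
          have := le_trans (le_max_right _ _) hk
          linarith
        rw [div_le_iff₀ (by positivity)]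
        rw [div_le_iff₀ hB] at h1
        linarith
      · have := le_trans (le_max_left _ _) hk
        linarith
  have ht : ∀ j, Tendsto (fun k => ∫ B in s k, g j B) atTop (𝓝 (∫ B in Ioi (0:ℝ), g j B)) := by
    intro j
    have := tendsto_setIntegral_of_monotone (μ := volume) (f := g j) hm hmono (by rw [hU]; exact hg j)
    rwa [hU] at this
  refine le_of_tendsto' (tendsto_finsetSum _ (fun j _ => ht j)) (fun k => ?_)
  exact h _ _ (by positivity)

/-- **The bound for a family.** -/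
theorem family_bound {γ p : ℝ}
    (hint : Integrable fun x => ∑ α, ((hWpsd x).1.eigenvalues α) ^ p)
    (hφsm : ∀ j, ContDiff ℝ ∞ (φ j)) (hφcs : ∀ j, HasCompactSupport (φ j))
    (hφON : ∀ i j, ∫ x, star (φ i x) ⬝ᵥ φ j x = if i = j then 1 else 0)
    (hpot : ∀ j, Integrable (fun x => (star (φ j x) ⬝ᵥ (W x *ᵥ φ j x)).re))
    (ℓ : I → ℝ) (hℓ0 : ∀ j, 0 ≤ ℓ j)
    (hℓ : ∀ j, ℓ j = (∫ x, (star (φ j x) ⬝ᵥ (W x *ᵥ φ j x)).re) -
      ∑ α, ∫ y, ‖deriv (fun y => φ j y α) y‖ ^ 2)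
    (hkin : ∀ (ψ : I → ℝ → Fin m → ℂ),
      (∀ j, ContDiff ℝ ∞ (ψ j)) → (∀ j, HasCompactSupport (ψ j)) →
      ∀ (n : I → ℝ), (∀ i, 0 ≤ n i) → (∀ i, n i < 1) →
      (∀ j k, ∫ x, star (ψ j x) ⬝ᵥ ψ k x = if j = k then ((n j : ℝ) : ℂ) else 0) →
      ∀ {B : ℝ}, 0 < B →
      π ^ 2 / 4 * (∫ x, ((rhoM ψ x * rhoM ψ x * rhoM ψ x).trace).re)
        + B * (∫ x, ((rhoM ψ x * rhoM ψ x).trace).re) ≤
        (∑ j, ∑ α, ∫ y, ‖deriv (fun y => ψ j y α) y‖ ^ 2) + ∑ j, costB B (n j))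
    {C K : ℝ} (hC : 0 < C)
    (hfI : ∀ l, 0 ≤ l → IntegrableOn (fun B => B ^ (2 * γ - 3) * fB B l) (Ioi 0))
    (hfM : ∀ l, 0 ≤ l → ∫ B in Ioi (0:ℝ), B ^ (2 * γ - 3) * fB B l = C * l ^ γ)
    (hUI : ∀ w, 0 ≤ w → IntegrableOn (fun B => B ^ (2 * γ - 3) * UB B w) (Ioi 0))
    (hUM : ∀ w, 0 ≤ w → ∫ B in Ioi (0:ℝ), B ^ (2 * γ - 3) * UB B w = K * C * w ^ p) :
    ∑ j, ℓ j ^ γ ≤ K * ∫ x, ∑ α, ((hWpsd x).1.eigenvalues α) ^ p := by
  have h := limit_bound (fun j B => B ^ (2 * γ - 3) * fB B (ℓ j)) (fun j => hfI _ (hℓ0 j))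
    (R := K * C * ∫ x, ∑ α, ((hWpsd x).1.eigenvalues α) ^ p)
    (fun b1 b2 hb1 => cutoff_bound hWpsd hint hφsm hφcs hφON hpot ℓ hℓ0 hℓ hkin hfI hUI hUM hb1)
  simp only [hfM _ (hℓ0 _)] at h
  rw [← Finset.mul_sum] at h
  refine le_of_mul_le_mul_left ?_ hC
  calc C * ∑ j, ℓ j ^ γ ≤ _ := h
    _ = _ := by ring

end family

section final

variable {m n : ℕ} {W : ℝ → Matrix (Fin m) (Fin m) ℂ}

/-- **The final bound**, from the kinetic inequality and the Mellin transforms. -/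
theorem final_core {γ : ℝ} (h1 : 1 < γ)
    (hWm : ∀ i j, Measurable fun x => W x i j) (hWpsd : ∀ x, (W x).PosSemidef)
    (hint : Integrable fun x => ∑ α, ((hWpsd x).1.eigenvalues α) ^ (γ + 1 / 2))
    {ψ : Fin n → ℝ → Fin m → ℂ} (hsm : ∀ j, ContDiff ℝ ∞ (ψ j))
    (hcs : ∀ j, HasCompactSupport (ψ j))
    (hON : ∀ j k, ∫ x, star (ψ j x) ⬝ᵥ ψ k x = if j = k then 1 else 0)
    {Q : Matrix (Fin n) (Fin n) ℂ}
    (hQ : ∀ j k, Q j k = (∫ x, star (deriv (ψ j) x) ⬝ᵥ deriv (ψ k) x) -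
      ∫ x, star (ψ j x) ⬝ᵥ (W x *ᵥ ψ k x))
    (hkin : ∀ {ι : Type} [Fintype ι] [DecidableEq ι] (ψ : ι → ℝ → Fin m → ℂ),
      (∀ j, ContDiff ℝ ∞ (ψ j)) → (∀ j, HasCompactSupport (ψ j)) →
      ∀ (n : ι → ℝ), (∀ i, 0 ≤ n i) → (∀ i, n i < 1) →
      (∀ j k, ∫ x, star (ψ j x) ⬝ᵥ ψ k x = if j = k then ((n j : ℝ) : ℂ) else 0) →
      ∀ {B : ℝ}, 0 < B →
      π ^ 2 / 4 * (∫ x, ((rhoM ψ x * rhoM ψ x * rhoM ψ x).trace).re)
        + B * (∫ x, ((rhoM ψ x * rhoM ψ x).trace).re) ≤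
        (∑ j, ∑ α, ∫ y, ‖deriv (fun y => ψ j y α) y‖ ^ 2) + ∑ j, costB B (n j))
    {C K : ℝ} (hC : 0 < C)
    (hfI : ∀ l, 0 ≤ l → IntegrableOn (fun B => B ^ (2 * γ - 3) * fB B l) (Ioi 0))
    (hfM : ∀ l, 0 ≤ l → ∫ B in Ioi (0:ℝ), B ^ (2 * γ - 3) * fB B l = C * l ^ γ)
    (hUI : ∀ w, 0 ≤ w → IntegrableOn (fun B => B ^ (2 * γ - 3) * UB B w) (Ioi 0))
    (hUM : ∀ w, 0 ≤ w → ∫ B in Ioi (0:ℝ), B ^ (2 * γ - 3) * UB B w = K * C * w ^ (γ + 1 / 2)) :
    ∃ hQH : Q.IsHermitian, ∑ j, (max (-hQH.eigenvalues j) 0) ^ γ ≤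
      K * ∫ x, ∑ α, ((hWpsd x).1.eigenvalues α) ^ (γ + 1 / 2) := by
  classical
  have hp : 1 ≤ γ + 1 / 2 := by linarith
  obtain ⟨hQH, hform⟩ := Q_facts hWm hWpsd (p := γ + 1 / 2) hp hint hsm hcs hQ
  refine ⟨hQH, ?_⟩
  set U : Matrix (Fin n) (Fin n) ℂ := (hQH.eigenvectorUnitary : Matrix (Fin n) (Fin n) ℂ) with hU
  have hSU : star U * U = 1 := unitary_star_mul hQH
  -- the negative eigenspace
  set I := {j : Fin n // hQH.eigenvalues j < 0} with hI
  set φ : I → ℝ → Fin m → ℂ := fun j y α => ∑ k, U k j.1 * ψ k y α with hφ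
  have hc0 : ∀ k α, Continuous (fun y => ψ k y α) :=
    fun k α => (continuous_apply α).comp (hsm k).continuous
  have hs0 : ∀ k α, HasCompactSupport (fun y => ψ k y α) := fun k α =>
    (hcs k).comp_left (g := fun v : Fin m → ℂ => v α) rfl
  have hφsm : ∀ j, ContDiff ℝ ∞ (φ j) := by
    intro j
    refine contDiff_pi.mpr (fun α => ?_)
    exact ContDiff.sum (fun k _ => contDiff_const.mul (contDiff_pi.mp (hsm k) α))
  have hφcs : ∀ j, HasCompactSupport (φ j) := by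
    intro j
    have hK' : IsCompact (⋃ k, tsupport (ψ k)) := isCompact_iUnion (fun k => hcs k)
    refine HasCompactSupport.intro hK' (fun y hy => ?_)
    have h0 : ∀ k, ψ k y = 0 := by
      intro k
      by_contra hne
      exact hy (mem_iUnion.mpr ⟨k, subset_tsupport _ hne⟩)
    ext α
    simp [hφ, h0]
  have hdot : ∀ j k, Integrable (fun y => star (ψ j y) ⬝ᵥ ψ k y) := by
    intro j k
    simp only [dotProduct, Pi.star_apply]
    refine integrable_finsetSum _ (fun α _ => ?_)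
    have hcc : Continuous (fun y => star (ψ j y α) * ψ k y α) :=
      (continuous_star.comp (hc0 j α)).mul (hc0 k α)
    exact hcc.integrable_of_hasCompactSupport (hs0 k α).mul_left
  have hφON : ∀ i j, ∫ x, star (φ i x) ⬝ᵥ φ j x = if i = j then 1 else 0 := by
    intro i j
    have e1 : ∀ x, star (φ i x) ⬝ᵥ φ j x =
        ∑ a, ∑ b, star (U a i.1) * U b j.1 * (star (ψ a x) ⬝ᵥ ψ b x) := fun x =>
      form_comb2 (fun k => U k i.1) (fun k => U k j.1) (fun k => ψ k x) (fun k => ψ k x)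
    simp only [e1]
    rw [integral_finsetSum _ (fun a _ => integrable_finsetSum _ (fun b _ => (hdot a b).const_mul _))]
    simp only [integral_finsetSum _ (fun b _ => (hdot _ b).const_mul _), integral_const_mul, hON]
    have e2 : ∀ a, ∑ b, star (U a i.1) * U b j.1 * (if a = b then (1:ℂ) else 0) = star (U a i.1) * U a j.1 := by
      intro a
      rw [Finset.sum_eq_single a]
      · simp
      · intro b _ hb
        have : ¬ a = b := fun h => hb h.symm
        simp [this]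
      · simp
    simp only [e2]
    have e3 := congrFun (congrFun hSU i.1) j.1
    simp only [Matrix.mul_apply, Matrix.star_apply] at e3
    rw [e3]
    by_cases h : i = j
    · subst h
      simp
    · have h' : i.1 ≠ j.1 := fun h'' => h (Subtype.ext h'')
      simp [h, h', Matrix.one_apply]
  -- the eigenvalue of a column
  have hcol : ∀ j : I, hQH.eigenvalues j.1 =
      (∑ α, ∫ y, ‖deriv (fun y => φ j y α) y‖ ^ 2) -
        ∫ y, (star (φ j y) ⬝ᵥ (W y *ᵥ φ j y)).re := by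
    intro j
    have h1 := hform (fun k => U k j.1)
    have h2 := eig_quad hQH j.1
    rw [← hU] at h2
    rw [h2, Complex.ofReal_re] at h1
    rw [h1]
    congr 1
    have hderi : ∀ y α, deriv (fun y => φ j y α) y = ∑ k, U k j.1 * deriv (ψ k) y α :=
      fun y α => deriv_comb hsm (fun k => U k j.1) α y
    simp only [hderi]
    rw [integral_finsetSum]
    intro α _
    have hcd : ∀ k, Continuous (deriv (ψ k)) := fun k => (hsm k).continuous_deriv (by simp)
    have hc' : ∀ k, Continuous (fun y => deriv (ψ k) y α) :=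
      fun k => (continuous_apply α).comp (hcd k)
    have hs' : ∀ k, HasCompactSupport (fun y => deriv (ψ k) y α) := fun k =>
      ((hcs k).deriv).comp_left (g := fun v : Fin m → ℂ => v α) rfl
    have hcc : Continuous (fun y => ∑ k, U k j.1 * deriv (ψ k) y α) :=
      continuous_finsetSum _ (fun k _ => continuous_const.mul (hc' k))
    have hss : HasCompactSupport (fun y => ∑ k, U k j.1 * deriv (ψ k) y α) :=
      hcs_finsum _ (fun k y => U k j.1 * deriv (ψ k) y α) (fun k _ => (hs' k).mul_left)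
    have h3 : HasCompactSupport (fun y => ‖∑ k, U k j.1 * deriv (ψ k) y α‖ ^ 2) :=
      hss.comp_left (g := fun z : ℂ => ‖z‖ ^ 2) (by simp)
    exact (by fun_prop : Continuous (fun y => ‖∑ k, U k j.1 * deriv (ψ k) y α‖ ^ 2)).integrable_of_hasCompactSupport h3
  -- integrability of the potential energy
  have hφc : ∀ j α, Continuous (fun y => φ j y α) := fun j α =>
    continuous_finsetSum _ (fun k _ => continuous_const.mul (hc0 k α))
  have hφs : ∀ j α, HasCompactSupport (fun y => φ j y α) := fun j α =>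
    hcs_finsum _ (fun k y => U k j.1 * ψ k y α) (fun k _ => (hs0 k α).mul_left)
  have hpotI : ∀ j, Integrable (fun y => star (φ j y) ⬝ᵥ (W y *ᵥ φ j y)) := fun j =>
    quad_integrable hWm hWpsd hp hint (hφc j) (hφc j) (hφs j)
  -- the sum over the negative eigenvalues
  have hγ0 : γ ≠ 0 := by linarith
  have hsum : ∑ j, (max (-hQH.eigenvalues j) 0) ^ γ = ∑ j : I, (-hQH.eigenvalues j.1) ^ γ := by
    have h1 : ∀ j, (max (-hQH.eigenvalues j) 0) ^ γ =
        if hQH.eigenvalues j < 0 then (-hQH.eigenvalues j) ^ γ else 0 := by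
      intro j
      split_ifs with h
      · rw [max_eq_left (by linarith)]
      · rw [max_eq_right (by linarith [not_lt.mp h]), Real.zero_rpow hγ0]
    simp only [h1]
    rw [← Finset.sum_filter]
    exact Finset.sum_subtype _ (by simp) _
  rw [hsum]
  refine family_bound hWpsd (φ := φ) hint hφsm hφcs hφON (fun j => (hpotI j).re)
    (fun j => -hQH.eigenvalues j.1) (fun j => ?_) (fun j => ?_) hkin hC hfI hfM hUI hUM
  · have := j.2
    linarith
  · rw [hcol j]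
    ring

end final

end Vale.Agent.P371k
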