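import Vale.Agent.P371k.Complex
import Vale.Agent.P371k.Scalar
import Vale.Agent.P371m.FinalAll

/-! Fixed `B`: the pointwise potential bound and the kinetic inequality in the form used by the
duality argument. -/

namespace Vale.Agent.P371k
open Matrix BigOperators Real MeasureTheory Set
open scoped ComplexOrder ContDiff
open Vale.Agent.P371

section pointwise

variable {τ : Type*} [Fintype τ] [DecidableEq τ]

/-- The trace of `A ρ` in the eigenbasis of `A`. -/
lemma trace_mul_eig {A : Matrix τ τ ℂ} (hA : A.IsHermitian) (ρ : Matrix τ τ ℂ) :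
    (A * ρ).trace = ∑ a, ((hA.eigenvalues a : ℝ) : ℂ) *
      (star (fun β => (hA.eigenvectorUnitary : Matrix τ τ ℂ) β a) ⬝ᵥ
        (ρ *ᵥ (fun β => (hA.eigenvectorUnitary : Matrix τ τ ℂ) β a))) := by
  set U : Matrix τ τ ℂ := (hA.eigenvectorUnitary : Matrix τ τ ℂ) with hU
  set D : Matrix τ τ ℂ := diagonal (fun i => ((hA.eigenvalues i : ℝ) : ℂ)) with hD
  have hQe : A = U * D * star U := by
    conv_lhs => rw [← fc_eigenvalues hA]
    rfl
  have h2 : (A * ρ).trace = ∑ a, (D a a) * (star U * ρ * U) a a := by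
    have e1 : U * D * star U * ρ = U * (D * (star U * ρ)) := by
      simp only [Matrix.mul_assoc]
    have e2 : D * (star U * ρ) * U = D * (star U * ρ * U) := by
      simp only [Matrix.mul_assoc]
    rw [hQe, e1, Matrix.trace_mul_comm, e2]
    simp only [Matrix.trace, Matrix.diag, hD, Matrix.diagonal_mul, Matrix.diagonal_apply_eq]
  rw [h2]
  refine Finset.sum_congr rfl (fun a _ => ?_)
  have h3 : D a a = ((hA.eigenvalues a : ℝ) : ℂ) := by
    simp [hD]
  rw [h3]
  congr 1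
  simp only [Matrix.mul_apply, dotProduct, mulVec, Matrix.star_apply, Pi.star_apply, Finset.mul_sum,
    Finset.sum_mul]
  rw [Finset.sum_comm]
  refine Finset.sum_congr rfl (fun j _ => Finset.sum_congr rfl (fun i _ => ?_))
  ring

/-- The trace of the square in terms of the eigenvalues. -/
lemma trace_square {Q : Matrix τ τ ℂ} (hQ : Q.IsHermitian) :
    ((Q * Q).trace).re = ∑ a, (hQ.eigenvalues a) ^ 2 := by
  set U : Matrix τ τ ℂ := (hQ.eigenvectorUnitary : Matrix τ τ ℂ) with hU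
  set D : Matrix τ τ ℂ := diagonal (fun i => ((hQ.eigenvalues i : ℝ) : ℂ)) with hD
  have hQe : Q = U * D * star U := by
    conv_lhs => rw [← fc_eigenvalues hQ]
    rfl
  have hSU : star U * U = 1 := unitary_star_mul hQ
  have h1 : Q * Q = U * (D * D) * star U := by
    rw [hQe]
    calc U * D * star U * (U * D * star U)
        = U * D * (star U * U) * D * star U := by
          simp only [Matrix.mul_assoc]
      _ = _ := by
          rw [hSU]
          simp only [Matrix.mul_one, Matrix.mul_assoc]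
  rw [h1, Matrix.trace_mul_comm, ← Matrix.mul_assoc, hSU, Matrix.one_mul]
  simp only [hD, Matrix.diagonal_mul_diagonal, Matrix.trace_diagonal]
  rw [Complex.re_sum]
  refine Finset.sum_congr rfl (fun a _ => ?_)
  have : ((hQ.eigenvalues a : ℂ)) * (hQ.eigenvalues a : ℂ) =
      (((hQ.eigenvalues a) ^ 2 : ℝ) : ℂ) := by
    push_cast
    ring
  rw [this, Complex.ofReal_re]

/-- **The pointwise bound of the energy density.** -/
theorem potential_B (ρ A : Matrix τ τ ℂ) (hρ : ρ.PosSemidef) (hA : A.PosSemidef) {B : ℝ}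
    (hB : 0 < B) :
    ((A * ρ).trace).re - π ^ 2 / 4 * ((ρ * ρ * ρ).trace).re - B * ((ρ * ρ).trace).re ≤
      ∑ α, UB B (hA.1.eigenvalues α) := by
  set U : Matrix τ τ ℂ := (hA.1.eigenvectorUnitary : Matrix τ τ ℂ) with hU
  have hUS : U * star U = 1 := unitary_mul_star hA.1
  have hSU : star U * U = 1 := unitary_star_mul hA.1
  set q : τ → ℝ := fun a => (star (fun β => U β a) ⬝ᵥ (ρ *ᵥ (fun β => U β a))).re with hq
  have hq0 : ∀ a, 0 ≤ q a := fun a => quad_re_nonneg hρ _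
  have h1 : ((A * ρ).trace).re = ∑ a, hA.1.eigenvalues a * q a := by
    rw [trace_mul_eig hA.1 ρ, Complex.re_sum]
    refine Finset.sum_congr rfl (fun a _ => ?_)
    rw [Complex.re_ofReal_mul]
  have hb3 := (berezin hρ hSU hUS (p := (3:ℝ)) (by norm_num)).2
  have hb2 := (berezin hρ hSU hUS (p := (2:ℝ)) (by norm_num)).2
  have h3 : ∑ a, q a ^ 3 ≤ ((ρ * ρ * ρ).trace).re := by
    rw [trace_cube hρ.1]
    have e : ∀ x : ℝ, x ^ (3:ℝ) = x ^ 3 := fun x => by
      rw [show (3:ℝ) = ((3:ℕ):ℝ) by norm_num, Real.rpow_natCast]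
    simp only [e] at hb3
    exact hb3
  have h2 : ∑ a, q a ^ 2 ≤ ((ρ * ρ).trace).re := by
    rw [trace_square hρ.1]
    have e : ∀ x : ℝ, x ^ (2:ℝ) = x ^ 2 := fun x => by
      rw [show (2:ℝ) = ((2:ℕ):ℝ) by norm_num, Real.rpow_natCast]
    simp only [e] at hb2
    exact hb2
  have hterm : ∑ a, (hA.1.eigenvalues a * q a - π ^ 2 / 4 * q a ^ 3 - B * q a ^ 2) ≤
      ∑ α, UB B (hA.1.eigenvalues α) :=
    Finset.sum_le_sum fun a _ => le_UB hB (hA.eigenvalues_nonneg a) (hq0 a)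
  rw [Finset.sum_sub_distrib, Finset.sum_sub_distrib, ← Finset.mul_sum, ← Finset.mul_sum] at hterm
  have hpi : 0 ≤ π ^ 2 / 4 := by positivity
  have h3' := mul_le_mul_of_nonneg_left h3 hpi
  have h2' := mul_le_mul_of_nonneg_left h2 hB.le
  rw [h1]
  linarith

end pointwise

section fixedB

set_option linter.unusedSectionVars false

variable {I : Type*} [Fintype I] [DecidableEq I] {m : ℕ}

/-- the scaled family `√(nB B (l j)) φ_j`. -/
noncomputable def scaled (φ : I → ℝ → Fin m → ℂ) (l : I → ℝ) (B : ℝ) : I → ℝ → Fin m → ℂ :=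
  fun j y α => ((√(nB B (l j)) : ℝ) : ℂ) * φ j y α

lemma scaled_smooth {φ : I → ℝ → Fin m → ℂ} (hsm : ∀ j, ContDiff ℝ ∞ (φ j)) (l : I → ℝ) (B : ℝ)
    (j : I) : ContDiff ℝ ∞ (scaled φ l B j) := by
  refine contDiff_pi.mpr (fun α => ?_)
  exact contDiff_const.mul (contDiff_pi.mp (hsm j) α)

lemma scaled_support {φ : I → ℝ → Fin m → ℂ} (hcs : ∀ j, HasCompactSupport (φ j)) (l : I → ℝ)
    (B : ℝ) (j : I) : HasCompactSupport (scaled φ l B j) := by
  refine (hcs j).mono ?_
  intro y hy hy0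
  apply hy
  ext α
  have : φ j y α = 0 := congrFun hy0 α
  simp [scaled, this]

lemma scaled_orth {φ : I → ℝ → Fin m → ℂ}
    (hON : ∀ j k, ∫ x, star (φ j x) ⬝ᵥ φ k x = if j = k then 1 else 0) {l : I → ℝ}
    (hl : ∀ j, 0 ≤ l j) {B : ℝ} (hB : 0 < B) (j k : I) :
    ∫ x, star (scaled φ l B j x) ⬝ᵥ scaled φ l B k x =
      if j = k then ((nB B (l j) : ℝ) : ℂ) else 0 := by
  have e : ∀ x, star (scaled φ l B j x) ⬝ᵥ scaled φ l B k x =
      (((√(nB B (l j)) : ℝ) : ℂ) * ((√(nB B (l k)) : ℝ) : ℂ)) * (star (φ j x) ⬝ᵥ φ k x) := by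
    intro x
    simp only [dotProduct, scaled, Pi.star_apply, star_mul', Finset.mul_sum]
    refine Finset.sum_congr rfl fun α _ => ?_
    simp only [Complex.star_def, Complex.conj_ofReal]
    ring
  simp only [e]
  rw [integral_const_mul, hON]
  by_cases h : j = k
  · subst h
    simp only [if_true]
    have h0 := (nB_mem hB (hl j)).1
    rw [mul_one, ← Complex.ofReal_mul, Real.mul_self_sqrt h0]
  · simp [h]

/-- the kinetic energy of the scaled family. -/
lemma scaled_kinetic {φ : I → ℝ → Fin m → ℂ} (hsm : ∀ j, ContDiff ℝ ∞ (φ j)) {l : I → ℝ}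
    (hl : ∀ j, 0 ≤ l j) {B : ℝ} (hB : 0 < B) (j : I) :
    ∑ α, ∫ y, ‖deriv (fun y => scaled φ l B j y α) y‖ ^ 2 =
      nB B (l j) * ∑ α, ∫ y, ‖deriv (fun y => φ j y α) y‖ ^ 2 := by
  have h0 := (nB_mem hB (hl j)).1
  rw [Finset.mul_sum]
  refine Finset.sum_congr rfl fun α _ => ?_
  have hd : ∀ y, DifferentiableAt ℝ (fun y => φ j y α) y := fun y =>
    ((contDiff_pi.mp (hsm j) α).differentiable (by simp)) y
  have e : ∀ y, ‖deriv (fun y => scaled φ l B j y α) y‖ ^ 2 =
      nB B (l j) * ‖deriv (fun y => φ j y α) y‖ ^ 2 := by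
    intro y
    have : deriv (fun y => scaled φ l B j y α) y =
        ((√(nB B (l j)) : ℝ) : ℂ) * deriv (fun y => φ j y α) y := by
      simp only [scaled]
      exact deriv_const_mul _ (hd y)
    rw [this, norm_mul, Complex.norm_real, Real.norm_of_nonneg (Real.sqrt_nonneg _), mul_pow,
      Real.sq_sqrt h0]
  simp only [e]
  rw [integral_const_mul]

/-- **Fixed `B`**: the duality inequality. -/
theorem fixedB_bound {φ : I → ℝ → Fin m → ℂ} (hsm : ∀ j, ContDiff ℝ ∞ (φ j))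
    (hcs : ∀ j, HasCompactSupport (φ j))
    (hON : ∀ j k, ∫ x, star (φ j x) ⬝ᵥ φ k x = if j = k then 1 else 0) {l : I → ℝ}
    (hl : ∀ j, 0 ≤ l j) {B : ℝ} (hB : 0 < B) :
    ∑ j, fB B (l j) ≤
      ∑ j, nB B (l j) * ((∑ α, ∫ y, ‖deriv (fun y => φ j y α) y‖ ^ 2) + l j)
        - π ^ 2 / 4 * (∫ x, ((rhoM (scaled φ l B) x * rhoM (scaled φ l B) x *
            rhoM (scaled φ l B) x).trace).re)
        - B * (∫ x, ((rhoM (scaled φ l B) x * rhoM (scaled φ l B) x).trace).re) := by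
  have hk := kinetic_ext (scaled φ l B) (scaled_smooth hsm l B) (scaled_support hcs l B)
    (fun j => nB B (l j)) (fun j => (nB_mem hB (hl j)).1) (fun j => (nB_mem hB (hl j)).2)
    (scaled_orth hON hl hB) hB
  simp only [scaled_kinetic hsm hl hB] at hk
  simp only [fB_eq hB (hl _)]
  rw [Finset.sum_sub_distrib]
  have e : ∑ j, nB B (l j) * ((∑ α, ∫ y, ‖deriv (fun y => φ j y α) y‖ ^ 2) + l j) =
      ∑ j, nB B (l j) * (∑ α, ∫ y, ‖deriv (fun y => φ j y α) y‖ ^ 2) + ∑ j, nB B (l j) * l j := by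
    rw [← Finset.sum_add_distrib]
    refine Finset.sum_congr rfl fun j _ => ?_
    ring
  rw [e]
  linarith

/-- the density matrix of the scaled family, expanded. -/
lemma rhoM_scaled (φ : I → ℝ → Fin m → ℂ) {l : I → ℝ} (hl : ∀ j, 0 ≤ l j) {B : ℝ} (hB : 0 < B)
    (x : ℝ) :
    rhoM (scaled φ l B) x =
      ∑ j, ((nB B (l j) : ℝ) : ℂ) • Matrix.vecMulVec (φ j x) (star (φ j x)) := by
  ext α β
  simp only [rhoM, Matrix.of_apply, Matrix.sum_apply, Matrix.smul_apply, Matrix.vecMulVec_apply,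
    smul_eq_mul, Pi.star_apply]
  refine Finset.sum_congr rfl fun j _ => ?_
  simp only [scaled, star_mul', Complex.star_def, Complex.conj_ofReal]
  have h0 := (nB_mem hB (hl j)).1
  have : ((nB B (l j) : ℝ) : ℂ) = ((√(nB B (l j)) : ℝ) : ℂ) * ((√(nB B (l j)) : ℝ) : ℂ) := by
    rw [← Complex.ofReal_mul, Real.mul_self_sqrt h0]
  rw [this]
  ring

end fixedB

end Vale.Agent.P371k
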