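import Vale.Agent.P371k.Defs

/-! The closed form of the constant `KK`: `KK γ = (2/√3)^(3-2γ) * L^cl_γ`, where
`L^cl_γ = Γ(γ+1) / (2 √π Γ(γ+3/2))` is the semiclassical constant. -/

namespace Vale.Agent.P371k
open Real

/-- the semiclassical constant. -/
noncomputable def Lcl (γ : ℝ) : ℝ := Gamma (γ + 1) / (2 * √π * Gamma (γ + 3 / 2))

theorem KK_eq {γ : ℝ} (h1 : 1 < γ) : KK γ = (2 / √3) ^ (3 - 2 * γ) * Lcl γ := by
  have hpi := pi_pos
  have hs3 : 0 < √3 := sqrt_pos.mpr (by norm_num)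
  have hs32 : √3 ^ 2 = 3 := sq_sqrt (by norm_num)
  have hspi : 0 < √π := sqrt_pos.mpr hpi
  have hγ0 : 0 < γ := by linarith
  have hdup := Real.Gamma_mul_Gamma_add_half (γ - 1 / 2)
  rw [show γ - 1 / 2 + 1 / 2 = γ by ring, show 2 * (γ - 1 / 2) = 2 * γ - 1 by ring,
    show 1 - (2 * γ - 1) = 2 - 2 * γ by ring] at hdup
  have hG1 : 0 < Gamma (γ - 1 / 2) := Gamma_pos_of_pos (by linarith)
  have hG2 : 0 < Gamma γ := Gamma_pos_of_pos hγ0
  have hG3 : 0 < Gamma (γ + 1 / 2) := Gamma_pos_of_pos (by linarith)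
  have hG4 : 0 < Gamma (2 * γ - 1) := Gamma_pos_of_pos (by linarith)
  have e1 : Gamma (γ + 1) = γ * Gamma γ := Gamma_add_one hγ0.ne'
  have e2 : Gamma (γ + 3 / 2) = (γ + 1 / 2) * Gamma (γ + 1 / 2) := by
    rw [show γ + 3 / 2 = (γ + 1 / 2) + 1 by ring, Gamma_add_one (by linarith)]
  have hpow : (2 : ℝ) ^ (2 - 2 * γ) * (4 : ℝ) ^ (γ - 1) = 1 := by
    have : (4 : ℝ) = 2 ^ (2 : ℝ) := by norm_num
    rw [this, ← rpow_mul (by norm_num), ← rpow_add (by norm_num)]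
    rw [show 2 - 2 * γ + 2 * (γ - 1) = 0 by ring, rpow_zero]
  have e3 : Gamma (2 * γ - 1) / (Gamma (γ - 1 / 2) * Gamma (γ + 1 / 2)) =
      (4 : ℝ) ^ (γ - 1) * Gamma γ / (√π * Gamma (γ + 1 / 2)) := by
    have h4pos : (0 : ℝ) < 4 ^ (γ - 1) := rpow_pos_of_pos (by norm_num) _
    have h2pos : (0 : ℝ) < 2 ^ (2 - 2 * γ) := rpow_pos_of_pos (by norm_num) _
    have : Gamma (2 * γ - 1) = (4 : ℝ) ^ (γ - 1) * (Gamma (γ - 1 / 2) * Gamma γ) / √π := by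
      rw [hdup]
      have e : (4 : ℝ) ^ (γ - 1) * (Gamma (2 * γ - 1) * 2 ^ (2 - 2 * γ) * √π) / √π =
          Gamma (2 * γ - 1) * ((2 : ℝ) ^ (2 - 2 * γ) * (4 : ℝ) ^ (γ - 1)) := by
        field_simp
      rw [e, hpow, mul_one]
    rw [this]
    generalize Gamma (γ - 1 / 2) = A at *
    generalize Gamma (γ + 1 / 2) = C at *
    generalize Gamma γ = D at *
    generalize (4 : ℝ) ^ (γ - 1) = Y at *
    field_simp
  have e4 : (3 / 16 : ℝ) ^ (γ - 1) * (4 : ℝ) ^ (γ - 1) = (3 / 4 : ℝ) ^ (γ - 1) := by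
    rw [← mul_rpow (by norm_num) (by norm_num)]
    norm_num
  have e5 : (2 / √3) ^ (3 - 2 * γ) = (2 / √3) * (3 / 4 : ℝ) ^ (γ - 1) := by
    have hb : 0 < 2 / √3 := by positivity
    have hsq : (2 / √3) ^ (2 : ℝ) = 4 / 3 := by
      rw [rpow_two, div_pow, hs32]; norm_num
    rw [show 3 - 2 * γ = 1 + 2 * (1 - γ) by ring, rpow_add hb, rpow_one, rpow_mul hb.le, hsq]
    congr 1
    rw [show (1 : ℝ) - γ = -(γ - 1) by ring, rpow_neg (by norm_num), ← inv_rpow (by norm_num)]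
    norm_num
  unfold KK Lcl
  rw [e3, e5, e1, e2, ← e4]
  have hX : (0 : ℝ) < (3 / 16) ^ (γ - 1) := rpow_pos_of_pos (by norm_num) _
  have hY : (0 : ℝ) < 4 ^ (γ - 1) := rpow_pos_of_pos (by norm_num) _
  generalize (3 / 16 : ℝ) ^ (γ - 1) = X at *
  generalize (4 : ℝ) ^ (γ - 1) = Y at *
  have h5 : γ + 1 / 2 ≠ 0 := by linarith
  have h6 : 2 * γ + 1 ≠ 0 := by linarith
  field_simp

/-- The bound is strictly below the Aizenman-Lieb bound from `γ = 1`. -/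
theorem KK_lt {γ : ℝ} (h1 : 1 < γ) (h2 : γ < 3 / 2) : KK γ < (2 / √3) * Lcl γ := by
  rw [KK_eq h1]
  have hs3 : 0 < √3 := sqrt_pos.mpr (by norm_num)
  have hs3' : √3 < 2 := by
    rw [sqrt_lt' (by norm_num)]; norm_num
  have hb : 1 < 2 / √3 := by
    rw [lt_div_iff₀ hs3]; linarith
  have hL : 0 < Lcl γ := by
    unfold Lcl
    have := Gamma_pos_of_pos (show 0 < γ + 1 by linarith)
    have := Gamma_pos_of_pos (show 0 < γ + 3 / 2 by linarith)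
    have := sqrt_pos.mpr pi_pos
    positivity
  refine mul_lt_mul_of_pos_right ?_ hL
  calc (2 / √3) ^ (3 - 2 * γ) < (2 / √3) ^ (1 : ℝ) :=
        rpow_lt_rpow_of_exponent_lt hb (by linarith)
    _ = 2 / √3 := rpow_one _

end Vale.Agent.P371k
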