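import Vale.Agent.P371k.Defs

/-! The constant `KK` in its simplest form: `KK γ = (4/3)^(3/2-γ) L^cl_γ`. -/

namespace Vale.Agent.P371k
open Real

theorem KK_eq {γ : ℝ} (h1 : 1 < γ) (h2 : γ < 3 / 2) :
    KK γ = (4 / 3 : ℝ) ^ (3 / 2 - γ) * (Gamma (γ + 1) / (2 * √π * Gamma (γ + 3 / 2))) := by
  have hpi := pi_pos
  have hsp : 0 < √π := sqrt_pos.mpr hpi
  have hs3 : 0 < √3 := sqrt_pos.mpr (by norm_num)
  have hs32 : √3 ^ 2 = 3 := sq_sqrt (by norm_num)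
  have hG1 : 0 < Gamma (γ - 1 / 2) := Gamma_pos_of_pos (by linarith)
  have hG2 : 0 < Gamma (γ + 1 / 2) := Gamma_pos_of_pos (by linarith)
  have hG3 : 0 < Gamma γ := Gamma_pos_of_pos (by linarith)
  -- duplication
  have hdup := Real.Gamma_mul_Gamma_add_half (γ - 1 / 2)
  rw [show γ - 1 / 2 + 1 / 2 = γ by ring, show 2 * (γ - 1 / 2) = 2 * γ - 1 by ring,
    show 1 - (2 * γ - 1) = 2 - 2 * γ by ring] at hdup
  have h2pow : (2:ℝ) ^ (2 - 2 * γ) * (4:ℝ) ^ (γ - 1) = 1 := by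
    have : (4:ℝ) = 2 ^ (2:ℝ) := by norm_num
    rw [this, ← rpow_mul (by norm_num), ← rpow_add (by norm_num)]
    rw [show 2 - 2 * γ + 2 * (γ - 1) = 0 by ring, rpow_zero]
  have hG2γ : Gamma (2 * γ - 1) = Gamma (γ - 1 / 2) * Gamma γ * (4:ℝ) ^ (γ - 1) / √π := by
    rw [eq_div_iff hsp.ne']
    calc Gamma (2 * γ - 1) * √π = Gamma (2 * γ - 1) * √π * ((2:ℝ) ^ (2 - 2 * γ) * (4:ℝ) ^ (γ - 1)) := by
          rw [h2pow, mul_one]
      _ = (Gamma (2 * γ - 1) * (2:ℝ) ^ (2 - 2 * γ) * √π) * (4:ℝ) ^ (γ - 1) := by ring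
      _ = Gamma (γ - 1 / 2) * Gamma γ * (4:ℝ) ^ (γ - 1) := by rw [← hdup]
  have hg1 : Gamma (γ + 1) = γ * Gamma γ := Gamma_add_one (by linarith)
  have hg2 : Gamma (γ + 3 / 2) = (γ + 1 / 2) * Gamma (γ + 1 / 2) := by
    rw [show γ + 3 / 2 = (γ + 1 / 2) + 1 by ring, Gamma_add_one (by linarith)]
  -- powers
  have hp : (3 / 16 : ℝ) ^ (γ - 1) * (4:ℝ) ^ (γ - 1) = (3 / 4 : ℝ) ^ (γ - 1) := by
    rw [← mul_rpow (by norm_num) (by norm_num)]; norm_num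
  have hq : (4 / 3 : ℝ) ^ (3 / 2 - γ) = 2 / √3 * (3 / 4 : ℝ) ^ (γ - 1) := by
    have e1 : (3 / 2 - γ) = 1 / 2 + -(γ - 1) := by ring
    rw [e1, rpow_add (by norm_num), rpow_neg (by norm_num), ← inv_rpow (by norm_num)]
    have e2 : (4 / 3 : ℝ) ^ (1 / 2 : ℝ) = 2 / √3 := by
      rw [← sqrt_eq_rpow, sqrt_div (by norm_num)]
      have : √4 = 2 := by
        rw [show (4:ℝ) = 2 ^ 2 by norm_num]; exact sqrt_sq (by norm_num)
      rw [this]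
    rw [e2]
    norm_num
  unfold KK
  rw [hG2γ, hg1, hg2, hq]
  have hγ1 : 2 * γ + 1 ≠ 0 := by linarith
  have hγ2 : γ + 1 / 2 ≠ 0 := by linarith
  rw [← hp]
  generalize (3 / 16 : ℝ) ^ (γ - 1) = Z
  generalize (4 : ℝ) ^ (γ - 1) = Y
  generalize Gamma (γ - 1 / 2) = A at *
  generalize Gamma (γ + 1 / 2) = D at *
  generalize Gamma γ = C at *
  have e3 : (2 * γ + 1) = 2 * (γ + 1 / 2) := by ring
  rw [e3]
  field_simp

end Vale.Agent.P371k
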