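import Vale.Agent.P371k.Defs

/-! Derivatives of `tr (G^n R)` and `tr (G^n)` along `Ġ = R`, `Ṙ = D`. -/

namespace Vale.Agent.P371k
open Matrix BigOperators

variable {ι : Type*} [Fintype ι] [DecidableEq ι]

/-- the derivative of `G^n` -/
def DPow (G R : Matrix ι ι ℝ) (n : ℕ) : Matrix ι ι ℝ :=
  ∑ r ∈ Finset.range n, G ^ r * R * G ^ (n - 1 - r)

lemma DPow_succ (G R : Matrix ι ι ℝ) (n : ℕ) :
    DPow G R (n + 1) = DPow G R n * G + G ^ n * R := by
  unfold DPow
  rw [Finset.sum_range_succ, Finset.sum_mul]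
  congr 1
  · refine Finset.sum_congr rfl fun r hr => ?_
    have hr' : r < n := Finset.mem_range.1 hr
    have h : n + 1 - 1 - r = (n - 1 - r) + 1 := by omega
    rw [h, pow_succ]
    simp only [Matrix.mul_assoc]
  · simp

/-- entries of `G^n` along a path -/
lemma hasDerivAt_pow (G R : ℝ → Matrix ι ι ℝ) (x : ℝ)
    (hG : ∀ i j, HasDerivAt (fun t => G t i j) (R x i j) x) (n : ℕ) :
    ∀ i j, HasDerivAt (fun t => (G t ^ n) i j) (DPow (G x) (R x) n i j) x := by
  induction n with
  | zero =>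
    intro i j
    simp only [pow_zero, DPow, Finset.range_zero, Finset.sum_empty, Matrix.zero_apply]
    exact hasDerivAt_const x _
  | succ n ih =>
    intro i j
    rw [DPow_succ]
    have e : ∀ t, (G t ^ (n + 1)) i j = ∑ k, (G t ^ n) i k * G t k j := by
      intro t
      rw [pow_succ, Matrix.mul_apply]
    simp only [e, Matrix.add_apply, Matrix.mul_apply]
    have h1 : HasDerivAt (fun t => ∑ k, (G t ^ n) i k * G t k j)
        (∑ k, (DPow (G x) (R x) n i k * G x k j + (G x ^ n) i k * R x k j)) x :=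
      HasDerivAt.fun_sum (fun k _ => (ih i k).mul (hG k j))
    refine h1.congr_deriv ?_
    rw [Finset.sum_add_distrib]

/-- the derivative of `Tn` along a path -/
lemma hasDerivAt_Tn (G R D : ℝ → Matrix ι ι ℝ) (x : ℝ)
    (hR : ∀ i j, HasDerivAt (fun t => R t i j) (D x i j) x)
    (hG : ∀ i j, HasDerivAt (fun t => G t i j) (R x i j) x) (n : ℕ) :
    HasDerivAt (fun t => Tn (G t) (R t) n) (DTn (G x) (R x) (D x) n) x := by
  have hP := hasDerivAt_pow G R x hG n
  have key : HasDerivAt (fun t => ∑ i, ∑ k, (G t ^ n) i k * R t k i)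
      (∑ i, ∑ k, (DPow (G x) (R x) n i k * R x k i + (G x ^ n) i k * D x k i)) x :=
    HasDerivAt.fun_sum (fun i _ => HasDerivAt.fun_sum (fun k _ => (hP i k).mul (hR k i)))
  have e1 : ∀ t, Tn (G t) (R t) n = ∑ i, ∑ k, (G t ^ n) i k * R t k i := by
    intro t
    simp only [Tn, Matrix.trace, Matrix.diag, Matrix.mul_apply]
  refine (key.congr_of_eventuallyEq (Filter.Eventually.of_forall e1)).congr_deriv ?_
  have e2 : ∑ r ∈ Finset.range n, trace (G x ^ r * R x * G x ^ (n - 1 - r) * R x)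
      = trace (DPow (G x) (R x) n * R x) := by
    unfold DPow
    rw [Finset.sum_mul, Matrix.trace_sum]
  unfold DTn
  rw [e2]
  simp only [Matrix.trace, Matrix.diag, Matrix.mul_apply, Finset.sum_add_distrib]
  ring

/-- the derivative of `Tp` along a path -/
theorem hasDerivAt_Tp (a : ℕ → ℝ) (d : ℕ) (G R D : ℝ → Matrix ι ι ℝ) (x : ℝ)
    (hR : ∀ i j, HasDerivAt (fun t => R t i j) (D x i j) x)
    (hG : ∀ i j, HasDerivAt (fun t => G t i j) (R x i j) x) :
    HasDerivAt (fun t => Tp a d (G t) (R t)) (DTp a d (G x) (R x) (D x)) x := by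
  unfold Tp DTp
  exact HasDerivAt.fun_sum (fun n _ => (hasDerivAt_Tn G R D x hR hG n).const_mul (a n))

lemma trace_DPow (G R : Matrix ι ι ℝ) (n : ℕ) :
    trace (DPow G R n) = (n : ℝ) * trace (G ^ (n - 1) * R) := by
  unfold DPow
  rw [Matrix.trace_sum]
  have h : ∀ r ∈ Finset.range n, trace (G ^ r * R * G ^ (n - 1 - r)) = trace (G ^ (n - 1) * R) := by
    intro r hr
    have hr' : r < n := Finset.mem_range.1 hr
    rw [Matrix.trace_mul_comm, ← Matrix.mul_assoc, ← pow_add]
    congr 3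
    omega
  rw [Finset.sum_congr rfl h]
  simp

/-- the derivative of `An` along a path -/
lemma hasDerivAt_An (G R : ℝ → Matrix ι ι ℝ) (x : ℝ)
    (hG : ∀ i j, HasDerivAt (fun t => G t i j) (R x i j) x) (n : ℕ) :
    HasDerivAt (fun t => An (G t) n) (DAn (G x) (R x) n) x := by
  have hP := hasDerivAt_pow G R x hG n
  have key : HasDerivAt (fun t => ∑ i, (G t ^ n) i i) (∑ i, DPow (G x) (R x) n i i) x :=
    HasDerivAt.fun_sum (fun i _ => hP i i)
  have e1 : ∀ t, An (G t) n = ∑ i, (G t ^ n) i i := by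
    intro t
    simp only [An, Matrix.trace, Matrix.diag]
  refine (key.congr_of_eventuallyEq (Filter.Eventually.of_forall e1)).congr_deriv ?_
  have h2 := trace_DPow (G x) (R x) n
  simp only [Matrix.trace, Matrix.diag] at h2
  simp only [DAn, Matrix.trace, Matrix.diag]
  exact h2

/-- the derivative of `Ap` along a path -/
theorem hasDerivAt_Ap (a : ℕ → ℝ) (d : ℕ) (G R : ℝ → Matrix ι ι ℝ) (x : ℝ)
    (hG : ∀ i j, HasDerivAt (fun t => G t i j) (R x i j) x) :
    HasDerivAt (fun t => Ap a d (G t)) (DAp a d (G x) (R x)) x := by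
  unfold Ap DAp
  exact HasDerivAt.fun_sum (fun n _ => (hasDerivAt_An G R x hG n).const_mul (a n))

end Vale.Agent.P371k
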